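import Vale.Agent.P097.H435.RC1
import Vale.Agent.P097.H128.Sector.Defs
import Vale.Agent.P097.H288.Div

/-! # P097 / REG-C: from the label to the lines -/

set_option linter.all false

open Complex Metric Filter Topology Set

namespace Vale.Agent.P097.H435.RC

open Vale.Agent.P097 Vale.Agent.P097.NZ Vale.Agent.P097.SC

theorem snc_an (z : ℂ) : AnalyticAt ℂ snc z := by
  have h : DifferentiableOn ℂ snc univ := by
    rw [show snc = dslope Complex.sin 0 from rfl, Complex.differentiableOn_dslope univ_mem]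
    exact Complex.differentiable_sin.differentiableOn
  exact h.analyticAt univ_mem

theorem snc_zero : snc 0 = 1 := by
  rw [show snc = dslope Complex.sin 0 from rfl, dslope_same, Complex.deriv_sin, Complex.cos_zero]

theorem J_div {J : ℂ → ℂ} {a : ℂ} (hJ : AnalyticAt ℂ J 0) (h0 : J 0 = 0) (h1 : HasDerivAt J a 0) :
    ∃ J1 : ℂ → ℂ, AnalyticAt ℂ J1 0 ∧ J1 0 = a ∧ ∀ w, J w = w * J1 w := by
  obtain ⟨p, hp⟩ := hJ
  refine ⟨dslope J 0, ⟨_, hp.has_fpower_series_dslope_fslope⟩, ?_, fun w => ?_⟩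
  · rw [dslope_same, h1.deriv]
  · have := sub_smul_dslope J 0 w
    rw [sub_zero, h0, sub_zero, smul_eq_mul] at this
    exact this.symm

theorem deriv_w {F : ℂ × ℂ → ℂ} {v : ℂ × ℂ} (hF : AnalyticAt ℂ F v) :
    deriv (fun w => F (v.1, w)) v.2 = S10.DS F v := (S10.hasDerivAt_s hF).deriv

theorem deriv_th {F : ℂ × ℂ → ℂ} {v : ℂ × ℂ} (hF : AnalyticAt ℂ F v) :
    deriv (fun θ => F (θ, v.2)) v.1 = S10.DT F v := (S10.hasDerivAt_t hF).deriv

theorem ev_axis {P : ℂ × ℂ → Prop} {z : ℂ} (h : ∀ᶠ p in 𝓝 ((z, 0) : ℂ × ℂ), P p) :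
    ∀ᶠ z' in 𝓝 z, P (z', 0) := eventually_axis h

/-- the inverse of the label -/
theorem exists_N {Φ q : ℂ → ℂ} {c : ℂ} {V : Set ℂ} (hV : IsOpen V) {F : ℂ × ℂ → ℂ}
    (hF : ∀ x ∈ V, Lab Φ q c F x) :
    ∃ N : ℂ × ℂ → ℂ, ∀ x ∈ V, AnalyticAt ℂ N (x, 0) ∧ N (x, 0) = 0 ∧
      (∀ᶠ v in 𝓝 ((x, 0) : ℂ × ℂ), F (v.1, N v) = v.2) ∧
      ∀ᶠ v in 𝓝 (((x, 0), 0) : (ℂ × ℂ) × ℂ), F (v.1.1, v.2) = v.1.2 → N v.1 = v.2 := by
  have hF0 : ∀ x ∈ V, F (x, 0) = 0 := by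
    intro x hx
    have h1 := (hF x hx).odd.self_of_nhds
    simp only [neg_zero] at h1
    have h2 : (2 : ℂ) * F (x, 0) = 0 := by linear_combination h1
    simpa using h2
  obtain ⟨g, hg⟩ := glue_root hV (fun v => F (v.1.1, v.2) - v.1.2) (fun _ => 0)
    (fun x hx => continuousAt_const) (fun x hx => by
      have h1 : AnalyticAt ℂ (fun v : (ℂ × ℂ) × ℂ => ((v.1.1, v.2) : ℂ × ℂ)) ((x, 0), 0) :=
        (analyticAt_fst.comp analyticAt_fst).prod analyticAt_snd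
      have h2 : AnalyticAt ℂ (fun v : (ℂ × ℂ) × ℂ => F (v.1.1, v.2)) ((x, 0), 0) :=
        AnalyticAt.comp (g := F) (f := fun v : (ℂ × ℂ) × ℂ => ((v.1.1, v.2) : ℂ × ℂ)) (hF x hx).an h1
      exact h2.sub (analyticAt_snd.comp analyticAt_fst))
    (fun x hx => by simp only [hF0 x hx, sub_zero]) (fun x hx => by
      have h1 := (hF x hx).nrm.self_of_nhds
      simp only [sub_zero]
      rw [h1]
      exact two_ne_zero)
  refine ⟨g, fun x hx => ?_⟩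
  obtain ⟨a1, a2, a3, a4⟩ := hg x hx
  refine ⟨a1, a2, ?_, ?_⟩
  · filter_upwards [a3] with v hv
    exact sub_eq_zero.1 hv
  · filter_upwards [a4] with v hv h
    exact hv (sub_eq_zero.2 h)

/-- derivative of the inverse of the label on the axis -/
theorem N_w {Φ q : ℂ → ℂ} {c : ℂ} {F N : ℂ × ℂ → ℂ} {x : ℂ} (hF : Lab Φ q c F x)
    (hN : AnalyticAt ℂ N (x, 0)) (hN0 : N (x, 0) = 0)
    (hFN : ∀ᶠ v in 𝓝 ((x, 0) : ℂ × ℂ), F (v.1, N v) = v.2) : S10.DS N (x, 0) = 1 / 2 := by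
  have h1 : HasDerivAt (fun w => N (x, w)) (S10.DS N (x, 0)) 0 := S10.hasDerivAt_s hN
  have h2 : HasDerivAt (fun η => F (x, η)) 2 (N (x, 0)) := by
    rw [hN0]
    have h3 : HasDerivAt (fun η => F (x, η)) (S10.DS F (x, 0)) 0 := S10.hasDerivAt_s hF.an
    have h4 := hF.nrm.self_of_nhds
    rw [h3.deriv] at h4
    rwa [h4] at h3
  have h3 : HasDerivAt (fun w => F (x, N (x, w))) (2 * S10.DS N (x, 0)) 0 :=
    HasDerivAt.comp (h₂ := fun η => F (x, η)) (h := fun w => N (x, w)) 0 h2 h1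
  have h4 : (fun w => F (x, N (x, w))) =ᶠ[𝓝 0] fun w => w := by
    have hc : ContinuousAt (fun w : ℂ => ((x, w) : ℂ × ℂ)) 0 := by fun_prop
    filter_upwards [hc.eventually hFN] with w hw
    exact hw
  have h5 := h3.unique ((hasDerivAt_id (0 : ℂ)).congr_of_eventuallyEq h4)
  linear_combination (1 / 2) * h5

/-- right hand side of the equation for the phase -/
noncomputable def RH (Φ : ℂ → ℂ) (c : ℂ) (N : ℂ × ℂ → ℂ) (v : ℂ × ℂ) : ℂ :=
  -c * (N v * snc (deriv Φ v.1 * N v)) * deriv (fun w => N (v.1, w)) v.2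

theorem RH_div {Φ q : ℂ → ℂ} {c : ℂ} {F N : ℂ × ℂ → ℂ} {x : ℂ} (hx : Crv Φ q c x)
    (hF : ∀ᶠ y in 𝓝 x, Lab Φ q c F y)
    (hN : ∀ᶠ y in 𝓝 x, AnalyticAt ℂ N (y, 0) ∧ N (y, 0) = 0 ∧
      ∀ᶠ v in 𝓝 ((y, 0) : ℂ × ℂ), F (v.1, N v) = v.2) :
    ∃ Q : ℂ × ℂ → ℂ, AnalyticAt ℂ Q (x, 0) ∧
      (∀ᶠ v in 𝓝 ((x, 0) : ℂ × ℂ), RH Φ c N v = v.2 * Q v) ∧ ∀ᶠ y in 𝓝 x, Q (y, 0) = -c / 4 := by
  set R : ℂ × ℂ → ℂ := fun v => -c * (N v * snc (deriv Φ v.1 * N v)) * S10.DS N v with hR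
  have hNx := hN.self_of_nhds.1
  have hRe : RH Φ c N =ᶠ[𝓝 ((x, 0) : ℂ × ℂ)] R := by
    filter_upwards [hNx.eventually_analyticAt] with v hv
    simp only [RH, hR, deriv_w hv]
  have hΦ : ∀ᶠ y in 𝓝 x, AnalyticAt ℂ Φ y := hx.aΦ.eventually_analyticAt
  have hRa : AnalyticAt ℂ R (x, 0) := by
    have h1 : AnalyticAt ℂ (fun v : ℂ × ℂ => deriv Φ v.1) (x, 0) :=
      AnalyticAt.comp (g := deriv Φ) (f := fun v : ℂ × ℂ => v.1) hx.aΦ.deriv analyticAt_fst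
    have h2 : AnalyticAt ℂ (fun v : ℂ × ℂ => snc (deriv Φ v.1 * N v)) (x, 0) :=
      AnalyticAt.comp (g := snc) (f := fun v : ℂ × ℂ => deriv Φ v.1 * N v) (snc_an _) (h1.mul hNx)
    exact (analyticAt_const.mul (hNx.mul h2)).mul (S10.analyticAt_DS hNx)
  have hR0 : ∀ᶠ y in 𝓝 x, R (y, 0) = 0 := by
    filter_upwards [hN] with y hy
    simp only [hR, hy.2.1]
    ring
  obtain ⟨Q, hQ, hQ1, hQ2⟩ := H288.exists_div hRa hR0
  refine ⟨Q, hQ, ?_, ?_⟩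
  · filter_upwards [hRe, hQ1] with v h1 h2
    rw [h1, h2, smul_eq_mul]
  · filter_upwards [hQ2, hN, hF, hΦ] with y h1 h2 h3 h4
    rw [h1]
    obtain ⟨k1, k2, k3⟩ := h2
    have hy : AnalyticAt ℂ R (y, 0) := by
      have h1 : AnalyticAt ℂ (fun v : ℂ × ℂ => deriv Φ v.1) (y, 0) :=
        AnalyticAt.comp (g := deriv Φ) (f := fun v : ℂ × ℂ => v.1) h4.deriv analyticAt_fst
      have h2 : AnalyticAt ℂ (fun v : ℂ × ℂ => snc (deriv Φ v.1 * N v)) (y, 0) :=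
        AnalyticAt.comp (g := snc) (f := fun v : ℂ × ℂ => deriv Φ v.1 * N v) (snc_an _) (h1.mul k1)
      exact (analyticAt_const.mul (k1.mul h2)).mul (S10.analyticAt_DS k1)
    have h5 : HasDerivAt (fun w => R (y, w)) (fderiv ℂ R (y, 0) (0, 1)) 0 := S10.hasDerivAt_s hy
    have h6 : HasDerivAt (fun w => N (y, w)) (1 / 2) 0 := by
      have := S10.hasDerivAt_s k1
      rw [N_w h3 k1 k2 k3] at this
      exact this
    -- `R (y, w) = N (y, w) * K w`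
    set K : ℂ → ℂ := fun w => -c * snc (deriv Φ y * N (y, w)) * S10.DS N (y, w) with hK
    have hKa : DifferentiableAt ℂ K 0 := by
      have c1 : AnalyticAt ℂ (fun w => N (y, w)) 0 := S10.analyticAt_s k1
      have c2 : AnalyticAt ℂ (fun w => S10.DS N (y, w)) 0 := S10.analyticAt_s (S10.analyticAt_DS k1)
      have c3 : AnalyticAt ℂ (fun w => snc (deriv Φ y * N (y, w))) 0 :=
        AnalyticAt.comp (g := snc) (f := fun w => deriv Φ y * N (y, w)) (snc_an _)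
          (analyticAt_const.mul c1)
      exact ((analyticAt_const.mul c3).mul c2).differentiableAt
    have h7 : HasDerivAt (fun w => N (y, w) * K w) (1 / 2 * K 0 + N (y, 0) * deriv K 0) 0 :=
      h6.mul hKa.hasDerivAt
    have h8 : (fun w => R (y, w)) = fun w => N (y, w) * K w := by
      funext w
      simp only [hR, hK]
      ring
    rw [h8] at h5
    rw [h5.unique h7, k2, hK]
    simp only [k2, mul_zero, snc_zero, N_w h3 k1 k2 k3]
    ring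

/-- **REG-C** -/
theorem regC : RegC := by
  intro Φ q c J V x₁ α p F N T F' hc hV hconv hcrv hx₁ hJ hJ0 hJ' hS hL hFF
  have evV : ∀ x ∈ V, ∀ᶠ y in 𝓝 x, y ∈ V := fun x hx => hV.mem_nhds hx
  -- the inverse of the label
  obtain ⟨N', hN'⟩ := exists_N hV hL
  -- `N' = N` near `x₁`
  have hNN : N' =ᶠ[𝓝 ((x₁, 0) : ℂ × ℂ)] N := by
    obtain ⟨a1, a2, a3, a4⟩ := hN' x₁ hx₁
    have hN0 : N (x₁, 0) = 0 := hS.N0.self_of_nhds
    have hcN : Tendsto (fun v : ℂ × ℂ => ((v, N v) : (ℂ × ℂ) × ℂ)) (𝓝 (x₁, 0))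
        (𝓝 ((x₁, 0), 0)) := by
      have h2 : ContinuousAt (fun v : ℂ × ℂ => ((v, N v) : (ℂ × ℂ) × ℂ)) (x₁, 0) :=
        continuousAt_id.prodMk hS.aN.continuousAt
      have h3 := h2.tendsto
      simp only [hN0] at h3
      exact h3
    have hcF : Tendsto (fun v : ℂ × ℂ => ((v.1, N v) : ℂ × ℂ)) (𝓝 (x₁, 0)) (𝓝 (x₁, 0)) := by
      have h2 : ContinuousAt (fun v : ℂ × ℂ => ((v.1, N v) : ℂ × ℂ)) (x₁, 0) :=
        continuousAt_fst.prodMk hS.aN.continuousAt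
      have h3 := h2.tendsto
      simp only [hN0] at h3
      exact h3
    filter_upwards [hcN.eventually a4, hcF.eventually hFF, hS.FN] with v h1 h2 h3
    exact h1 (by rw [h2, h3])
  obtain ⟨J1, hJ1, hJ10, hJ1m⟩ := J_div hJ hJ0 hJ'
  have hJ1ne : J1 0 ≠ 0 := by
    rw [hJ10]
    exact div_ne_zero (neg_ne_zero.2 hc) (by norm_num)
  have hJ1ev : ∀ᶠ w in 𝓝 (0 : ℂ), J1 w ≠ 0 := hJ1.continuousAt.eventually_ne hJ1ne
  have hJ1v : ∀ x : ℂ, ∀ᶠ v in 𝓝 ((x, 0) : ℂ × ℂ), J1 v.2 ≠ 0 := fun x =>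
    (continuous_snd.tendsto ((x, 0) : ℂ × ℂ)).eventually hJ1ev
  -- the derivative of the phase
  let g : ℂ × ℂ → ℂ := fun v => if v.2 = 0 then 1 else RH Φ c N' v / J v.2
  have hgQ : ∀ x ∈ V, ∃ Q : ℂ × ℂ → ℂ, AnalyticAt ℂ Q (x, 0) ∧
      (∀ᶠ v in 𝓝 ((x, 0) : ℂ × ℂ), RH Φ c N' v = v.2 * Q v) ∧ ∀ᶠ y in 𝓝 x, Q (y, 0) = -c / 4 := by
    intro x hx
    refine RH_div (F := F') (hcrv x hx) ?_ ?_
    · filter_upwards [evV x hx] with y hy
      exact hL y hy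
    · filter_upwards [evV x hx] with y hy
      obtain ⟨a1, a2, a3, a4⟩ := hN' y hy
      exact ⟨a1, a2, a3⟩
  have hJ1a : ∀ x : ℂ, AnalyticAt ℂ (fun v : ℂ × ℂ => J1 v.2) (x, 0) := fun x =>
    AnalyticAt.comp (g := J1) (f := fun v : ℂ × ℂ => v.2) hJ1 analyticAt_snd
  have hgeq : ∀ x ∈ V, ∃ Q : ℂ × ℂ → ℂ, AnalyticAt ℂ Q (x, 0) ∧
      g =ᶠ[𝓝 ((x, 0) : ℂ × ℂ)] (fun v => Q v / J1 v.2) ∧
      ∀ᶠ v in 𝓝 ((x, 0) : ℂ × ℂ), RH Φ c N' v = v.2 * Q v := by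
    intro x hx
    obtain ⟨Q, hQ, hQ1, hQ2⟩ := hgQ x hx
    refine ⟨Q, hQ, ?_, hQ1⟩
    have hQ2' : ∀ᶠ v in 𝓝 ((x, 0) : ℂ × ℂ), Q (v.1, 0) = -c / 4 :=
      (continuous_fst.tendsto ((x, 0) : ℂ × ℂ)).eventually hQ2
    filter_upwards [hQ1, hQ2', hJ1v x] with v h1 h2 h3
    simp only [g]
    split_ifs with h0
    · have : v = (v.1, 0) := by rw [← h0]
      rw [this, h2]
      simp only [hJ10]
      rw [div_self]
      exact div_ne_zero (neg_ne_zero.2 hc) (by norm_num)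
    · rw [h1, hJ1m, mul_div_mul_left _ _ h0]
  have hga : ∀ x ∈ V, AnalyticAt ℂ g (x, 0) := by
    intro x hx
    obtain ⟨Q, hQ, hQ1, -⟩ := hgeq x hx
    exact (hQ.div (hJ1a x) hJ1ne).congr hQ1.symm
  -- the phase near `x₁`
  have hdT : ∀ᶠ v in 𝓝 ((x₁, 0) : ℂ × ℂ), deriv (fun θ => T (θ, v.2)) v.1 = g v := by
    have e1 : ∀ᶠ v in 𝓝 ((x₁, 0) : ℂ × ℂ), RH Φ c N' v =
        -c * (N v * NZ.snc (deriv Φ v.1 * N v)) * deriv (fun w => N (v.1, w)) v.2 := by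
      filter_upwards [hNN.eventuallyEq_nhds] with v hv
      have h2 : (fun w => N' (v.1, w)) =ᶠ[𝓝 v.2] fun w => N (v.1, w) := by
        have hcc : ContinuousAt (fun w : ℂ => ((v.1, w) : ℂ × ℂ)) v.2 := by fun_prop
        exact hcc.eventually hv
      simp only [RH, hv.self_of_nhds, h2.deriv_eq]
    have e2 : ∀ᶠ v in 𝓝 ((x₁, 0) : ℂ × ℂ), ∀ᶠ z in 𝓝 v.1, T (z, 0) = z :=
      (continuous_fst.tendsto ((x₁, 0) : ℂ × ℂ)).eventually hS.T0.eventually_nhds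
    filter_upwards [e1, e2, hS.dT, hJ1v x₁] with v h1 h2 h3 h4
    simp only [g]
    split_ifs with h0
    · rw [h0]
      have h5 : (fun θ => T (θ, 0)) =ᶠ[𝓝 v.1] fun θ => θ := h2
      rw [h5.deriv_eq]
      exact (hasDerivAt_id v.1).deriv
    · rw [h1, ← h3, mul_div_cancel_left₀]
      rw [hJ1m]
      exact mul_ne_zero h0 h4
  obtain ⟨T', hT', hTT⟩ := prim_param hV hconv hx₁ hga hS.aT hdT
  have hT0 : ∀ x ∈ V, T' (x, 0) = x := by
    have hd : ∀ y ∈ V, HasDerivAt (fun y => T' (y, 0) - y) 0 y := by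
      intro y hy
      have h1 : HasDerivAt (fun θ => T' (θ, 0)) (S10.DT T' (y, 0)) y := S10.hasDerivAt_t (hT' y hy).1
      have h2 := (hT' y hy).2.self_of_nhds
      rw [deriv_th (hT' y hy).1] at h2
      have h3 : g (y, 0) = 1 := by simp only [g, if_true]
      rw [h3] at h2
      rw [h2] at h1
      have h4 := h1.sub (hasDerivAt_id y)
      rwa [sub_self] at h4
    intro x hx
    have h4 := hconv.norm_image_sub_le_of_norm_hasDerivWithin_le (C := 0)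
      (f := fun y => T' (y, 0) - y) (f' := fun _ => 0)
      (fun y hy => (hd y hy).hasDerivWithinAt) (fun y _ => by simp) hx₁ hx
    have h5 : T' (x₁, 0) - x₁ = 0 := by
      rw [hTT.self_of_nhds, hS.T0.self_of_nhds, sub_self]
    rw [zero_mul, h5, sub_zero] at h4
    exact sub_eq_zero.1 (norm_le_zero_iff.1 h4)
  -- the inverse of the phase
  obtain ⟨Θ, hΘ⟩ := glue_root hV (fun v => T' (v.2, v.1.2) + v.1.2 / 2 - v.1.1) (fun x => x)
    (fun x _ => continuousAt_id) (fun x hx => by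
      have h1 : AnalyticAt ℂ (fun v : (ℂ × ℂ) × ℂ => ((v.2, v.1.2) : ℂ × ℂ)) ((x, 0), x) :=
        analyticAt_snd.prod (analyticAt_snd.comp analyticAt_fst)
      have h2 : AnalyticAt ℂ (fun v : (ℂ × ℂ) × ℂ => T' (v.2, v.1.2)) ((x, 0), x) :=
        AnalyticAt.comp (g := T') (f := fun v : (ℂ × ℂ) × ℂ => ((v.2, v.1.2) : ℂ × ℂ)) (hT' x hx).1 h1
      have h3 : AnalyticAt ℂ (fun v : (ℂ × ℂ) × ℂ => v.1.2) ((x, 0), x) :=
        analyticAt_snd.comp analyticAt_fst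
      have h4 : AnalyticAt ℂ (fun v : (ℂ × ℂ) × ℂ => v.1.1) ((x, 0), x) :=
        analyticAt_fst.comp analyticAt_fst
      exact (h2.add h3.div_const).sub h4)
    (fun x hx => by simp only [hT0 x hx, zero_div, add_zero, sub_self])
    (fun x hx => by
      have h1 := (hT' x hx).2.self_of_nhds
      have h3 : g (x, 0) = 1 := by simp only [g, if_true]
      rw [h3] at h1
      have h4 : HasDerivAt (fun θ => T' (θ, 0)) 1 x := by
        have h5 := S10.hasDerivAt_t (hT' x hx).1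
        rw [deriv_th (hT' x hx).1] at h1
        rw [h1] at h5
        exact h5
      have h6 : HasDerivAt (fun y => T' (y, 0) + 0 / 2 - x) 1 x := (h4.add_const _).sub_const _
      rw [h6.deriv]
      exact one_ne_zero)
  let α' : ℂ × ℂ → ℂ := fun u => aL Φ 1 (Θ u, N' (Θ u, u.2))
  let p' : ℂ × ℂ → ℂ := fun u => qL Φ q 1 (Θ u, N' (Θ u, u.2))
  have hpair : ∀ x ∈ V, AnalyticAt ℂ (fun u : ℂ × ℂ => ((Θ u, N' (Θ u, u.2)) : ℂ × ℂ)) (x, 0) ∧
      ((Θ (x, 0), N' (Θ (x, 0), (0 : ℂ))) : ℂ × ℂ) = (x, 0) := by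
    intro x hx
    obtain ⟨a1, a2, a3, a4⟩ := hΘ x hx
    obtain ⟨b1, b2, b3, b4⟩ := hN' x hx
    have h1 : AnalyticAt ℂ (fun u : ℂ × ℂ => ((Θ u, u.2) : ℂ × ℂ)) (x, 0) := a1.prod analyticAt_snd
    have h2 : AnalyticAt ℂ (fun u : ℂ × ℂ => N' (Θ u, u.2)) (x, 0) := by
      refine AnalyticAt.comp_of_eq (g := N') (f := fun u : ℂ × ℂ => ((Θ u, u.2) : ℂ × ℂ)) b1 h1 ?_
      simp only [a2]
    exact ⟨a1.prod h2, by rw [a2, b2]⟩
  have haLa : ∀ x ∈ V, AnalyticAt ℂ (aL Φ 1) (x, 0) := by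
    intro x hx
    have h1 : AnalyticAt ℂ (fun v : ℂ × ℂ => Φ v.1) (x, 0) :=
      AnalyticAt.comp (g := Φ) (f := fun v : ℂ × ℂ => v.1) (hcrv x hx).aΦ analyticAt_fst
    have h2 : AnalyticAt ℂ (fun v : ℂ × ℂ => deriv Φ v.1) (x, 0) :=
      AnalyticAt.comp (g := deriv Φ) (f := fun v : ℂ × ℂ => v.1) (hcrv x hx).aΦ.deriv analyticAt_fst
    exact h1.add (analyticAt_const.mul (h2.mul analyticAt_snd))
  have hqLa : ∀ x ∈ V, AnalyticAt ℂ (qL Φ q 1) (x, 0) := by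
    intro x hx
    have h1 : AnalyticAt ℂ (fun v : ℂ × ℂ => q v.1) (x, 0) :=
      AnalyticAt.comp (g := q) (f := fun v : ℂ × ℂ => v.1) (hcrv x hx).aq analyticAt_fst
    have h2 : AnalyticAt ℂ (fun v : ℂ × ℂ => deriv q v.1) (x, 0) :=
      AnalyticAt.comp (g := deriv q) (f := fun v : ℂ × ℂ => v.1) (hcrv x hx).aq.deriv analyticAt_fst
    have h3 : AnalyticAt ℂ (fun v : ℂ × ℂ => deriv Φ v.1 * v.2) (x, 0) :=
      (AnalyticAt.comp (g := deriv Φ) (f := fun v : ℂ × ℂ => v.1) (hcrv x hx).aΦ.deriv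
        analyticAt_fst).mul analyticAt_snd
    have h4 : AnalyticAt ℂ (fun v : ℂ × ℂ => snc (deriv Φ v.1 * v.2)) (x, 0) :=
      AnalyticAt.comp (g := snc) (f := fun v : ℂ × ℂ => deriv Φ v.1 * v.2) (snc_an _) h3
    have h5 : AnalyticAt ℂ (fun v : ℂ × ℂ => Complex.cos (deriv Φ v.1 * v.2)) (x, 0) :=
      AnalyticAt.comp (g := Complex.cos) (f := fun v : ℂ × ℂ => deriv Φ v.1 * v.2)
        (Complex.differentiable_cos.analyticAt _) h3
    exact (h1.mul h5).add (analyticAt_const.mul (h2.mul (analyticAt_snd.mul h4)))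
  have hα'a : ∀ x ∈ V, AnalyticAt ℂ α' (x, 0) := fun x hx =>
    AnalyticAt.comp_of_eq (g := aL Φ 1) (f := fun u : ℂ × ℂ => ((Θ u, N' (Θ u, u.2)) : ℂ × ℂ))
      (haLa x hx) (hpair x hx).1 (hpair x hx).2
  have hp'a : ∀ x ∈ V, AnalyticAt ℂ p' (x, 0) := fun x hx =>
    AnalyticAt.comp_of_eq (g := qL Φ q 1) (f := fun u : ℂ × ℂ => ((Θ u, N' (Θ u, u.2)) : ℂ × ℂ))
      (hqLa x hx) (hpair x hx).1 (hpair x hx).2
  -- the vertex on the leaf
  have hΘT : ∀ x ∈ V, ∀ᶠ v in 𝓝 ((x, 0) : ℂ × ℂ), Θ (T' v + v.2 / 2, v.2) = v.1 := by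
    intro x hx
    obtain ⟨a1, a2, a3, a4⟩ := hΘ x hx
    have hcc : Tendsto (fun v : ℂ × ℂ => (((T' v + v.2 / 2, v.2), v.1) : (ℂ × ℂ) × ℂ)) (𝓝 (x, 0))
        (𝓝 ((x, 0), x)) := by
      have h2 : ContinuousAt (fun v : ℂ × ℂ => (((T' v + v.2 / 2, v.2), v.1) : (ℂ × ℂ) × ℂ)) (x, 0) := by
        have h3 : ContinuousAt (fun v : ℂ × ℂ => T' v + v.2 / 2) (x, 0) :=
          (hT' x hx).1.continuousAt.add (continuousAt_snd.div_const 2)
        exact (h3.prodMk continuousAt_snd).prodMk continuousAt_fst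
      have h3 := h2.tendsto
      simp only [hT0 x hx, zero_div, add_zero] at h3
      exact h3
    filter_upwards [hcc.eventually a4] with v hv
    exact hv (by ring)
  refine ⟨α', p', N', T', fun x hx => ?_, ?_, ?_⟩
  · obtain ⟨b1, b2, b3, b4⟩ := hN' x hx
    obtain ⟨Q, hQ, hQ1, hQ2⟩ := hgeq x hx
    exact
      { lab := hL x hx
        aN := b1
        N0 := by
          filter_upwards [evV x hx] with y hy
          exact (hN' y hy).2.1
        FN := b3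
        aT := (hT' x hx).1
        T0 := by
          filter_upwards [evV x hx] with y hy
          exact hT0 y hy
        dT := by
          filter_upwards [(hT' x hx).2, hQ1, hQ2, hJ1v x] with v h1 h2 h3 h4
          rw [h1, h2, hJ1m]
          have h5 : RH Φ c N' v = -c * (N' v * NZ.snc (deriv Φ v.1 * N' v)) *
              deriv (fun w => N' (v.1, w)) v.2 := rfl
          rw [← h5, h3]
          field_simp
        aα := hα'a x hx
        ap := hp'a x hx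
        eα := by
          filter_upwards [hΘT x hx] with v hv
          simp only [α', hv]
        ep := by
          filter_upwards [hΘT x hx] with v hv
          simp only [p', hv] }
  · obtain ⟨a1, a2, a3, a4⟩ := hΘ x₁ hx₁
    have hcc : Tendsto (fun u : ℂ × ℂ => ((Θ u, u.2) : ℂ × ℂ)) (𝓝 (x₁, 0)) (𝓝 (x₁, 0)) := by
      have h2 : ContinuousAt (fun u : ℂ × ℂ => ((Θ u, u.2) : ℂ × ℂ)) (x₁, 0) :=
        a1.continuousAt.prodMk continuousAt_snd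
      have h3 := h2.tendsto
      simp only [a2] at h3
      exact h3
    filter_upwards [a3, hcc.eventually hS.eα, hcc.eventually hTT, hcc.eventually hNN] with u h1 h2 h3 h4
    have h5 : T (Θ u, u.2) + u.2 / 2 = u.1 := by
      rw [← h3]
      exact sub_eq_zero.1 h1
    rw [h5] at h2
    show aL Φ 1 (Θ u, N' (Θ u, u.2)) = α u
    rw [h4, ← h2]
  · obtain ⟨a1, a2, a3, a4⟩ := hΘ x₁ hx₁
    have hcc : Tendsto (fun u : ℂ × ℂ => ((Θ u, u.2) : ℂ × ℂ)) (𝓝 (x₁, 0)) (𝓝 (x₁, 0)) := by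
      have h2 : ContinuousAt (fun u : ℂ × ℂ => ((Θ u, u.2) : ℂ × ℂ)) (x₁, 0) :=
        a1.continuousAt.prodMk continuousAt_snd
      have h3 := h2.tendsto
      simp only [a2] at h3
      exact h3
    filter_upwards [a3, hcc.eventually hS.ep, hcc.eventually hTT, hcc.eventually hNN] with u h1 h2 h3 h4
    have h5 : T (Θ u, u.2) + u.2 / 2 = u.1 := by
      rw [← h3]
      exact sub_eq_zero.1 h1
    rw [h5] at h2
    show qL Φ q 1 (Θ u, N' (Θ u, u.2)) = p u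
    rw [h4, ← h2]

end Vale.Agent.P097.H435.RC
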