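import Mathlib

/-! # P097: linear independence of square roots of quadratics over the constants of a derivation.
Owner: helper435. -/

set_option linter.all false

open Polynomial

namespace Vale.Agent.P097.H435.Kum

variable {F : Type*} [Field F]

/-- the field of constants -/
def cst (V : Derivation ℤ F F) : Subfield F where
  carrier := {x | V x = 0}
  mul_mem' := fun {a b} ha hb => by
    show V (a * b) = 0
    rw [V.leibniz, show V a = 0 from ha, show V b = 0 from hb]; simp
  one_mem' := V.map_one_eq_zero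
  add_mem' := fun {a b} ha hb => by
    show V (a + b) = 0
    rw [map_add, show V a = 0 from ha, show V b = 0 from hb, add_zero]
  zero_mem' := map_zero V
  neg_mem' := fun {a} ha => by
    show V (-a) = 0
    rw [map_neg, show V a = 0 from ha, neg_zero]
  inv_mem' := fun a ha => by
    show V a⁻¹ = 0
    rw [V.leibniz_inv, show V a = 0 from ha, smul_zero]

theorem mem_cst {V : Derivation ℤ F F} {x : F} : x ∈ cst V ↔ V x = 0 := Iff.rfl

/-- the derivation over its constants -/
def VC (V : Derivation ℤ F F) : Derivation (cst V) F F where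
  toFun := V
  map_add' := map_add V
  map_smul' := fun c x => by
    show V ((c : F) * x) = (c : F) * V x
    rw [V.leibniz, show V (c : F) = 0 from c.2]; simp
  map_one_eq_zero' := V.map_one_eq_zero
  leibniz' := fun a b => V.leibniz a b

theorem V_aeval (V : Derivation ℤ F F) (u : F) (P : (cst V)[X]) :
    V (aeval u P) = aeval u (derivative P) * V u := by
  have := (VC V).map_aeval P u
  exact this

/-- transcendence of `u` over the constants -/
theorem aeval_inj [CharZero F] (V : Derivation ℤ F F) {u : F} (hu : V u ≠ 0) (P : (cst V)[X])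
    (h : aeval u P = 0) : P = 0 := by
  induction hn : P.natDegree using Nat.strong_induction_on generalizing P with
  | _ n ih =>
    have h1 : aeval u (derivative P) = 0 := by
      have := V_aeval V u P
      rw [h, map_zero] at this
      exact (mul_eq_zero.1 this.symm).resolve_right hu
    by_cases h0 : P.natDegree = 0
    · obtain ⟨c, rfl⟩ := natDegree_eq_zero.1 h0
      rw [aeval_C] at h
      have : c = 0 := by
        apply (algebraMap (cst V) F).injective
        rw [h, map_zero]
      rw [this, C_0]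
    · have h2 : derivative P = 0 :=
        ih _ (by rw [← hn]; exact natDegree_derivative_lt h0) _ h1 rfl
      have : P.natDegree = 0 := natDegree_eq_zero_of_derivative_eq_zero h2
      exact absurd this h0

/-- if `P² q = c² Q² q'` with `q`, `q'` squarefree then `P / Q` is constant -/
theorem ratio_const {K : Type*} [Field K] {P Q q q' : K[X]} {c : K} (hP : P ≠ 0) (hQ : Q ≠ 0)
    (hc : c ≠ 0) (hq : Squarefree q) (hq' : Squarefree q')
    (h : P ^ 2 * q = C (c ^ 2) * Q ^ 2 * q') : ∃ d : K, P = C d * Q := by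
  classical
  set g := EuclideanDomain.gcd P Q with hg
  obtain ⟨P1, hP1⟩ : g ∣ P := EuclideanDomain.gcd_dvd_left P Q
  obtain ⟨Q1, hQ1⟩ : g ∣ Q := EuclideanDomain.gcd_dvd_right P Q
  have hg0 : g ≠ 0 := by
    intro h0
    rw [h0, zero_mul] at hP1
    exact hP hP1
  have hcop : IsCoprime P1 Q1 := by
    obtain ⟨a, b, hab⟩ : ∃ a b, g = P * a + Q * b :=
      ⟨_, _, EuclideanDomain.gcd_eq_gcd_ab P Q⟩
    refine ⟨a, b, ?_⟩
    apply mul_left_cancel₀ hg0
    rw [mul_one]
    conv_rhs => rw [hab]
    rw [hP1, hQ1]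
    ring
  have h1 : P1 ^ 2 * q = C (c ^ 2) * Q1 ^ 2 * q' := by
    apply mul_left_cancel₀ (pow_ne_zero 2 hg0)
    calc g ^ 2 * (P1 ^ 2 * q) = P ^ 2 * q := by rw [hP1]; ring
      _ = C (c ^ 2) * Q ^ 2 * q' := h
      _ = g ^ 2 * (C (c ^ 2) * Q1 ^ 2 * q') := by rw [hQ1]; ring
  have u1 : IsUnit Q1 := by
    apply hq Q1
    have : Q1 * Q1 ∣ P1 ^ 2 * q := ⟨C (c ^ 2) * q', by rw [h1]; ring⟩
    have hc2 : IsCoprime (Q1 * Q1) (P1 ^ 2) := by
      have := hcop.symm.pow (m := 2) (n := 2)
      rwa [pow_two Q1] at this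
    exact hc2.dvd_of_dvd_mul_left this
  have u2 : IsUnit P1 := by
    apply hq' P1
    have hcu : IsUnit (C (c ^ 2)) := isUnit_C.2 (isUnit_iff_ne_zero.2 (pow_ne_zero 2 hc))
    have : P1 * P1 ∣ (C (c ^ 2) * Q1 ^ 2) * q' := ⟨q, by rw [← h1]; ring⟩
    have hc2 : IsCoprime (P1 * P1) (C (c ^ 2) * Q1 ^ 2) := by
      rw [← pow_two]
      exact ((isCoprime_mul_unit_left_right hcu _ _).2 (hcop.pow))
    exact hc2.dvd_of_dvd_mul_left this
  obtain ⟨a, ha, haP⟩ := Polynomial.isUnit_iff.1 u2
  obtain ⟨b, hb, hbQ⟩ := Polynomial.isUnit_iff.1 u1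
  have hb0 : b ≠ 0 := hb.ne_zero
  refine ⟨a / b, ?_⟩
  rw [hP1, hQ1, ← haP, ← hbQ]
  rw [show C (a / b) * (g * C b) = g * (C (a / b) * C b) by ring, ← C_mul, div_mul_cancel₀ _ hb0]

theorem leib_div {F : Type*} [Field F] (V : Derivation ℤ F F) (a b : F) (hb : b ≠ 0) :
    V (a / b) = (V a * b - a * V b) / b ^ 2 := by
  rw [div_eq_mul_inv, V.leibniz, V.leibniz_inv]
  simp only [smul_eq_mul]
  field_simp
  ring

theorem squarefree_quad {K : Type*} [Field K] [CharZero K] {r g T : K} (hr : r ≠ 0) (hT : T ≠ 0) :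
    Squarefree ((C r * X + C g) ^ 2 - C T : K[X]) := by
  apply Polynomial.Separable.squarefree
  refine ⟨C (-1 / T), C (1 / (2 * r * T)) * (C r * X + C g), ?_⟩
  have h2 : derivative ((C r * X + C g) ^ 2 - C T : K[X]) = C (2 * r) * (C r * X + C g) := by
    rw [derivative_sub, derivative_C, derivative_pow, derivative_add, derivative_C_mul_X,
      derivative_C, sub_zero, add_zero]
    simp only [Nat.cast_ofNat, Nat.add_one_sub_one, pow_one, C_mul]
    rw [show (C (2 : K)) = (2 : K[X]) from map_ofNat C 2]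
    ring
  rw [h2]
  have e1 : C (1 / (2 * r * T)) * C (2 * r) = (C (1 / T) : K[X]) := by
    rw [← C_mul]
    congr 1
    field_simp
  have e2 : C (1 / T) * C T = (1 : K[X]) := by
    rw [← C_mul, one_div_mul_cancel hT, C_1]
  have e3 : (C (-1 / T) : K[X]) = - C (1 / T) := by
    rw [← C_neg]
    congr 1
    ring
  rw [e3]
  linear_combination (C r * X + C g) ^ 2 * e1 + e2

theorem kummer {F ι : Type*} [Field F] [CharZero F] (V : Derivation ℤ F F) (u : F) (hu : V u ≠ 0)
    (t : Finset ι) (v r g T : ι → F)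
    (h : ∀ i ∈ t, v i ^ 2 = (r i * u + g i) ^ 2 - T i ∧ V (r i) = 0 ∧ V (g i) = 0 ∧
      V (T i) = 0 ∧ r i ≠ 0 ∧ T i ≠ 0)
    (hne : ∀ i ∈ t, ∀ j ∈ t, i ≠ j → V (v i / v j) ≠ 0) :
    ∀ c : ι → F, (∀ i, V (c i) = 0) → ∑ i ∈ t, c i * v i = 0 → ∀ i ∈ t, c i = 0 := by
  classical
  set K0 : IntermediateField (cst V) F := IntermediateField.adjoin (cst V) {u} with hK0
  have memK : ∀ x : F, x ∈ K0 ↔ ∃ P Q : (cst V)[X], x = aeval u P / aeval u Q := by
    intro x
    rw [hK0, IntermediateField.mem_adjoin_simple_iff]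
  have hcK : ∀ c : F, V c = 0 → c ∈ K0 := fun c hc => K0.algebraMap_mem ⟨c, hc⟩
  have huK : u ∈ K0 := IntermediateField.mem_adjoin_simple_self _ u
  have hδ : ∀ x ∈ K0, V x / V u ∈ K0 := by
    intro x hx
    obtain ⟨P, Q, rfl⟩ := (memK x).1 hx
    by_cases hQ : aeval u Q = 0
    · rw [hQ, div_zero, map_zero, zero_div]
      exact K0.zero_mem
    · rw [memK]
      refine ⟨derivative P * Q - P * derivative Q, Q ^ 2, ?_⟩
      rw [leib_div V _ _ hQ, V_aeval, V_aeval]
      simp only [map_sub, map_mul, map_pow]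
      field_simp
  -- the logarithmic derivatives
  have hv0 : ∀ i ∈ t, v i ≠ 0 := by
    intro i hi h0
    obtain ⟨h1, h2, h3, h4, h5, h6⟩ := h i hi
    rw [h0] at h1
    have h7 : (r i * u + g i) ^ 2 = T i := by linear_combination -h1
    have h8 : V ((r i * u + g i) ^ 2) = 0 := by rw [h7, h4]
    rw [V.leibniz_pow, map_add, V.leibniz, h2, h3] at h8
    simp only [smul_eq_mul, mul_zero, add_zero, nsmul_eq_mul] at h8
    have h9 : r i * u + g i ≠ 0 := by
      intro h9
      rw [h9] at h7
      exact h6 (by rw [← h7]; ring)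
    have : (2 : F) * ((r i * u + g i) * (r i * V u)) = 0 := by
      simpa using h8
    have h10 : r i * V u ≠ 0 := mul_ne_zero h5 hu
    exact (mul_ne_zero two_ne_zero (mul_ne_zero h9 h10)) this
  set q : ι → F := fun i => (r i * u + g i) ^ 2 - T i with hq
  have hq0 : ∀ i ∈ t, q i ≠ 0 := by
    intro i hi
    have := (h i hi).1
    simp only [hq]
    rw [← this]
    exact pow_ne_zero 2 (hv0 i hi)
  set a : ι → F := fun i => (r i * u + g i) * r i / q i with ha
  have haK : ∀ i ∈ t, a i ∈ K0 := by
    intro i hi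
    obtain ⟨h1, h2, h3, h4, h5, h6⟩ := h i hi
    have e1 : r i * u + g i ∈ K0 := K0.add_mem (K0.mul_mem (hcK _ h2) huK) (hcK _ h3)
    refine K0.div_mem (K0.mul_mem e1 (hcK _ h2)) ?_
    exact K0.sub_mem (pow_mem e1 2) (hcK _ h4)
  have hVv : ∀ i ∈ t, V (v i) = a i * v i * V u := by
    intro i hi
    obtain ⟨h1, h2, h3, h4, h5, h6⟩ := h i hi
    have h7 : V (v i ^ 2) = V ((r i * u + g i) ^ 2 - T i) := by rw [h1]
    rw [map_sub, V.leibniz_pow, V.leibniz_pow, map_add, V.leibniz, h2, h3, h4] at h7
    simp only [smul_eq_mul, mul_zero, add_zero, nsmul_eq_mul, sub_zero] at h7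
    have h8 : v i * V (v i) = (r i * u + g i) * (r i * V u) := by
      have : (2 : F) * (v i * V (v i)) = 2 * ((r i * u + g i) * (r i * V u)) := by
        simpa using h7
      exact mul_left_cancel₀ two_ne_zero this
    have hvi := hv0 i hi
    apply mul_left_cancel₀ hvi
    rw [h8]
    have hqi := hq0 i hi
    have h9 : v i ^ 2 = q i := h1
    simp only [ha]
    rw [show v i * ((r i * u + g i) * r i / q i * v i * V u) =
      (v i ^ 2 / q i) * ((r i * u + g i) * (r i * V u)) by ring, h9, div_self hqi, one_mul]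
  -- the main claim
  have main : ∀ t' : Finset ι, t' ⊆ t → ∀ A : ι → F, (∀ i ∈ t', A i ∈ K0) →
      ∑ i ∈ t', A i * v i = 0 → ∀ i ∈ t', A i = 0 := by
    intro t'
    induction t' using Finset.strongInductionOn with
    | _ t' ih =>
      intro htt A hA hsum
      by_contra hcon
      push Not at hcon
      obtain ⟨i0, hi0, hA0⟩ := hcon
      have hi0t := htt hi0
      set m : F := V (A i0) / V u / A i0 + a i0 with hm
      have hmK : m ∈ K0 := K0.add_mem (K0.div_mem (hδ _ (hA i0 hi0)) (hA i0 hi0)) (haK i0 hi0t)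
      set B : ι → F := fun i => V (A i) / V u + a i * A i - m * A i with hB
      have hBK : ∀ i ∈ t', B i ∈ K0 := fun i hi =>
        K0.sub_mem (K0.add_mem (hδ _ (hA i hi)) (K0.mul_mem (haK i (htt hi)) (hA i hi)))
          (K0.mul_mem hmK (hA i hi))
      have hBsum : ∑ i ∈ t', B i * v i = 0 := by
        have e1 : V (∑ i ∈ t', A i * v i) = 0 := by rw [hsum, map_zero]
        rw [map_sum] at e1
        have e2 : ∑ i ∈ t', B i * v i =
            (∑ i ∈ t', V (A i * v i)) / V u - m * ∑ i ∈ t', A i * v i := by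
          rw [Finset.sum_div, Finset.mul_sum, ← Finset.sum_sub_distrib]
          apply Finset.sum_congr rfl
          intro i hi
          rw [V.leibniz, hVv i (htt hi)]
          simp only [smul_eq_mul, hB]
          field_simp
          ring
        rw [e2, e1, hsum]
        ring
      have hB0 : B i0 = 0 := by
        simp only [hB, hm]
        field_simp
        ring
      have hBe : ∀ i ∈ t'.erase i0, B i = 0 := by
        apply ih (t'.erase i0) (Finset.erase_ssubset hi0)
          ((Finset.erase_subset _ _).trans htt) B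
          (fun i hi => hBK i (Finset.mem_of_mem_erase hi))
        rw [← Finset.add_sum_erase _ _ hi0, hB0, zero_mul, zero_add] at hBsum
        exact hBsum
      obtain ⟨i1, hi1, hA1⟩ : ∃ i1 ∈ t'.erase i0, A i1 ≠ 0 := by
        by_contra hno
        push Not at hno
        rw [← Finset.add_sum_erase _ _ hi0, Finset.sum_eq_zero (fun i hi => by
          rw [hno i hi, zero_mul]), add_zero] at hsum
        exact (mul_ne_zero hA0 (hv0 i0 hi0t)) hsum
      have hi1' := Finset.mem_of_mem_erase hi1
      have hi1t := htt hi1'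
      have hne01 : i1 ≠ i0 := Finset.ne_of_mem_erase hi1
      have hB1 := hBe i1 hi1
      have hv1 := hv0 i1 hi1t
      have hv00 := hv0 i0 hi0t
      -- the quotient is constant
      have e1 : V (A i1 * v i1) = m * V u * (A i1 * v i1) := by
        have : V (A i1) = (m - a i1) * A i1 * V u := by
          have : V (A i1) / V u = (m - a i1) * A i1 := by
            simp only [hB] at hB1
            linear_combination hB1
          rw [← this, div_mul_cancel₀ _ hu]
        rw [V.leibniz, hVv i1 hi1t, this]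
        simp only [smul_eq_mul]
        ring
      have e0 : V (A i0 * v i0) = m * V u * (A i0 * v i0) := by
        rw [V.leibniz, hVv i0 hi0t]
        simp only [smul_eq_mul, hm]
        field_simp
        ring
      have hy : A i0 * v i0 ≠ 0 := mul_ne_zero hA0 hv00
      have hx : A i1 * v i1 ≠ 0 := mul_ne_zero hA1 hv1
      set κ : F := A i1 * v i1 / (A i0 * v i0) with hκ
      have hκV : V κ = 0 := by
        rw [hκ, leib_div V _ _ hy, e1, e0]
        ring
      have hκ0 : κ ≠ 0 := div_ne_zero hx hy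
      have hκm : A i1 * v i1 = κ * (A i0 * v i0) := by
        rw [hκ, div_mul_cancel₀ _ hy]
      obtain ⟨P1, Q1, h1⟩ := (memK _).1 (hA i1 hi1')
      obtain ⟨P0, Q0, h0⟩ := (memK _).1 (hA i0 hi0)
      have hP1 : aeval u P1 ≠ 0 := fun hh => hA1 (by rw [h1, hh, zero_div])
      have hQ1 : aeval u Q1 ≠ 0 := fun hh => hA1 (by rw [h1, hh, div_zero])
      have hP0 : aeval u P0 ≠ 0 := fun hh => hA0 (by rw [h0, hh, zero_div])
      have hQ0 : aeval u Q0 ≠ 0 := fun hh => hA0 (by rw [h0, hh, div_zero])
      obtain ⟨g1, g2, g3, g4, g5, g6⟩ := h i1 hi1t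
      obtain ⟨k1, k2, k3, k4, k5, k6⟩ := h i0 hi0t
      have key : (P1 * Q0) ^ 2 * ((C (⟨r i1, g2⟩ : cst V) * X + C ⟨g i1, g3⟩) ^ 2 - C ⟨T i1, g4⟩) =
          C ((⟨κ, hκV⟩ : cst V) ^ 2) * (P0 * Q1) ^ 2 *
            ((C (⟨r i0, k2⟩ : cst V) * X + C ⟨g i0, k3⟩) ^ 2 - C ⟨T i0, k4⟩) := by
        rw [← sub_eq_zero]
        apply aeval_inj V hu
        have c1 : ∀ (x : F) (hx : V x = 0), aeval u (C (⟨x, hx⟩ : cst V)) = x := by
          intro x hx
          rw [aeval_C]
          rfl
        have cκ : aeval u (C ((⟨κ, hκV⟩ : cst V) ^ 2)) = κ ^ 2 := by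
          rw [C_pow, map_pow, c1]
        simp only [map_sub, map_mul, map_pow, map_add, aeval_X]
        rw [c1, c1, c1, c1, c1, c1, c1, ← g1, ← k1]
        have : (aeval u P1 / aeval u Q1 * v i1) ^ 2 =
            (κ * (aeval u P0 / aeval u Q0 * v i0)) ^ 2 := by
          rw [← h1, ← h0, hκm]
        field_simp at this
        linear_combination this
      have hPne : P1 * Q0 ≠ 0 := by
        intro hh
        have := congrArg (aeval u) hh
        rw [map_mul, map_zero] at this
        exact (mul_ne_zero hP1 hQ0) this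
      have hQne : P0 * Q1 ≠ 0 := by
        intro hh
        have := congrArg (aeval u) hh
        rw [map_mul, map_zero] at this
        exact (mul_ne_zero hP0 hQ1) this
      have hκ' : (⟨κ, hκV⟩ : cst V) ≠ 0 := fun hh => hκ0 (congrArg Subtype.val hh)
      obtain ⟨d, hd⟩ := ratio_const hPne hQne hκ'
        (squarefree_quad (fun hh => g5 (congrArg Subtype.val hh))
          (fun hh => g6 (congrArg Subtype.val hh)))
        (squarefree_quad (fun hh => k5 (congrArg Subtype.val hh))
          (fun hh => k6 (congrArg Subtype.val hh))) key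
      have hd' : aeval u P1 * aeval u Q0 = (d : F) * (aeval u P0 * aeval u Q1) := by
        have := congrArg (aeval u) hd
        rw [map_mul, map_mul, map_mul, aeval_C] at this
        exact this
      have hA10 : A i1 = (d : F) * A i0 := by
        rw [h1, h0]
        field_simp
        linear_combination hd'
      have hd0 : (d : F) ≠ 0 := by
        intro hh
        rw [hh, zero_mul] at hA10
        exact hA1 hA10
      apply hne i1 hi1t i0 hi0t hne01
      have : v i1 / v i0 = κ / d := by
        rw [hκ, hA10]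
        field_simp
      rw [this, leib_div V _ _ hd0, hκV, show V (d : F) = 0 from d.2]
      ring
  intro c hc hsum
  exact main t subset_rfl c (fun i _ => hcK _ (hc i)) hsum

end Vale.Agent.P097.H435.Kum
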