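import Vale.Agent.P097.H435.S10
import Vale.Agent.P097.H320.PerC
import Vale.Agent.P097.H500.StripExt

/-!
# S10 for the ring of periodic real analytic functions
-/

open Filter Topology PowerSeries

namespace Vale.Agent.P097.H435.S10

open Vale.Agent.P097.H82 Vale.Agent.P097.H320

/-! ### complex extension of a real analytic function at a real point -/

theorem exists_cx {f : ℝ → ℂ} {t0 : ℝ} (hf : AnalyticAt ℝ f t0) :
    ∃ g : ℂ → ℂ, AnalyticAt ℂ g t0 ∧ ∀ᶠ x : ℝ in 𝓝 t0, g x = f x := by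
  obtain ⟨ρ1, G1, h1, h2, h3⟩ := H500.cx_local (an_re hf)
  obtain ⟨ρ2, G2, k1, k2, k3⟩ := H500.cx_local (an_im hf)
  refine ⟨fun z => G1 z + Complex.I * G2 z, ?_, ?_⟩
  · have e1 : AnalyticAt ℂ G1 (t0 : ℂ) :=
      h2.analyticAt (Metric.isOpen_ball.mem_nhds (Metric.mem_ball_self h1))
    have e2 : AnalyticAt ℂ G2 (t0 : ℂ) :=
      k2.analyticAt (Metric.isOpen_ball.mem_nhds (Metric.mem_ball_self k1))
    exact e1.add (analyticAt_const.mul e2)
  · have e1 : ∀ᶠ x : ℝ in 𝓝 t0, |x - t0| < ρ1 := by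
      have := Metric.ball_mem_nhds t0 h1
      filter_upwards [this] with x hx
      rwa [Metric.mem_ball, Real.dist_eq] at hx
    have e2 : ∀ᶠ x : ℝ in 𝓝 t0, |x - t0| < ρ2 := by
      have := Metric.ball_mem_nhds t0 k1
      filter_upwards [this] with x hx
      rwa [Metric.mem_ball, Real.dist_eq] at hx
    filter_upwards [e1, e2] with x hx hx'
    rw [h3 x hx, k3 x hx', mul_comm]
    exact Complex.re_add_im (f x)

theorem real_tendsto (t0 : ℝ) : Tendsto (fun y : ℝ => (y : ℂ)) (𝓝[≠] t0) (𝓝[≠] (t0 : ℂ)) := by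
  refine tendsto_nhdsWithin_iff.2 ⟨?_, ?_⟩
  · exact (Complex.continuous_ofReal.tendsto t0).mono_left nhdsWithin_le_nhds
  · filter_upwards [self_mem_nhdsWithin] with y hy
    simpa using hy

/-- two analytic germs which agree on the real line are equal -/
theorem germ_eq {f g : ℂ → ℂ} {t0 : ℝ} (hf : AnalyticAt ℂ f t0) (hg : AnalyticAt ℂ g t0)
    (h : ∀ᶠ x : ℝ in 𝓝 t0, f x = g x) : f =ᶠ[𝓝 (t0 : ℂ)] g := by
  refine (hf.frequently_eq_iff_eventually_eq hg).1 ?_
  have h2 : ∀ᶠ y : ℝ in 𝓝[≠] t0, f y = g y := h.filter_mono nhdsWithin_le_nhds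
  exact (real_tendsto t0).frequently h2.frequently

theorem eventually_real {t0 : ℝ} {p : ℂ → Prop} (h : ∀ᶠ z in 𝓝 (t0 : ℂ), p z) :
    ∀ᶠ x : ℝ in 𝓝 t0, p x :=
  (Complex.continuous_ofReal.tendsto t0).eventually h

/-- the elements of `OP` as complex functions near `t0` -/
noncomputable def evOP (t0 : ℝ) (f : OP) : ℂ → ℂ := (exists_cx (OP.an f t0)).choose

theorem evOP_an (t0 : ℝ) (f : OP) : AnalyticAt ℂ (evOP t0 f) t0 :=
  (exists_cx (OP.an f t0)).choose_spec.1

theorem evOP_real (t0 : ℝ) (f : OP) : ∀ᶠ x : ℝ in 𝓝 t0, evOP t0 f x = f.1 x :=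
  (exists_cx (OP.an f t0)).choose_spec.2

theorem evOP_self (t0 : ℝ) (f : OP) : evOP t0 f t0 = f.1 t0 := (evOP_real t0 f).self_of_nhds

theorem pt_OP (t0 : ℝ) : Pt OP t0 (evOP t0) where
  an := evOP_an t0
  one := germ_eq (evOP_an t0 1) analyticAt_const (evOP_real t0 1)
  add f g := by
    refine germ_eq (evOP_an t0 _) ((evOP_an t0 f).add (evOP_an t0 g)) ?_
    filter_upwards [evOP_real t0 f, evOP_real t0 g, evOP_real t0 (f + g)] with x h1 h2 h3
    rw [h1, h2, h3]
    rfl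
  mul f g := by
    refine germ_eq (evOP_an t0 _) ((evOP_an t0 f).mul (evOP_an t0 g)) ?_
    filter_upwards [evOP_real t0 f, evOP_real t0 g, evOP_real t0 (f * g)] with x h1 h2 h3
    rw [h1, h2, h3]
    rfl
  ne f hf h := by
    apply hf
    have h1 : f.1 =ᶠ[𝓝 t0] 0 := by
      filter_upwards [eventually_real h, evOP_real t0 f] with x h2 h3
      rw [← h3, h2]
      rfl
    have h2 : AnalyticOnNhd ℝ f.1 Set.univ := fun x _ => OP.an f x
    have h3 := h2.eqOn_zero_of_preconnected_of_eventuallyEq_zero isPreconnected_univ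
      (Set.mem_univ t0) h1
    exact OP.ext' fun x => h3 (Set.mem_univ x)

theorem der_OP (t0 : ℝ) (f : OP) : evOP t0 (OP.D f) =ᶠ[𝓝 (t0 : ℂ)] deriv (evOP t0 f) := by
  refine germ_eq (evOP_an t0 _) (evOP_an t0 f).deriv ?_
  have h1 := (evOP_real t0 f).eventually_nhds
  have h2 := eventually_real (evOP_an t0 f).eventually_analyticAt
  filter_upwards [h1, h2, evOP_real t0 (OP.D f)] with x h3 h4 h5
  rw [h5, OP.D_apply]
  have h6 : HasDerivAt (fun y : ℝ => evOP t0 f y) (deriv (evOP t0 f) x) x :=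
    h4.differentiableAt.hasDerivAt.comp_ofReal
  have h7 : HasDerivAt f.1 (deriv (evOP t0 f) x) x := h6.congr_of_eventuallyEq (by
    filter_upwards [h3] with y hy
    exact hy.symm)
  exact h7.deriv

/-- a non zero element of `OP` does not vanish identically on an interval -/
theorem OP_ne {f : OP} (hf : f ≠ 0) {a b : ℝ} (hab : a < b) : ∃ t0 ∈ Set.Ioo a b, f.1 t0 ≠ 0 := by
  by_contra hne
  push Not at hne
  apply hf
  have h0 : (a + b) / 2 ∈ Set.Ioo a b := ⟨by linarith, by linarith⟩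
  have h1 : f.1 =ᶠ[𝓝 ((a + b) / 2)] 0 := by
    filter_upwards [isOpen_Ioo.mem_nhds h0] with x hx
    exact hne x hx
  have h2 : AnalyticOnNhd ℝ f.1 Set.univ := fun x _ => OP.an f x
  have h3 := h2.eqOn_zero_of_preconnected_of_eventuallyEq_zero isPreconnected_univ
    (Set.mem_univ _) h1
  exact OP.ext' fun x => h3 (Set.mem_univ x)

/-! ### the ring of periodic functions analytic near the real line -/

/-- functions analytic at the points `(x, 0)`, `x` real, and `1`-periodic there -/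
def PA : Subring (ℂ × ℂ → ℂ) where
  carrier := {F | ∀ x : ℝ, AnalyticAt ℂ F ((x : ℂ), 0) ∧
    ∀ᶠ u in 𝓝 ((x : ℂ), (0 : ℂ)), F (u.1 + 1, u.2) = F u}
  mul_mem' {F G} hF hG x := ⟨(hF x).1.mul (hG x).1, by
    filter_upwards [(hF x).2, (hG x).2] with u h1 h2
    simp only [Pi.mul_apply, h1, h2]⟩
  one_mem' x := ⟨analyticAt_const, Filter.Eventually.of_forall fun _ => rfl⟩
  add_mem' {F G} hF hG x := ⟨(hF x).1.add (hG x).1, by
    filter_upwards [(hF x).2, (hG x).2] with u h1 h2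
    simp only [Pi.add_apply, h1, h2]⟩
  zero_mem' x := ⟨analyticAt_const, Filter.Eventually.of_forall fun _ => rfl⟩
  neg_mem' {F} hF x := ⟨(hF x).1.neg, by
    filter_upwards [(hF x).2] with u h1
    simp only [Pi.neg_apply, h1]⟩

namespace PA

theorem an (F : PA) (x : ℝ) : AnalyticAt ℂ F.1 ((x : ℂ), 0) := (F.2 x).1

/-- Taylor coefficient -/
noncomputable def co (F : PA) (l : ℕ) : OP := ⟨fun x : ℝ => cf F.1 l x, fun x => by
    have h1 : AnalyticAt ℝ (cf F.1 l) (x : ℂ) := (cf_analyticAt (an F x) l).restrictScalars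
    have h2 : AnalyticAt ℝ (fun y : ℝ => (y : ℂ)) x := Complex.ofRealCLM.analyticAt x
    exact h1.comp_of_eq h2 rfl, fun x => by
    have h1 : (fun s => F.1 (((x + 1 : ℝ) : ℂ), s)) =ᶠ[𝓝 0] fun s => F.1 ((x : ℂ), s) := by
      filter_upwards [eventually_s (F.2 x).2] with s hs
      simp only [← hs]
      push_cast
      rfl
    simp only [cf, h1.iteratedDeriv_eq l]⟩

theorem co_apply (F : PA) (l : ℕ) (x : ℝ) : (co F l).1 x = cf F.1 l x := rfl

/-- Taylor series in the second variable -/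
noncomputable def tau : PA →+* OP⟦X⟧ where
  toFun F := PowerSeries.mk fun l => co F l
  map_one' := by
    refine PowerSeries.ext fun l => ?_
    rw [coeff_mk, coeff_one]
    refine OP.ext' fun x => ?_
    rw [co_apply]
    have h1 := cf_const (t := (x : ℂ)) 1 l
    split_ifs with h0
    · rw [if_pos h0] at h1
      exact h1
    · rw [if_neg h0] at h1
      exact h1
  map_mul' F G := by
    refine PowerSeries.ext fun l => ?_
    rw [coeff_mk, coeff_mul]
    refine OP.ext' fun x => ?_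
    rw [co_apply]
    have h1 := cf_mul (an F x) (an G x) l
    have h2 : (∑ p ∈ Finset.HasAntidiagonal.antidiagonal l, coeff p.1 (PowerSeries.mk fun l => co F l) *
        coeff p.2 (PowerSeries.mk fun l => co G l)).1 x =
        ∑ p ∈ Finset.HasAntidiagonal.antidiagonal l, cf F.1 p.1 x * cf G.1 p.2 x := by
      rw [AddSubmonoidClass.coe_finsetSum, Finset.sum_apply]
      refine Finset.sum_congr rfl fun p _ => ?_
      rw [coeff_mk, coeff_mk]
      rfl
    rw [h2]
    exact h1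
  map_zero' := by
    refine PowerSeries.ext fun l => ?_
    rw [coeff_mk, map_zero]
    refine OP.ext' fun x => ?_
    rw [co_apply]
    have h1 := cf_const (t := (x : ℂ)) 0 l
    rw [ite_self] at h1
    exact h1
  map_add' F G := by
    refine PowerSeries.ext fun l => ?_
    rw [coeff_mk, map_add, coeff_mk, coeff_mk]
    refine OP.ext' fun x => ?_
    exact cf_add (an F x) (an G x) l

theorem coeff_tau (F : PA) (l : ℕ) : coeff l (tau F) = co F l := by simp [tau]

/-- Taylor series in `s`, `w = s ^ N` -/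
noncomputable def tauN (N : ℕ) (hN : N ≠ 0) : PA →+* OP⟦X⟧ :=
  (PowerSeries.expand N hN).toRingHom.comp tau

theorem coeff_tauN (N : ℕ) (hN : N ≠ 0) (F : PA) (l : ℕ) :
    coeff l (tauN N hN F) = if N ∣ l then co F (l / N) else 0 := by
  have : coeff l (tauN N hN F) = coeff l (PowerSeries.expand N hN (tau F)) := rfl
  rw [this, coeff_expand, coeff_tau]

end PA

theorem T1_id : T1 (fun s : ℂ => s) 0 = PowerSeries.X := by
  ext l
  have h := cf_snd l 0
  rw [coeff_X]
  simp only [T1, coeff_mk, tc]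
  exact h

theorem T1_one {t : ℂ} : T1 (fun _ => 1) t = 1 := by
  have := T1_const (t := t) 1
  rwa [map_one] at this

theorem T1_pow {g : ℂ → ℂ} {t : ℂ} (hg : AnalyticAt ℂ g t) (n : ℕ) :
    T1 (fun x => g x ^ n) t = T1 g t ^ n := by
  induction n with
  | zero => simp only [pow_zero]; exact T1_one
  | succ n ih =>
    simp only [pow_succ]
    rw [T1_mul (f := fun x => g x ^ n) (hg.pow n) hg, ih]

/-- Taylor series of `f (s ^ N)` -/
theorem cf_comp_pow {F : ℂ × ℂ → ℂ} {t : ℂ} (hF : AnalyticAt ℂ F (t, 0)) {N : ℕ} (hN : N ≠ 0)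
    (l : ℕ) : cf (fun u => F (u.1, u.2 ^ N)) l t = if N ∣ l then cf F (l / N) t else 0 := by
  classical
  -- one variable
  let f : ℂ → ℂ := fun s => F (t, s)
  have hf : AnalyticAt ℂ f 0 := analyticAt_s hF
  let q : ℂ → ℂ := fun s => ∑ i ∈ Finset.range (l + 1), cf F i t * s ^ i
  have hq : AnalyticAt ℂ q 0 := by
    refine Finset.analyticAt_fun_sum _ fun i _ => ?_
    exact analyticAt_const.mul (analyticAt_id.pow i)
  have hid : AnalyticAt ℂ (fun s : ℂ => s) 0 := analyticAt_id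
  have e1 : ∀ M : ℕ, T1 (fun s : ℂ => ∑ i ∈ Finset.range (l + 1), cf F i t * (s ^ M) ^ i) 0 =
      ∑ i ∈ Finset.range (l + 1), C (cf F i t) * PowerSeries.X ^ (M * i) := by
    intro M
    rw [T1_sum_mul _ (f := fun i _ => cf F i t) (g := fun i s => (s ^ M) ^ i)
      (fun i => analyticAt_const) (fun i => (hid.pow M).pow i)]
    refine Finset.sum_congr rfl fun i _ => ?_
    rw [T1_const, T1_pow (g := fun s => s ^ M) (hid.pow M), T1_pow hid, T1_id, ← pow_mul]
  have e2 : ∀ M k : ℕ, coeff k (∑ i ∈ Finset.range (l + 1), C (cf F i t) *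
      (PowerSeries.X : ℂ⟦X⟧) ^ (M * i)) =
      ∑ i ∈ Finset.range (l + 1), if k = M * i then cf F i t else 0 := by
    intro M k
    rw [map_sum]
    refine Finset.sum_congr rfl fun i _ => ?_
    rw [coeff_C_mul, coeff_X_pow]
    split_ifs <;> simp
  let F' : ℂ × ℂ → ℂ := fun u => f u.2 - q u.2
  have hF' : AnalyticAt ℂ F' (0, 0) := by
    have h1 : AnalyticAt ℂ (fun u : ℂ × ℂ => f u.2) (0, 0) :=
      AnalyticAt.comp (g := f) (f := fun v : ℂ × ℂ => v.2) hf analyticAt_snd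
    have h2 : AnalyticAt ℂ (fun u : ℂ × ℂ => q u.2) (0, 0) :=
      AnalyticAt.comp (g := q) (f := fun v : ℂ × ℂ => v.2) hq analyticAt_snd
    exact h1.sub h2
  have hcf : ∀ k < l + 1, ∀ᶠ x in 𝓝 (0 : ℂ), cf F' k x = 0 := by
    intro k hk
    refine Filter.Eventually.of_forall fun x => ?_
    have h1 : cf F' k x = coeff k (T1 (fun s => f s - q s) 0) := by
      simp only [T1, coeff_mk, tc]
      rfl
    have h2 : T1 (fun s => f s - q s) 0 = T1 f 0 - T1 q 0 := by
      simp only [sub_eq_add_neg]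
      rw [T1_add (g := fun s => - q s) hf hq.neg, T1_neg]
    have h3 : T1 q 0 = ∑ i ∈ Finset.range (l + 1), C (cf F i t) * PowerSeries.X ^ (1 * i) := by
      rw [← e1 1]
      simp only [pow_one]
      rfl
    rw [h1, h2, map_sub, h3, e2, Finset.sum_eq_single k]
    · have h4 : coeff k (T1 f 0) = cf F k t := by
        simp only [T1, coeff_mk, tc]
        rfl
      rw [h4, one_mul, if_pos rfl, sub_self]
    · intro b _ hb
      rw [one_mul, if_neg (Ne.symm hb)]
    · intro h4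
      exact absurd (Finset.mem_range.2 hk) h4
  obtain ⟨G, hG, hG1⟩ := exists_div_pow (l + 1) hF' hcf
  let g : ℂ → ℂ := fun s => G (0, s)
  have hg : AnalyticAt ℂ g 0 := analyticAt_s hG
  have hfg : ∀ᶠ s in 𝓝 (0 : ℂ), f s = q s + s ^ (l + 1) * g s := by
    filter_upwards [eventually_s hG1] with s hs
    have h1 : f s - q s = s ^ (l + 1) * g s := hs
    linear_combination h1
  have hpow : Tendsto (fun s : ℂ => s ^ N) (𝓝 0) (𝓝 0) := by
    have h1 : Continuous fun s : ℂ => s ^ N := continuous_pow N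
    have h2 := h1.tendsto 0
    rwa [zero_pow hN] at h2
  have hfg' : (fun s => f (s ^ N)) =ᶠ[𝓝 0] fun s => (∑ i ∈ Finset.range (l + 1),
      cf F i t * (s ^ N) ^ i) + s ^ (N * (l + 1)) * g (s ^ N) := by
    filter_upwards [hpow.eventually hfg] with s hs
    rw [hs, pow_mul]
  have hgN : AnalyticAt ℂ (fun s => g (s ^ N)) 0 := by
    refine AnalyticAt.comp_of_eq (g := g) (f := fun s : ℂ => s ^ N) hg (hid.pow N) ?_
    exact zero_pow hN
  have hsum : AnalyticAt ℂ (fun s => ∑ i ∈ Finset.range (l + 1), cf F i t * (s ^ N) ^ i) 0 := by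
    refine Finset.analyticAt_fun_sum _ fun i _ => ?_
    exact analyticAt_const.mul ((hid.pow N).pow i)
  have h5 : cf (fun u => F (u.1, u.2 ^ N)) l t = coeff l (T1 (fun s => f (s ^ N)) 0) := by
    simp only [T1, coeff_mk, tc]
    rfl
  rw [h5, T1_congr hfg', T1_add (g := fun s => s ^ (N * (l + 1)) * g (s ^ N)) hsum
      ((hid.pow _).mul hgN), T1_mul (f := fun s => s ^ (N * (l + 1))) (hid.pow _) hgN, e1,
    T1_pow hid, T1_id, map_add, e2, coeff_X_pow_mul', if_neg, add_zero]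
  · split_ifs with h6
    · obtain ⟨k, rfl⟩ := h6
      rw [Nat.mul_div_cancel_left k (Nat.pos_of_ne_zero hN), Finset.sum_eq_single k]
      · rw [if_pos rfl]
      · intro b _ hb
        rw [if_neg]
        intro h7
        exact hb (Nat.eq_of_mul_eq_mul_left (Nat.pos_of_ne_zero hN) h7).symm
      · intro h7
        exfalso
        apply h7
        rw [Finset.mem_range]
        have := Nat.le_mul_of_pos_left k (Nat.pos_of_ne_zero hN)
        omega
    · refine Finset.sum_eq_zero fun i _ => ?_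
      rw [if_neg]
      rintro rfl
      exact h6 (Dvd.intro i rfl)
  · have := Nat.le_mul_of_pos_left (l + 1) (Nat.pos_of_ne_zero hN)
    omega

/-- the evaluation `(t, s) ↦ F (t, s ^ N)` -/
def evN (N : ℕ) (F : PA) : ℂ × ℂ → ℂ := fun u => F.1 (u.1, u.2 ^ N)

theorem analyticAt_evN {N : ℕ} (hN : N ≠ 0) (F : PA) (t0 : ℝ) :
    AnalyticAt ℂ (evN N F) ((t0 : ℂ), 0) := by
  refine AnalyticAt.comp_of_eq (g := F.1) (f := fun u : ℂ × ℂ => (u.1, u.2 ^ N)) (PA.an F t0)
    (analyticAt_fst.prod (analyticAt_snd.pow N)) ?_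
  simp [zero_pow hN]

theorem cf_evN {N : ℕ} (hN : N ≠ 0) (F : PA) (t0 : ℝ) (l : ℕ) :
    cf (evN N F) l =ᶠ[𝓝 (t0 : ℂ)] evOP t0 (coeff l (PA.tauN N hN F)) := by
  refine germ_eq (cf_analyticAt (analyticAt_evN hN F t0) l) (evOP_an t0 _) ?_
  filter_upwards [evOP_real t0 (coeff l (PA.tauN N hN F))] with x h1
  rw [h1, PA.coeff_tauN]
  have h2 := cf_comp_pow (PA.an F x) hN l
  split_ifs with h3
  · rw [if_pos h3] at h2
    exact h2
  · rw [if_neg h3] at h2
    exact h2

/-- **S10 for periodic functions** -/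
theorem s10_OP {K κ : Type*} [Field K] [Algebra OP K] [IsFractionRing OP K] [Field κ]
    [Algebra K κ] [CharZero K] [Algebra.IsAlgebraic K κ] {d : κ → κ} (hd : IsDer (RingHom.id κ) d)
    (hdO : ∀ f, d (io OP K κ f) = io OP K κ (OP.D f)) {N : ℕ} (hN : N ≠ 0)
    {ι ι' : Type*} [Finite ι] [Finite ι'] (x : ι → κ⟦X⟧) (c : ι' → κ)
    (hx : ∀ i, ∃ P : Polynomial PA, P.map ((PowerSeries.map (io OP K κ)).comp (PA.tauN N hN)) ≠ 0 ∧
      P.eval₂ ((PowerSeries.map (io OP K κ)).comp (PA.tauN N hN)) (x i) = 0) :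
    ∃ bad : OP, bad ≠ 0 ∧ ∀ t0 : ℝ, bad.1 t0 ≠ 0 →
      ∃ R : κ⟦X⟧ → (ℂ × ℂ → ℂ) → Prop,
        Calc d t0 ((PowerSeries.map (io OP K κ)).comp (PA.tauN N hN)) (evN N) R ∧
        (∀ i, ∃ F, R (x i) F ∧ (constantCoeff (x i) ≠ 0 → F ((t0 : ℂ), 0) ≠ 0)) ∧
        (∀ i, ∃ g : ℂ → ℂ, AnalyticAt ℂ g t0 ∧ R (C (c i)) (fun u => g u.1) ∧
          (c i ≠ 0 → g t0 ≠ 0)) := by
  obtain ⟨bad, hbad, h⟩ := s10 hd hdO (PA.tauN N hN) x c hx
  refine ⟨bad, hbad, fun t0 h0 => ?_⟩
  obtain ⟨R, h1, _, h2, h3⟩ := h t0 (evOP t0) (evN N) (pt_OP t0) (der_OP t0)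
    (fun a => analyticAt_evN hN a t0) (fun a l => cf_evN hN a t0 l) (by rw [evOP_self]; exact h0)
  exact ⟨R, h1, h2, h3⟩

end Vale.Agent.P097.H435.S10
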