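import Vale.Agent.P097.H402.Rat.Defs

/-! # P097 / RAT-G: tables of the class have rational logarithmic derivatives, with real residues
at simple poles (interface `PG` of helper402). -/

set_option linter.all false

open Complex Metric Filter Topology Set Polynomial
open scoped ComplexConjugate

namespace Vale.Agent.P097.H435.RatG

open Vale.Agent.P097.H202 Vale.Agent.P097.H402.Rat



/-- lowest terms -/
theorem lowest (A W : ℂ[X]) (hW : W ≠ 0) :
    ∃ G N D : ℂ[X], G ≠ 0 ∧ A = G * N ∧ W = G * D ∧ IsCoprime N D := by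
  classical
  obtain ⟨N, hN⟩ := EuclideanDomain.gcd_dvd_left A W
  obtain ⟨D, hD⟩ := EuclideanDomain.gcd_dvd_right A W
  have h := EuclideanDomain.gcd_eq_gcd_ab A W
  set G := EuclideanDomain.gcd A W with hGdef
  set x := EuclideanDomain.gcdA A W
  set y := EuclideanDomain.gcdB A W
  have hG : G ≠ 0 := by
    intro h0
    apply hW
    rw [hD, h0, zero_mul]
  refine ⟨G, N, D, hG, hN, hD, x, y, ?_⟩
  have : G * (x * N + y * D) = G * 1 := by
    calc G * (x * N + y * D) = (G * N) * x + (G * D) * y := by ring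
      _ = A * x + W * y := by rw [← hN, ← hD]
      _ = G * 1 := by rw [mul_one]; exact h.symm
  exact mul_left_cancel₀ hG this

/-- the algebraic core: real residues at simple poles -/
theorem core {n : ℕ} (u v : ℂ[X]) (huv : IsCoprime u v) (hv : v ≠ 0) (p : Fin n → ℂ[X])
    (hp : ∀ i, p i ≠ 0) (s : Fin n → ℝ) (c : ℂ) (G N D : ℂ[X]) (hG : G ≠ 0)
    (hW : v ^ 2 * ∏ i, p i = G * D)
    (hA : C I * X * (derivative u * v - u * derivative v) * ∏ i, p i
      + v ^ 2 * (C I * X * ∑ i, C (s i : ℂ) * derivative (p i) * ∏ j ∈ Finset.univ.erase i, p j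
        - C c * ∏ i, p i) = G * N)
    (z₀ : ℂ) (hz : z₀ ≠ 0) (hD : D.eval z₀ = 0) (hD' : (derivative D).eval z₀ ≠ 0) :
    ∃ σ : ℝ, N.eval z₀ = I * z₀ * σ * (derivative D).eval z₀ := by
  obtain ⟨w, hw, hw'⟩ := exists_eq_pow_rootMultiplicity_mul_and_not_dvd v hv z₀
  choose q hq hq' using fun i => exists_eq_pow_rootMultiplicity_mul_and_not_dvd (p i) (hp i) z₀
  obtain ⟨D1, hD1⟩ := dvd_iff_isRoot.mpr hD
  set T : ℂ[X] := X - C z₀ with hT
  set k : ℕ := rootMultiplicity z₀ v with hk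
  set m : Fin n → ℕ := fun i => rootMultiplicity z₀ (p i) with hm
  have hT0 : T ≠ 0 := X_sub_C_ne_zero z₀
  have hTe : T.eval z₀ = 0 := by simp [hT]
  have hTd : derivative T = 1 := by simp [hT]
  have hD1e : (derivative D).eval z₀ = D1.eval z₀ := by
    rw [hD1, derivative_mul, hTd, eval_add, eval_mul, eval_mul, hTe, zero_mul, add_zero, eval_one,
      one_mul]
  have hpow : ∀ (l : ℕ) (r : ℂ[X]), T * derivative (T ^ l * r) =
      T ^ l * (C (l : ℂ) * r + T * derivative r) := by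
    intro l r
    rcases l with _ | l
    · simp
    · rw [derivative_mul, derivative_pow, hTd]
      simp only [Nat.add_sub_cancel, mul_one]
      push_cast
      simp only [map_add, map_one, map_natCast]
      ring
  have hp' : ∀ i, p i = T ^ (m i) * q i := fun i => hq i
  set M : ℕ := ∑ i, m i with hM
  set Q : ℂ[X] := ∏ i, q i with hQ
  set σ : ℝ := ∑ i, s i * m i with hσ
  set S : ℂ[X] := ∑ i, C (s i : ℂ) * derivative (q i) * ∏ j ∈ Finset.univ.erase i, q j with hS
  have hP : ∏ i, p i = T ^ M * Q := by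
    rw [hQ, hM, ← Finset.prod_pow_eq_pow_sum, ← Finset.prod_mul_distrib]
    exact Finset.prod_congr rfl fun i _ => hp' i
  have hsum : T * ∑ i, C (s i : ℂ) * derivative (p i) * ∏ j ∈ Finset.univ.erase i, p j =
      T ^ M * (C (σ : ℂ) * Q + T * S) := by
    have e1 : C (σ : ℂ) * Q = ∑ i, C (s i : ℂ) * C (m i : ℂ) * q i *
        ∏ j ∈ Finset.univ.erase i, q j := by
      rw [hσ]
      push_cast
      rw [map_sum, Finset.sum_mul]
      refine Finset.sum_congr rfl fun i _ => ?_
      rw [map_mul, mul_assoc (C (s i : ℂ) * C (m i : ℂ)), Finset.mul_prod_erase _ _ (Finset.mem_univ i)]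
    rw [e1, hS, Finset.mul_sum, Finset.mul_sum, ← Finset.sum_add_distrib, Finset.mul_sum]
    refine Finset.sum_congr rfl fun i _ => ?_
    have e2 : ∏ j ∈ Finset.univ.erase i, p j = T ^ (∑ j ∈ Finset.univ.erase i, m j) *
        ∏ j ∈ Finset.univ.erase i, q j := by
      rw [← Finset.prod_pow_eq_pow_sum, ← Finset.prod_mul_distrib]
      exact Finset.prod_congr rfl fun i _ => hp' i
    have e3 : T ^ M = T ^ (m i) * T ^ (∑ j ∈ Finset.univ.erase i, m j) := by
      rw [← pow_add, hM, Finset.add_sum_erase _ _ (Finset.mem_univ i)]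
    have e4 : T * derivative (p i) = T ^ (m i) * (C (m i : ℂ) * q i + T * derivative (q i)) := by
      rw [← hpow, ← hp']
    calc T * (C (s i : ℂ) * derivative (p i) * ∏ j ∈ Finset.univ.erase i, p j)
        = C (s i : ℂ) * (T * derivative (p i)) * ∏ j ∈ Finset.univ.erase i, p j := by ring
      _ = _ := by
        rw [e4, e2, e3]
        ring
  have hv' : T * (derivative u * v - u * derivative v) =
      T ^ k * (T * derivative u * w - u * (C (k : ℂ) * w + T * derivative w)) := by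
    have e5 : T * derivative v = T ^ k * (C (k : ℂ) * w + T * derivative w) := by
      rw [← hpow, ← hw]
    calc T * (derivative u * v - u * derivative v)
        = T * derivative u * v - u * (T * derivative v) := by ring
      _ = T * derivative u * (T ^ k * w) - u * (T ^ k * (C (k : ℂ) * w + T * derivative w)) := by
        rw [e5, ← hw]
      _ = _ := by ring
  set E : ℂ[X] := C I * X * Q * (T * derivative u * w - u * (C (k : ℂ) * w + T * derivative w))
    + T ^ k * w ^ 2 * (C I * X * (C (σ : ℂ) * Q + T * S) - C c * T * Q) with hE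
  have h1 : T * (G * N) = T ^ (M + k) * E := by
    rw [← hA, hE]
    calc T * (C I * X * (derivative u * v - u * derivative v) * ∏ i, p i
      + v ^ 2 * (C I * X * ∑ i, C (s i : ℂ) * derivative (p i) * ∏ j ∈ Finset.univ.erase i, p j
        - C c * ∏ i, p i))
        = C I * X * (T * (derivative u * v - u * derivative v)) * ∏ i, p i
      + v ^ 2 * (C I * X * (T * ∑ i, C (s i : ℂ) * derivative (p i) *
          ∏ j ∈ Finset.univ.erase i, p j) - C c * T * ∏ i, p i) := by ring
      _ = C I * X * (T ^ k * (T * derivative u * w - u * (C (k : ℂ) * w + T * derivative w)))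
            * (T ^ M * Q) + (T ^ k * w) ^ 2 * (C I * X * (T ^ M * (C (σ : ℂ) * Q + T * S))
            - C c * T * (T ^ M * Q)) := by
          rw [hv', hsum, hP, ← hw]
      _ = _ := by ring
  have h2 : G * (T * D1) = T ^ (2 * k + M) * w ^ 2 * Q := by
    rw [← hD1, ← hW, hP]
    nth_rewrite 1 [hw]
    ring
  have h3 : N * T ^ k * w ^ 2 * Q = D1 * E := by
    have h4 : (G * T) * (N * T ^ k * w ^ 2 * Q) = (G * T) * (D1 * E) := by
      calc (G * T) * (N * T ^ k * w ^ 2 * Q) = (T * (G * N)) * (T ^ k * w ^ 2 * Q) := by ring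
        _ = (T ^ (M + k) * E) * (T ^ k * w ^ 2 * Q) := by rw [h1]
        _ = (T ^ (2 * k + M) * w ^ 2 * Q) * E := by ring
        _ = (G * (T * D1)) * E := by rw [h2]
        _ = _ := by ring
    exact mul_left_cancel₀ (mul_ne_zero hG hT0) h4
  have hw0 : w.eval z₀ ≠ 0 := fun h => hw' (dvd_iff_isRoot.mpr h)
  have hQ0 : Q.eval z₀ ≠ 0 := by
    rw [hQ, eval_prod]
    exact Finset.prod_ne_zero_iff.mpr fun i _ h => hq' i (dvd_iff_isRoot.mpr h)
  have h5 := congrArg (Polynomial.eval z₀) h3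
  rcases Nat.eq_zero_or_pos k with hk0 | hk0
  · refine ⟨σ, ?_⟩
    rw [hE, hk0] at h5
    simp only [eval_mul, eval_add, eval_sub, eval_pow, hTe, eval_C, eval_X, pow_zero, mul_one,
      Nat.cast_zero, zero_mul, mul_zero, add_zero, sub_zero, zero_add, one_mul, sub_self] at h5
    rw [hD1e]
    have h6 : (w.eval z₀ ^ 2 * Q.eval z₀) * N.eval z₀ =
        (w.eval z₀ ^ 2 * Q.eval z₀) * (I * z₀ * σ * D1.eval z₀) := by
      linear_combination h5
    exact mul_left_cancel₀ (mul_ne_zero (pow_ne_zero 2 hw0) hQ0) h6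
  · exfalso
    have hu0 : u.eval z₀ ≠ 0 := by
      intro h
      obtain ⟨a, b, hab⟩ := huv
      have h6 := congrArg (Polynomial.eval z₀) hab
      have h7 : v.eval z₀ = 0 := by
        rw [hw, eval_mul, eval_pow, hTe, zero_pow hk0.ne', zero_mul]
      simp only [eval_add, eval_mul, h, h7, mul_zero, add_zero, eval_one] at h6
      exact zero_ne_one h6
    rw [hE] at h5
    simp only [eval_mul, eval_add, eval_sub, eval_pow, hTe, eval_C, eval_X, zero_pow hk0.ne',
      zero_mul, mul_zero, add_zero, zero_sub, zero_add] at h5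
    have hk1 : (k : ℂ) ≠ 0 := Nat.cast_ne_zero.mpr hk0.ne'
    have hD0 : D1.eval z₀ ≠ 0 := hD1e ▸ hD'
    have h8 : D1.eval z₀ * (I * z₀ * Q.eval z₀ * -(u.eval z₀ * ((k : ℂ) * w.eval z₀))) ≠ 0 := by
      refine mul_ne_zero hD0 (mul_ne_zero (mul_ne_zero (mul_ne_zero I_ne_zero hz) hQ0)
        (neg_ne_zero.mpr (mul_ne_zero hu0 (mul_ne_zero hk1 hw0))))
    exact h8 h5.symm




theorem ez_ne (φ : ℂ) : ez φ ≠ 0 := Complex.exp_ne_zero _

theorem norm_ez (x : ℝ) : ‖ez x‖ = 1 := by
  unfold ez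
  rw [mul_comm]
  exact Complex.norm_exp_ofReal_mul_I x

theorem exists_ez (z : ℂ) (hz : ‖z‖ = 1) : ∃ x : ℝ, ez x = z := by
  refine ⟨Complex.arg z, ?_⟩
  unfold ez
  have h := Complex.norm_mul_exp_arg_mul_I z
  rw [hz, Complex.ofReal_one, one_mul] at h
  rw [mul_comm]
  exact h

theorem hasDerivAt_ez (x : ℝ) : HasDerivAt (fun x : ℝ => ez (x : ℂ)) (I * ez x) x := by
  unfold ez
  have h1 : HasDerivAt (fun x : ℝ => I * (x : ℂ)) (I * 1) x :=
    (Complex.ofRealCLM.hasDerivAt (x := x)).const_mul I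
  have h2 := h1.cexp
  rw [mul_one] at h2
  rw [mul_comm I]
  exact h2

/-- a trigonometric polynomial times `z ^ n` is a polynomial in `z` -/
theorem trig_poly {f : ℝ → ℝ} (hf : TrigP f) :
    ∃ (n : ℕ) (p : ℂ[X]), ∀ x : ℝ, (f x : ℂ) * ez x ^ n = p.eval (ez x) := by
  obtain ⟨n, a, b, h⟩ := hf
  refine ⟨n, ∑ k ∈ Finset.range (n + 1), (C ((a k : ℂ) / 2) * (X ^ (n + k) + X ^ (n - k)) +
    C ((b k : ℂ) / (2 * I)) * (X ^ (n + k) - X ^ (n - k))), fun x => ?_⟩
  rw [h x, eval_finset_sum]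
  push_cast
  rw [Finset.sum_mul]
  refine Finset.sum_congr rfl fun k hk => ?_
  have hkn : k ≤ n := by
    have := Finset.mem_range.mp hk
    omega
  simp only [eval_add, eval_sub, eval_mul, eval_C, eval_pow, eval_X]
  have e0 := ez_ne (x : ℂ)
  have e1 : Complex.exp ((k : ℂ) * x * I) = ez x ^ k := by
    unfold ez
    rw [← Complex.exp_nat_mul]
    congr 1
    ring
  have e2 : Complex.exp (-((k : ℂ) * x * I)) = (ez x ^ k)⁻¹ := by
    rw [Complex.exp_neg, e1]
  have e3 : ez (x : ℂ) ^ n = ez x ^ (n - k) * ez x ^ k := by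
    rw [← pow_add, Nat.sub_add_cancel hkn]
  have e4 : ez (x : ℂ) ^ (n + k) = ez x ^ (n - k) * ez x ^ k * ez x ^ k := by
    rw [← e3, pow_add]
  have hk0 : ez (x : ℂ) ^ k ≠ 0 := pow_ne_zero _ e0
  have e5 : Complex.cos ((k : ℂ) * x) = (ez x ^ k + (ez x ^ k)⁻¹) / 2 := by
    rw [Complex.cos, neg_mul, e1, e2]
  have e6 : Complex.sin ((k : ℂ) * x) = (ez x ^ k - (ez x ^ k)⁻¹) / (2 * I) := by
    rw [Complex.sin, neg_mul, e1, e2]
    field_simp
    rw [Complex.I_sq]
    ring
  rw [e5, e6, e4, e3]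
  field_simp

theorem trig_diff {f : ℝ → ℝ} (hf : TrigP f) : Differentiable ℝ f := by
  obtain ⟨n, a, b, h⟩ := hf
  have : f = fun x => ∑ k ∈ Finset.range (n + 1), (a k * Real.cos (k * x) + b k * Real.sin (k * x)) :=
    funext h
  rw [this]
  fun_prop

/-- derivative of a function which is a polynomial in `z`, up to `z ^ n` -/
theorem poly_deriv {f : ℝ → ℝ} (hf : Differentiable ℝ f) {n : ℕ} {p : ℂ[X]}
    (h : ∀ x : ℝ, (f x : ℂ) * ez x ^ n = p.eval (ez x)) (x : ℝ) :
    ((deriv f x : ℝ) : ℂ) * ez x ^ n = I * (ez x * (derivative p).eval (ez x) - n * p.eval (ez x)) := by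
  have h1 : HasDerivAt (fun x : ℝ => (f x : ℂ)) ((deriv f x : ℝ) : ℂ) x :=
    (hf x).hasDerivAt.ofReal_comp
  have h2 : HasDerivAt (fun x : ℝ => ez (x : ℂ) ^ n) (n * ez x ^ (n - 1) * (I * ez x)) x :=
    (hasDerivAt_ez x).pow n
  have h3 := h1.mul h2
  have h4 : HasDerivAt (fun x : ℝ => p.eval (ez (x : ℂ))) ((derivative p).eval (ez x) * (I * ez x)) x :=
    HasDerivAt.comp (h₂ := fun z : ℂ => p.eval z) x (p.hasDerivAt (ez (x : ℂ))) (hasDerivAt_ez x)
  have h5 : (fun x : ℝ => (f x : ℂ)) * (fun x : ℝ => ez (x : ℂ) ^ n) = fun x : ℝ => p.eval (ez (x : ℂ)) := by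
    funext y
    exact h y
  rw [h5] at h3
  have h6 := h3.unique h4
  have h7 : (n : ℂ) * ez x ^ (n - 1) * (I * ez x) = I * (n * ez x ^ n) := by
    rcases n with _ | n
    · simp
    · simp only [Nat.add_sub_cancel]
      ring
  rw [h7] at h6
  have h8 := h x
  linear_combination h6 - I * n * h8

/-- derivative of `exp (U / V) ∏ P_i ^ s_i` -/
theorem class_deriv {n : ℕ} {g U V : ℝ → ℝ} {P : Fin n → ℝ → ℝ} {s : Fin n → ℝ}
    (hU : Differentiable ℝ U) (hV : Differentiable ℝ V) (hV0 : ∀ x, V x ≠ 0)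
    (hP : ∀ i, Differentiable ℝ (P i)) (hP0 : ∀ i x, 0 < P i x)
    (hg : ∀ x, g x = Real.exp (U x / V x) * ∏ i, P i x ^ s i) (x : ℝ) :
    HasDerivAt g (g x * ((deriv U x * V x - U x * deriv V x) / V x ^ 2 +
      ∑ i, s i * (deriv (P i) x / P i x))) x := by
  have hg' : g = fun x => Real.exp (U x / V x + ∑ i, s i * Real.log (P i x)) := by
    funext y
    rw [hg y, Real.exp_add, Real.exp_sum]
    congr 1
    refine Finset.prod_congr rfl fun i _ => ?_
    rw [Real.rpow_def_of_pos (hP0 i y), mul_comm]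
  have h1 : HasDerivAt (fun x => U x / V x) ((deriv U x * V x - U x * deriv V x) / V x ^ 2) x :=
    (hU x).hasDerivAt.div (hV x).hasDerivAt (hV0 x)
  have h2 : HasDerivAt (fun x => ∑ i, s i * Real.log (P i x)) (∑ i, s i * (deriv (P i) x / P i x)) x := by
    have := HasDerivAt.fun_sum (u := Finset.univ) (x := x)
      (A := fun (i : Fin n) (x : ℝ) => s i * Real.log (P i x))
      (A' := fun i => s i * (deriv (P i) x / P i x))
      (fun i _ => ((hP i x).hasDerivAt.log (hP0 i x).ne').const_mul (s i))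
    exact this
  have h3 := (h1.add h2).exp
  rw [hg']
  exact h3


theorem pg : PG := by
  rintro g R δ hδ hR hRg ⟨U, V, n, P, s, hU, hV, hV0, hP, hP0, hg⟩
  obtain ⟨a, u0, hu0⟩ := trig_poly hU
  obtain ⟨b, v0, hv0⟩ := trig_poly hV
  choose m p hp using fun i => trig_poly (hP i)
  have hUd := trig_diff hU
  have hVd := trig_diff hV
  have hPd := fun i => trig_diff (hP i)
  -- the same exponent for `U` and `V`
  have hu1 : ∀ x : ℝ, (U x : ℂ) * ez x ^ (a + b) = (X ^ b * u0).eval (ez x) := by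
    intro x
    rw [eval_mul, ← hu0 x, eval_pow, eval_X]
    ring
  have hv1 : ∀ x : ℝ, (V x : ℂ) * ez x ^ (a + b) = (X ^ a * v0).eval (ez x) := by
    intro x
    rw [eval_mul, ← hv0 x, eval_pow, eval_X]
    ring
  have hv1e : ∀ x : ℝ, (X ^ a * v0).eval (ez (x : ℂ)) ≠ 0 := by
    intro x
    rw [← hv1 x]
    exact mul_ne_zero (by exact_mod_cast hV0 x) (pow_ne_zero _ (ez_ne _))
  have hv1n : (X ^ a * v0 : ℂ[X]) ≠ 0 := by
    intro h
    apply hv1e 0
    rw [h, eval_zero]
  obtain ⟨G0, u, v, hG0, hu, hv, huv⟩ := lowest (X ^ b * u0) (X ^ a * v0) hv1n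
  have hGe : ∀ x : ℝ, G0.eval (ez (x : ℂ)) ≠ 0 := by
    intro x h
    apply hv1e x
    rw [hv, eval_mul, h, zero_mul]
  have hve : ∀ x : ℝ, v.eval (ez (x : ℂ)) ≠ 0 := by
    intro x h
    apply hv1e x
    rw [hv, eval_mul, h, mul_zero]
  have hquot : ∀ x : ℝ, ((U x / V x : ℝ) : ℂ) = u.eval (ez x) / v.eval (ez x) := by
    intro x
    have h1 := hu1 x
    have h2 := hv1 x
    rw [hu, eval_mul] at h1
    rw [hv, eval_mul] at h2
    have hVx : (V x : ℂ) ≠ 0 := by exact_mod_cast hV0 x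
    have he : ez (x : ℂ) ^ (a + b) ≠ 0 := pow_ne_zero _ (ez_ne _)
    push_cast
    rw [div_eq_div_iff hVx (hve x)]
    have h3 : (G0.eval (ez x) * ez (x : ℂ) ^ (a + b)) * ((U x : ℂ) * v.eval (ez x)) =
        (G0.eval (ez x) * ez (x : ℂ) ^ (a + b)) * (u.eval (ez x) * (V x : ℂ)) := by
      linear_combination (G0.eval (ez x) * v.eval (ez x)) * h1 - (G0.eval (ez x) * u.eval (ez x)) * h2
    exact mul_left_cancel₀ (mul_ne_zero (hGe x) he) h3
  have hqd : ∀ x : ℝ, (((deriv U x * V x - U x * deriv V x) / V x ^ 2 : ℝ) : ℂ) =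
      I * ez x * ((derivative u).eval (ez x) * v.eval (ez x) -
        u.eval (ez x) * (derivative v).eval (ez x)) / v.eval (ez x) ^ 2 := by
    intro x
    have h1 : HasDerivAt (fun x => U x / V x) ((deriv U x * V x - U x * deriv V x) / V x ^ 2) x :=
      (hUd x).hasDerivAt.div (hVd x).hasDerivAt (hV0 x)
    have h2 := h1.ofReal_comp
    have h3 : (fun x : ℝ => ((U x / V x : ℝ) : ℂ)) = fun x : ℝ => u.eval (ez (x : ℂ)) / v.eval (ez (x : ℂ)) :=
      funext hquot
    rw [h3] at h2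
    have h4 : HasDerivAt (fun x : ℝ => u.eval (ez (x : ℂ))) ((derivative u).eval (ez x) * (I * ez x)) x :=
      HasDerivAt.comp (h₂ := fun z : ℂ => u.eval z) x (u.hasDerivAt (ez (x : ℂ))) (hasDerivAt_ez x)
    have h5 : HasDerivAt (fun x : ℝ => v.eval (ez (x : ℂ))) ((derivative v).eval (ez x) * (I * ez x)) x :=
      HasDerivAt.comp (h₂ := fun z : ℂ => v.eval z) x (v.hasDerivAt (ez (x : ℂ))) (hasDerivAt_ez x)
    have h6 := h4.div h5 (hve x)
    rw [h2.unique h6]
    congr 1
    ring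
  have hpe : ∀ i, ∀ x : ℝ, (p i).eval (ez (x : ℂ)) ≠ 0 := by
    intro i x
    rw [← hp i x]
    exact mul_ne_zero (by exact_mod_cast (hP0 i x).ne') (pow_ne_zero _ (ez_ne _))
  have hpn : ∀ i, p i ≠ 0 := by
    intro i h
    apply hpe i 0
    rw [h, eval_zero]
  have hpd : ∀ i, ∀ x : ℝ, ((deriv (P i) x / P i x : ℝ) : ℂ) =
      (I * ez x * (derivative (p i)).eval (ez x) - I * m i * (p i).eval (ez x)) / (p i).eval (ez x) := by
    intro i x
    have h1 := poly_deriv (hPd i) (hp i) x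
    have h2 := hp i x
    have hPx : (P i x : ℂ) ≠ 0 := by exact_mod_cast (hP0 i x).ne'
    have he : ez (x : ℂ) ^ (m i) ≠ 0 := pow_ne_zero _ (ez_ne _)
    push_cast
    rw [div_eq_div_iff hPx (hpe i x)]
    have h3 : ez (x : ℂ) ^ (m i) * (((deriv (P i) x : ℝ) : ℂ) * (p i).eval (ez x)) =
        ez (x : ℂ) ^ (m i) * ((I * ez x * (derivative (p i)).eval (ez x) - I * m i * (p i).eval (ez x))
          * (P i x : ℂ)) := by
      linear_combination (p i).eval (ez x) * h1 -
        (I * ez x * (derivative (p i)).eval (ez x) - I * m i * (p i).eval (ez x)) * h2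
    exact mul_left_cancel₀ he h3
  -- numerator and denominator
  set c : ℂ := I * ∑ i, (s i : ℂ) * m i with hc
  set W : ℂ[X] := v ^ 2 * ∏ i, p i with hWdef
  set A : ℂ[X] := C I * X * (derivative u * v - u * derivative v) * ∏ i, p i
      + v ^ 2 * (C I * X * ∑ i, C (s i : ℂ) * derivative (p i) * ∏ j ∈ Finset.univ.erase i, p j
        - C c * ∏ i, p i) with hAdef
  have hWe : ∀ x : ℝ, W.eval (ez (x : ℂ)) ≠ 0 := by
    intro x
    rw [hWdef, eval_mul, eval_pow, eval_prod]
    exact mul_ne_zero (pow_ne_zero 2 (hve x)) (Finset.prod_ne_zero_iff.mpr fun i _ => hpe i x)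
  have hWn : W ≠ 0 := by
    intro h
    apply hWe 0
    rw [h, eval_zero]
  obtain ⟨G, N, D, hG, hA, hW, hND⟩ := lowest A W hWn
  have hGe' : ∀ x : ℝ, G.eval (ez (x : ℂ)) ≠ 0 := by
    intro x h
    apply hWe x
    rw [hW, eval_mul, h, zero_mul]
  have hDe : ∀ x : ℝ, D.eval (ez (x : ℂ)) ≠ 0 := by
    intro x h
    apply hWe x
    rw [hW, eval_mul, h, mul_zero]
  have hvn : v ≠ 0 := by
    intro h
    apply hve 0
    rw [h, eval_zero]
  refine ⟨N, D, ⟨hND, ?_, ?_⟩, ?_⟩
  · intro z hz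
    obtain ⟨x, rfl⟩ := exists_ez z hz
    exact hDe x
  · intro x
    have h1 : deriv R x = ((deriv g x : ℝ) : ℂ) := by
      have hmem : (x : ℂ) ∈ Str δ := by
        show |(x : ℂ).im| < δ
        simpa using hδ
      have h2 : HasDerivAt R (deriv R x) (x : ℂ) :=
        (hR.differentiableAt ((isOpen_Str δ).mem_nhds hmem)).hasDerivAt
      have h3 : HasDerivAt (fun y : ℝ => R y) (deriv R x) x := h2.comp_ofReal
      have h4 : (fun y : ℝ => R y) = fun y : ℝ => (g y : ℂ) := funext hRg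
      rw [h4] at h3
      have h5 := (class_deriv hUd hVd hV0 hPd hP0 hg x)
      rw [h5.deriv]
      exact h3.unique h5.ofReal_comp
    have h5 := (class_deriv hUd hVd hV0 hPd hP0 hg x).deriv
    have h6 : deriv R x * W.eval (ez x) = A.eval (ez x) * R x := by
      rw [h1, h5, hRg x, hWdef, hAdef]
      rw [Complex.ofReal_mul, Complex.ofReal_add, hqd x, Complex.ofReal_sum]
      simp only [Complex.ofReal_mul, hpd]
      simp only [eval_mul, eval_add, eval_sub, eval_pow, eval_C, eval_X, eval_prod, eval_finset_sum]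
      have hvx := hve x
      have hsum : (∑ i, (s i : ℂ) * ((I * ez x * (derivative (p i)).eval (ez x) -
          I * m i * (p i).eval (ez x)) / (p i).eval (ez x))) * ∏ i, (p i).eval (ez (x : ℂ)) =
          I * ez x * ∑ i, (s i : ℂ) * (derivative (p i)).eval (ez x) *
            ∏ j ∈ Finset.univ.erase i, (p j).eval (ez x) - c * ∏ i, (p i).eval (ez (x : ℂ)) := by
        rw [hc, Finset.sum_mul, Finset.mul_sum, Finset.mul_sum, Finset.sum_mul,
          ← Finset.sum_sub_distrib]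
        refine Finset.sum_congr rfl fun i _ => ?_
        have hi := hpe i x
        rw [← Finset.mul_prod_erase Finset.univ (fun j => (p j).eval (ez (x : ℂ))) (Finset.mem_univ i)]
        field_simp
      calc (g x : ℂ) * (I * ez x * ((derivative u).eval (ez x) * v.eval (ez x) -
            u.eval (ez x) * (derivative v).eval (ez x)) / v.eval (ez x) ^ 2 +
            ∑ i, (s i : ℂ) * ((I * ez x * (derivative (p i)).eval (ez x) -
          I * m i * (p i).eval (ez x)) / (p i).eval (ez x))) *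
            (v.eval (ez x) ^ 2 * ∏ i, (p i).eval (ez (x : ℂ)))
          = (g x : ℂ) * ((I * ez x * ((derivative u).eval (ez x) * v.eval (ez x) -
            u.eval (ez x) * (derivative v).eval (ez x)) / v.eval (ez x) ^ 2 * v.eval (ez x) ^ 2) *
              ∏ i, (p i).eval (ez (x : ℂ)) + v.eval (ez x) ^ 2 *
            ((∑ i, (s i : ℂ) * ((I * ez x * (derivative (p i)).eval (ez x) -
          I * m i * (p i).eval (ez x)) / (p i).eval (ez x))) * ∏ i, (p i).eval (ez (x : ℂ)))) := by ring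
        _ = _ := by
          rw [hsum, div_mul_cancel₀ _ (pow_ne_zero 2 hvx)]
          ring
    have h7 : G.eval (ez x) * (deriv R x * D.eval (ez x)) = G.eval (ez x) * (N.eval (ez x) * R x) := by
      rw [hA, hW, eval_mul, eval_mul] at h6
      linear_combination h6
    exact mul_left_cancel₀ (hGe' x) h7
  · intro z₀ hz hD hD'
    exact core u v huv hvn p hpn s c G N D hG (by rw [← hW]) (by rw [← hA]) z₀ hz hD hD'

end Vale.Agent.P097.H435.RatG
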