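import Vale.Agent.P097.H435.Tay2
import Vale.Agent.P097.H650.Patch
import Vale.Agent.P097.H82.Ser

/-!
# Algebraic elements over a ring of analytic functions, at a generic point

`O` is a ring of functions analytic near `t0`, `K` its field of fractions, `κ` algebraic over `K`.
An embedding `Λ` of `κ` in an algebraically closed field containing the Taylor series at `t0` maps a
given element of `κ` to the Taylor series of an analytic function, unless `t0` is a zero of an
element `bad ≠ 0` of `O` which does not depend on `t0`.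
-/

open Filter Topology Polynomial

namespace Vale.Agent.P097.H435.S10

open Vale.Agent.P097.H82

/-- the elements of `O` as functions near the point `t0` -/
structure Pt (O : Type*) [CommRing O] (t0 : ℂ) (evO : O → ℂ → ℂ) : Prop where
  an : ∀ f, AnalyticAt ℂ (evO f) t0
  one : evO 1 =ᶠ[𝓝 t0] fun _ => 1
  add : ∀ f g, evO (f + g) =ᶠ[𝓝 t0] fun z => evO f z + evO g z
  mul : ∀ f g, evO (f * g) =ᶠ[𝓝 t0] fun z => evO f z * evO g z
  ne : ∀ f, f ≠ 0 → ¬ ∀ᶠ z in 𝓝 t0, evO f z = 0

variable {O : Type*} [CommRing O] {t0 : ℂ} {evO : O → ℂ → ℂ}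

/-- Taylor series at `t0` -/
noncomputable def Pt.hom (h : Pt O t0 evO) : O →+* PowerSeries ℂ where
  toFun f := T1 (evO f) t0
  map_one' := by
    rw [T1_congr h.one, T1_const]
    rfl
  map_mul' f g := by rw [T1_congr (h.mul f g), T1_mul (h.an f) (h.an g)]
  map_zero' := by
    have h1 : T1 (evO (0 + 0)) t0 = T1 (evO 0) t0 + T1 (evO 0) t0 := by
      rw [T1_congr (h.add 0 0), T1_add (h.an 0) (h.an 0)]
    rw [add_zero] at h1
    simpa using h1
  map_add' f g := by rw [T1_congr (h.add f g), T1_add (h.an f) (h.an g)]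

theorem Pt.hom_apply (h : Pt O t0 evO) (f : O) : h.hom f = T1 (evO f) t0 := rfl

theorem Pt.hom_inj (h : Pt O t0 evO) : Function.Injective h.hom := by
  rw [injective_iff_map_eq_zero]
  intro f hf
  by_contra hne
  exact h.ne f hne (T1_inj (h.an f) hf)

/-- value at `t0` -/
noncomputable def Pt.val (h : Pt O t0 evO) : O →+* ℂ :=
  (PowerSeries.constantCoeff (R := ℂ)).comp h.hom

theorem Pt.val_apply (h : Pt O t0 evO) (f : O) : h.val f = evO f t0 := constantCoeff_T1

/-- functions analytic at a point -/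
def AnR {V : Type*} [NormedAddCommGroup V] [NormedSpace ℂ V] (v : V) : Subring (V → ℂ) where
  carrier := {f | AnalyticAt ℂ f v}
  mul_mem' ha hb := ha.mul hb
  one_mem' := analyticAt_const
  add_mem' ha hb := ha.add hb
  zero_mem' := analyticAt_const
  neg_mem' ha := ha.neg

/-- Taylor series of one variable functions, as a ring homomorphism -/
noncomputable def T1h (t0 : ℂ) : AnR t0 →+* PowerSeries ℂ where
  toFun f := T1 f.1 t0
  map_one' := T1_const 1
  map_mul' f g := T1_mul f.2 g.2
  map_zero' := by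
    have := T1_const (t := t0) 0
    rw [map_zero] at this
    exact this
  map_add' f g := T1_add f.2 g.2

variable {K κ : Type*} [Field K] [Algebra O K] [Field κ] [Algebra K κ]

/-- the map `O → κ` -/
def io (O K κ : Type*) [CommRing O] [Field K] [Algebra O K] [Field κ] [Algebra K κ] : O →+* κ :=
  (algebraMap K κ).comp (algebraMap O K)

theorem exists_Lam [IsDomain O] [IsFractionRing O K] [Algebra.IsAlgebraic K κ] (h : Pt O t0 evO)
    {E : Type*} [Field E] [IsAlgClosed E] (j : PowerSeries ℂ →+* E) (hj : Function.Injective j) :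
    ∃ Λ : κ →+* E, ∀ f : O, Λ (io O K κ f) = j (T1 (evO f) t0) := by
  have hi : Function.Injective (j.comp h.hom) := hj.comp h.hom_inj
  let φ : K →+* E := IsFractionRing.lift hi
  let _ : Algebra K E := φ.toAlgebra
  let Λ : κ →ₐ[K] E := IsAlgClosed.lift
  refine ⟨Λ.toRingHom, fun f => ?_⟩
  have h1 : Λ (algebraMap K κ (algebraMap O K f)) = φ (algebraMap O K f) := Λ.commutes _
  have h2 : φ (algebraMap O K f) = j (h.hom f) := IsFractionRing.lift_algebraMap hi f
  exact h1.trans h2

/-- `Λ` commutes with the derivations -/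
theorem Lam_D [IsDomain O] [IsFractionRing O K] [CharZero K] [Algebra.IsAlgebraic K κ] {dO : O → O} {d : κ → κ}
    (hd : IsDer (RingHom.id κ) d) (hdO : ∀ f, d (io O K κ f) = io O K κ (dO f))
    (hder : ∀ f, evO (dO f) =ᶠ[𝓝 t0] deriv (evO f))
    {E : Type*} [Field E] {j : PowerSeries ℂ →+* E} {D : E → E} (hD : IsDer (RingHom.id E) D)
    (hDj : ∀ x, D (j x) = j (PowerSeries.derivative ℂ x)) {Λ : κ →+* E}
    (hΛ : ∀ f : O, Λ (io O K κ f) = j (T1 (evO f) t0)) (x : κ) : Λ (d x) = D (Λ x) := by
  have h1 : IsDer Λ (Λ ∘ d) := by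
    have := hd.comp_left Λ
    rwa [RingHom.comp_id] at this
  have h2 : IsDer Λ (D ∘ Λ) := by
    have := hD.comp_right Λ
    rwa [RingHom.id_comp] at this
  have h3 : ∀ f : O, (Λ ∘ d) (io O K κ f) = (D ∘ Λ) (io O K κ f) := by
    intro f
    simp only [Function.comp_apply]
    rw [hdO, hΛ, hΛ, hDj, T1_congr (hder f), T1_deriv]
  refine IsDer.eq_of_algebraic (K := K) h1 h2 (fun y => ?_) x
  obtain ⟨a, b, hb, rfl⟩ := IsFractionRing.div_surjective (A := O) y
  have hb0 : algebraMap K κ (algebraMap O K b) ≠ 0 := by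
    rw [Ne, map_eq_zero]
    exact IsFractionRing.to_map_ne_zero_of_mem_nonZeroDivisors hb
  rw [map_div₀, h1.div _ hb0, h2.div _ hb0]
  have ha' := h3 a
  have hb' := h3 b
  simp only [io, RingHom.comp_apply] at ha' hb'
  rw [ha', hb']

/-- analytic root of a polynomial with analytic coefficients -/
theorem exists_root (h : Pt O t0 evO) (p : O[X]) {r : ℂ} (hr : p.eval₂ h.val r = 0)
    (hr' : (derivative p).eval₂ h.val r ≠ 0) :
    ∃ g : ℂ → ℂ, AnalyticAt ℂ g t0 ∧ g t0 = r ∧ p.eval₂ h.hom (T1 g t0) = 0 := by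
  let F : ℂ × ℂ → ℂ := fun v => ∑ i ∈ Finset.range (p.natDegree + 1), evO (p.coeff i) v.1 * v.2 ^ i
  have hFa : AnalyticAt ℂ F (t0, r) := by
    refine Finset.analyticAt_fun_sum _ fun i _ => ?_
    refine AnalyticAt.mul ?_ (analyticAt_snd.pow i)
    exact AnalyticAt.comp (g := evO (p.coeff i)) (f := fun v : ℂ × ℂ => v.1) (h.an _) analyticAt_fst
  have hF0 : F (t0, r) = 0 := by
    rw [← hr, eval₂_eq_sum_range]
    simp only [F, h.val_apply]
  have hFd : deriv (fun y => F (t0, y)) r ≠ 0 := by
    have h1 : HasDerivAt (fun y => F (t0, y)) ((derivative p).eval₂ h.val r) r := by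
      have h2 : (fun y => F (t0, y)) = fun y => (p.map h.val).eval y := by
        funext y
        rw [eval_map, eval₂_eq_sum_range]
        simp only [F, h.val_apply]
      rw [h2, ← eval_map, ← derivative_map]
      exact (p.map h.val).hasDerivAt r
    rw [h1.deriv]
    exact hr'
  obtain ⟨g, hg, hg0, hg1, -⟩ := H650.ift_scalar hFa hF0 hFd
  refine ⟨g, hg, hg0, ?_⟩
  rw [eval₂_eq_sum_range]
  let G : AnR t0 := ⟨g, hg⟩
  let c : ℕ → AnR t0 := fun i => ⟨evO (p.coeff i), h.an _⟩
  have h1 : ∑ i ∈ Finset.range (p.natDegree + 1), h.hom (p.coeff i) * T1 g t0 ^ i =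
      T1h t0 (∑ i ∈ Finset.range (p.natDegree + 1), c i * G ^ i) := by
    rw [map_sum]
    refine Finset.sum_congr rfl fun i _ => ?_
    rw [map_mul, map_pow]
    rfl
  rw [h1]
  have h2 : ((∑ i ∈ Finset.range (p.natDegree + 1), c i * G ^ i : AnR t0) : ℂ → ℂ) =ᶠ[𝓝 t0]
      fun _ => 0 := by
    filter_upwards [hg1] with x hx
    rw [← hx]
    simp only [F, AddSubmonoidClass.coe_finsetSum, Finset.sum_apply]
    rfl
  show T1 _ t0 = 0
  rw [T1_congr h2, T1_const, map_zero]

/-- **one element of `κ`** -/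
theorem exists_bad [IsDomain O] [IsFractionRing O K] [CharZero K] [Algebra.IsAlgebraic K κ]
    (x : κ) : ∃ bad : O, bad ≠ 0 ∧ ∀ (t0 : ℂ) (evO : O → ℂ → ℂ) (_ : Pt O t0 evO)
      {E : Type} [Field E] {j : PowerSeries ℂ →+* E} (_ : Function.Injective j) {Λ : κ →+* E}
      (_ : ∀ f : O, Λ (io O K κ f) = j (T1 (evO f) t0)), evO bad t0 ≠ 0 →
      ∃ g : ℂ → ℂ, AnalyticAt ℂ g t0 ∧ j (T1 g t0) = Λ x ∧ (x ≠ 0 → g t0 ≠ 0) := by
  classical
  have hint : IsIntegral K x := Algebra.IsIntegral.isIntegral x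
  have hirr := minpoly.irreducible hint
  have hsep : (minpoly K x).Separable := hirr.separable
  obtain ⟨a, b, hab⟩ := hsep
  obtain ⟨c1, hc1, hp1⟩ := IsLocalization.integerNormalization_spec (nonZeroDivisors O) (minpoly K x)
  obtain ⟨c2, hc2, ha1⟩ := IsLocalization.integerNormalization_spec (nonZeroDivisors O) a
  obtain ⟨c3, hc3, hb1⟩ := IsLocalization.integerNormalization_spec (nonZeroDivisors O) b
  set p := IsLocalization.integerNormalization (nonZeroDivisors O) (minpoly K x) with hp
  set a1 := IsLocalization.integerNormalization (nonZeroDivisors O) a with ha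
  set b1 := IsLocalization.integerNormalization (nonZeroDivisors O) b with hb
  have hinj : Function.Injective (algebraMap O K) := IsFractionRing.injective O K
  have hsm : ∀ (c : O) (q : K[X]), c • q = C (algebraMap O K c) * q := by
    intro c q
    rw [← smul_eq_C_mul, algebraMap_smul]
  rw [hsm] at hp1 ha1 hb1
  have hbez : C c3 * a1 * p + C c2 * b1 * derivative p = C (c1 * c2 * c3) := by
    refine map_injective _ hinj ?_
    simp only [Polynomial.map_add, Polynomial.map_mul, map_C, ← derivative_map, hp1, ha1, hb1,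
      derivative_C_mul, map_mul]
    linear_combination (C ((algebraMap O K) c1) * C ((algebraMap O K) c2) *
      C ((algebraMap O K) c3)) * hab
  have hc10 : algebraMap O K c1 ≠ 0 := IsFractionRing.to_map_ne_zero_of_mem_nonZeroDivisors hc1
  have hp0 : p ≠ 0 := by
    intro h0
    rw [h0, Polynomial.map_zero] at hp1
    have := hp1.symm
    rw [mul_eq_zero] at this
    rcases this with h1 | h1
    · exact hc10 (C_eq_zero.1 h1)
    · exact hirr.ne_zero h1
  have hroot : p.eval₂ (io O K κ) x = 0 := by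
    rw [io, ← eval₂_map, hp1, eval₂_mul]
    have h1 : eval₂ (algebraMap K κ) x (minpoly K x) = 0 := minpoly.aeval K x
    rw [h1, mul_zero]
  have hcoef : x ≠ 0 → p.coeff 0 ≠ 0 := by
    intro hx h0
    have h1 : (p.map (algebraMap O K)).coeff 0 = 0 := by rw [coeff_map, h0, map_zero]
    rw [hp1, coeff_C_mul, mul_eq_zero] at h1
    rcases h1 with h1 | h1
    · exact hc10 h1
    · exact minpoly.coeff_zero_ne_zero hint hx h1
  refine ⟨c1 * c2 * c3 * p.leadingCoeff * (if x = 0 then 1 else p.coeff 0), ?_, ?_⟩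
  · refine mul_ne_zero (mul_ne_zero (mul_ne_zero (mul_ne_zero ?_ ?_) ?_) ?_) ?_
    · exact nonZeroDivisors.ne_zero hc1
    · exact nonZeroDivisors.ne_zero hc2
    · exact nonZeroDivisors.ne_zero hc3
    · exact leadingCoeff_ne_zero.2 hp0
    · split_ifs with h0
      · exact one_ne_zero
      · exact hcoef h0
  intro t0 evO h E _ j hj Λ hΛ hbad
  rw [← h.val_apply, map_mul, map_mul] at hbad
  have hD : h.val (c1 * c2 * c3) ≠ 0 := left_ne_zero_of_mul (left_ne_zero_of_mul hbad)
  have hlc : h.val p.leadingCoeff ≠ 0 := right_ne_zero_of_mul (left_ne_zero_of_mul hbad)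
  have hc0 : h.val (if x = 0 then 1 else p.coeff 0) ≠ 0 := right_ne_zero_of_mul hbad
  -- the polynomial at `t0`
  set P := p.map h.val with hP
  have hPd : P.natDegree = p.natDegree := natDegree_map_of_leadingCoeff_ne_zero _ hlc
  have hbez' : ∀ r : ℂ, P.eval r = 0 → (derivative P).eval r ≠ 0 := by
    intro r h1 h2
    have h3 := congrArg (eval₂ h.val r) hbez
    rw [eval₂_add, eval₂_mul, eval₂_mul _ _ (q := derivative p), eval₂_C] at h3
    rw [hP, eval_map] at h1
    rw [hP, derivative_map, eval_map] at h2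
    rw [h1, h2, mul_zero, mul_zero, add_zero] at h3
    exact hD h3.symm
  have hPsep : P.Separable := by
    have h3 := congrArg (Polynomial.map h.val) hbez
    rw [Polynomial.map_add, Polynomial.map_mul, Polynomial.map_mul (p := C c2 * b1), map_C,
      ← derivative_map, ← hP] at h3
    refine ⟨C (h.val (c1 * c2 * c3))⁻¹ * (C c3 * a1).map h.val,
      C (h.val (c1 * c2 * c3))⁻¹ * (C c2 * b1).map h.val, ?_⟩
    rw [mul_assoc (C _) (Polynomial.map h.val (C c3 * a1)) P,
      mul_assoc (C _) (Polynomial.map h.val (C c2 * b1)) (derivative P), ← mul_add, h3, ← C_mul,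
      inv_mul_cancel₀ hD, C_1]
  have hcard : P.roots.toFinset.card = p.natDegree := by
    rw [Multiset.toFinset_card_of_nodup (nodup_roots hPsep), ← hPd]
    exact splits_iff_card_roots.1 (IsAlgClosed.splits P)
  have hP0 : P ≠ 0 := by
    intro h0
    have : P.coeff p.natDegree = 0 := by rw [h0, coeff_zero]
    rw [hP, coeff_map] at this
    exact hlc this
  have hex : ∀ r : ℂ, P.eval r = 0 → ∃ g : ℂ → ℂ, AnalyticAt ℂ g t0 ∧ g t0 = r ∧
      p.eval₂ h.hom (T1 g t0) = 0 := by
    intro r hr
    refine exists_root h p ?_ ?_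
    · rw [← eval_map]; exact hr
    · rw [← eval_map, ← derivative_map]; exact hbez' r hr
  choose! g hg1 hg2 hg3 using hex
  -- the polynomial over `E`
  set Q := p.map (j.comp h.hom) with hQ
  have hinj2 : Function.Injective (j.comp h.hom) := hj.comp h.hom_inj
  have hQ0 : Q ≠ 0 := by
    rw [hQ, Ne, Polynomial.map_eq_zero_iff hinj2]
    exact hp0
  have hsub : P.roots.toFinset.image (fun r => j (T1 (g r) t0)) ⊆ Q.roots.toFinset := by
    intro y hy
    obtain ⟨r, hr, rfl⟩ := Finset.mem_image.1 hy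
    rw [Multiset.mem_toFinset, mem_roots hP0] at hr
    rw [Multiset.mem_toFinset, mem_roots hQ0, IsRoot, hQ, eval_map, ← hom_eval₂, hg3 r hr, map_zero]
  have hinjr : Set.InjOn (fun r => j (T1 (g r) t0)) (P.roots.toFinset : Set ℂ) := by
    intro r hr r' hr' he
    rw [Finset.mem_coe, Multiset.mem_toFinset, mem_roots hP0] at hr hr'
    have h1 := congrArg PowerSeries.constantCoeff (hj he)
    rw [constantCoeff_T1, constantCoeff_T1, hg2 r hr, hg2 r' hr'] at h1
    exact h1
  have heq : P.roots.toFinset.image (fun r => j (T1 (g r) t0)) = Q.roots.toFinset := by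
    refine Finset.eq_of_subset_of_card_le hsub ?_
    rw [Finset.card_image_of_injOn hinjr, hcard]
    calc Q.roots.toFinset.card ≤ Q.roots.card := Multiset.toFinset_card_le _
      _ ≤ Q.natDegree := card_roots' Q
      _ ≤ p.natDegree := natDegree_map_le
  have hx : Λ x ∈ Q.roots.toFinset := by
    rw [Multiset.mem_toFinset, mem_roots hQ0, IsRoot, hQ, eval_map]
    have h1 : j.comp h.hom = Λ.comp (io O K κ) := by
      ext f
      exact (hΛ f).symm
    rw [h1, ← hom_eval₂, hroot, map_zero]
  rw [← heq] at hx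
  obtain ⟨r, hr, hr'⟩ := Finset.mem_image.1 hx
  rw [Multiset.mem_toFinset, mem_roots hP0] at hr
  refine ⟨g r, hg1 r hr, hr', fun hx0 => ?_⟩
  rw [hg2 r hr]
  intro hr0
  rw [if_neg hx0] at hc0
  rw [hr0, IsRoot, ← coeff_zero_eq_eval_zero, hP, coeff_map] at hr
  exact hc0 hr

end Vale.Agent.P097.H435.S10
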