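import Vale.Agent.P097.H435.Re

/-!
# Algebraic power series are realised by analytic functions
-/

open Filter Topology PowerSeries

namespace Vale.Agent.P097.H435.S10

open Vale.Agent.P097.H82

variable {κ : Type*} [Field κ] {d : κ → κ} {E : Type} [Field E] {j : ℂ⟦X⟧ →+* E} {D : E → E}
  {Λ : κ →+* E} {t0 : ℂ}

/-- `c` is the Taylor series of an analytic function -/
def Cn (j : ℂ⟦X⟧ →+* E) (Λ : κ →+* E) (t0 : ℂ) (c : κ) : Prop :=
  ∃ g : ℂ → ℂ, AnalyticAt ℂ g t0 ∧ j (T1 g t0) = Λ c ∧ (c ≠ 0 → g t0 ≠ 0)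

theorem eval_sum {R S : Type*} [CommRing R] [CommRing S] (θ : R →+* S) (P : Polynomial R) (y : S) :
    (P.map θ).eval y = ∑ i ∈ Finset.range (P.natDegree + 1), θ (P.coeff i) * y ^ i := by
  rw [Polynomial.eval_map, Polynomial.eval₂_eq_sum_range]

theorem derivative_eval_sum {R S : Type*} [CommRing R] [CommRing S] (θ : R →+* S)
    (P : Polynomial R) (y : S) : (Polynomial.derivative (P.map θ)).eval y =
      ∑ i ∈ Finset.range (P.natDegree + 1), (i : S) * θ (P.coeff i) * y ^ (i - 1) := by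
  rw [Polynomial.derivative_map, Polynomial.eval_map]
  conv_lhs => rw [P.as_sum_range_C_mul_X_pow]
  rw [Polynomial.derivative_sum, Polynomial.eval₂_finsetSum]
  refine Finset.sum_congr rfl fun i _ => ?_
  rw [Polynomial.derivative_C_mul_X_pow, Polynomial.eval₂_mul, Polynomial.eval₂_C,
    Polynomial.eval₂_pow, Polynomial.eval₂_X, map_mul, map_natCast]
  ring

theorem newton (hj : Function.Injective j) {A : Type*} [CommRing A] {θ : A →+* κ⟦X⟧}
    {ev : A → ℂ × ℂ → ℂ} (hev : ∀ a, Re j Λ t0 (θ a) (ev a)) {P : Polynomial A} {y u : κ⟦X⟧} {L : ℕ}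
    (hy : (P.map θ).eval y = 0)
    (hL : (Polynomial.derivative (P.map θ)).eval y = PowerSeries.X ^ L * u)
    (hu0 : constantCoeff u ≠ 0) (hu : Cn j Λ t0 (constantCoeff u))
    (hc : ∀ l ≤ L, Cn j Λ t0 (coeff l y)) : ∃ Y, Re j Λ t0 y Y := by
  classical
  set Q := P.map θ with hQ
  -- the truncation
  set y0 : κ⟦X⟧ := ∑ l ∈ Finset.range (L + 1), C (coeff l y) * PowerSeries.X ^ l with hy0
  have hdvd : (PowerSeries.X : κ⟦X⟧) ^ (L + 1) ∣ y0 - y := by
    rw [X_pow_dvd_iff]
    intro m hm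
    rw [map_sub, hy0, map_sum, Finset.sum_eq_single m]
    · rw [coeff_C_mul, coeff_X_pow_self, mul_one, sub_self]
    · intro b _ hb
      rw [coeff_C_mul, coeff_X_pow, if_neg (Ne.symm hb), mul_zero]
    · intro h1
      exact absurd (Finset.mem_range.2 hm) h1
  obtain ⟨h, hh⟩ := hdvd
  have hyh : y0 = y + PowerSeries.X ^ (L + 1) * h := by rw [← hh]; ring
  obtain ⟨k, hk⟩ := Polynomial.binomExpansion Q y (PowerSeries.X ^ (L + 1) * h)
  rw [← hyh, hy, hL, zero_add] at hk
  have hz1 : Q.eval y0 = PowerSeries.X ^ (2 * L + 1) * (u * h + PowerSeries.X * k * h ^ 2) := by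
    rw [hk]; ring
  obtain ⟨w, hw⟩ := Polynomial.sub_dvd_eval_sub y0 y (Polynomial.derivative Q)
  have hz2 : (Polynomial.derivative Q).eval y0 = PowerSeries.X ^ L * (u + PowerSeries.X * h * w) := by
    rw [hL, hh] at hw
    linear_combination hw
  -- realise the truncation
  choose! g hg using hc
  have hY0 : Re j Λ t0 y0 (fun v => ∑ l ∈ Finset.range (L + 1), g l v.1 * v.2 ^ l) := by
    refine Re.sum _ fun l hl => ?_
    have hl' : l ≤ L := Nat.lt_succ_iff.1 (Finset.mem_range.1 hl)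
    exact (Re.const (hg l hl').1 (hg l hl').2.1).mul (Re.X.pow l)
  set Y0 : ℂ × ℂ → ℂ := fun v => ∑ l ∈ Finset.range (L + 1), g l v.1 * v.2 ^ l with hY0d
  have hF1 : Re j Λ t0 (PowerSeries.X ^ (2 * L + 1) * (u * h + PowerSeries.X * k * h ^ 2))
      (fun v => ∑ i ∈ Finset.range (P.natDegree + 1), ev (P.coeff i) v * Y0 v ^ i) := by
    rw [← hz1, hQ, eval_sum]
    exact Re.sum _ fun i _ => (hev _).mul (hY0.pow i)
  have hF2 : Re j Λ t0 (PowerSeries.X ^ L * (u + PowerSeries.X * h * w))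
      (fun v => ∑ i ∈ Finset.range (P.natDegree + 1),
        (i : ℂ) * ev (P.coeff i) v * Y0 v ^ (i - 1)) := by
    rw [← hz2, hQ, derivative_eval_sum]
    exact Re.sum _ fun i _ => ((Re.natCast i).mul (hev _)).mul (hY0.pow (i - 1))
  obtain ⟨G1, hG1, hG1'⟩ := hF1.divX hj
  obtain ⟨G2, hG2, hG2'⟩ := hF2.divX hj
  obtain ⟨gu, hgu1, hgu2, hgu3⟩ := hu
  have hG20 : G2 (t0, 0) ≠ 0 := by
    have h1 : constantCoeff (u + PowerSeries.X * h * w) = constantCoeff u := by simp
    rw [hG2.val_eq hj (g := gu) (by rw [h1]; exact hgu2)]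
    exact hgu3 hu0
  obtain ⟨U, hU, hU1⟩ := H650.newton_core (a := fun i => ev (P.coeff i)) (fun i => (hev _).1) hY0.1
    hG1.1 hG2.1 hG1' hG2' hG20
  set Y : ℂ × ℂ → ℂ := fun v => Y0 v + v.2 ^ (L + 1) * U v with hYd
  have hYa : AnalyticAt ℂ Y (t0, 0) := hY0.1.add ((analyticAt_snd.pow (L + 1)).mul hU)
  refine ⟨Y, hYa, ?_⟩
  -- calculus over `E`
  have toE : ∀ {x : κ⟦X⟧} {F : ℂ × ℂ → ℂ}, Re j Λ t0 x F →
      Re j (RingHom.id E) t0 (PowerSeries.map Λ x) F := by
    intro x F hx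
    refine ⟨hx.1, ?_⟩
    rw [← hx.2]
    ext l
    simp
  have toE' : ∀ {F : ℂ × ℂ → ℂ}, AnalyticAt ℂ F (t0, 0) →
      Re j (RingHom.id E) t0 (TT j t0 F) F := by
    intro F hF
    refine ⟨hF, ?_⟩
    ext l
    simp
  set QE := Q.map (PowerSeries.map Λ) with hQE
  have hQE' : QE = P.map ((PowerSeries.map Λ).comp θ) := by rw [hQE, hQ, Polynomial.map_map]
  have e1 : QE.eval (TT j t0 Y) = 0 := by
    have h1 : Re j (RingHom.id E) t0 (QE.eval (TT j t0 Y))
        (fun v => ∑ i ∈ Finset.range (P.natDegree + 1), ev (P.coeff i) v * Y v ^ i) := by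
      rw [hQE', eval_sum]
      exact Re.sum _ fun i _ => (toE (hev _)).mul ((toE' hYa).pow i)
    exact (h1.eq_iff hj Re.zero).2 hU1
  have e2 : QE.eval (PowerSeries.map Λ y) = 0 := by
    rw [hQE, Polynomial.eval_map, Polynomial.eval₂_hom, hy, map_zero]
  have e3 : (Polynomial.derivative QE).eval (PowerSeries.map Λ y) =
      PowerSeries.X ^ L * PowerSeries.map Λ u := by
    rw [hQE, Polynomial.derivative_map, Polynomial.eval_map, Polynomial.eval₂_hom, hL, map_mul,
      map_pow, map_X]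
  have e4 : TT j t0 Y = PowerSeries.map Λ y0 + PowerSeries.X ^ (L + 1) * TT j t0 U := by
    have h1 : Re j (RingHom.id E) t0
        (PowerSeries.map Λ y0 + PowerSeries.X ^ (L + 1) * TT j t0 U) Y :=
      (toE hY0).add ((Re.X.pow (L + 1)).mul (toE' hU))
    exact ((toE' hYa).eq_iff hj h1).2 (Filter.EventuallyEq.refl _ _)
  have e5 : TT j t0 Y = PowerSeries.map Λ y +
      PowerSeries.X ^ (L + 1) * (TT j t0 U + PowerSeries.map Λ h) := by
    rw [e4, hyh, map_add, map_mul, map_pow, map_X]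
    ring
  obtain ⟨k2, hk2⟩ := Polynomial.binomExpansion QE (PowerSeries.map Λ y)
    (PowerSeries.X ^ (L + 1) * (TT j t0 U + PowerSeries.map Λ h))
  rw [← e5, e1, e2, e3, zero_add] at hk2
  set h2 := TT j t0 U + PowerSeries.map Λ h with hh2
  have e6 : PowerSeries.X ^ (2 * L + 1) * (h2 * (PowerSeries.map Λ u +
      PowerSeries.X * k2 * h2)) = 0 := by
    rw [hk2]; ring
  have e7 : h2 = 0 := by
    rcases mul_eq_zero.1 ((mul_eq_zero.1 e6).resolve_left (pow_ne_zero _ X_ne_zero)) with h1 | h1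
    · exact h1
    · exfalso
      have h3 := congrArg constantCoeff h1
      rw [map_add, map_mul, map_mul, constantCoeff_X, zero_mul, zero_mul, add_zero, map_zero,
        ← coeff_zero_eq_constantCoeff_apply, coeff_map, coeff_zero_eq_constantCoeff_apply] at h3
      exact hu0 (Λ.injective (by rw [h3, map_zero]))
  rw [e5, e7, mul_zero, add_zero]

theorem torsionFree [CharZero κ] : IsAddTorsionFree κ⟦X⟧ := by
  have h1 : CharZero κ⟦X⟧ := by
    refine ⟨fun a b h => ?_⟩
    have h2 := congrArg (constantCoeff (R := κ)) h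
    rw [map_natCast, map_natCast] at h2
    exact_mod_cast h2
  infer_instance

/-- a polynomial with non vanishing derivative -/
theorem exists_sep [CharZero κ] {A : Type*} [CommRing A] {θ : A →+* κ⟦X⟧} {y : κ⟦X⟧}
    (hy : ∃ P : Polynomial A, P.map θ ≠ 0 ∧ P.eval₂ θ y = 0) :
    ∃ P : Polynomial A, (P.map θ).eval y = 0 ∧ (Polynomial.derivative (P.map θ)).eval y ≠ 0 := by
  have key : ∀ n : ℕ, ∀ P : Polynomial A, (P.map θ).natDegree = n → P.map θ ≠ 0 →
      (P.map θ).eval y = 0 → ∃ P : Polynomial A, (P.map θ).eval y = 0 ∧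
        (Polynomial.derivative (P.map θ)).eval y ≠ 0 := by
    intro n
    induction n using Nat.strong_induction_on with
    | _ n ih =>
    intro P hn h0 h1
    by_cases h2 : (Polynomial.derivative (P.map θ)).eval y = 0
    · have h3 : (P.map θ).natDegree ≠ 0 := by
        intro h3
        rw [Polynomial.eq_C_of_natDegree_eq_zero h3, Polynomial.eval_C] at h1
        apply h0
        rw [Polynomial.eq_C_of_natDegree_eq_zero h3, h1, Polynomial.C_0]
      have h4 : Polynomial.derivative (P.map θ) ≠ 0 := by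
        intro h4
        have h5 := torsionFree (κ := κ)
        exact h3 (Polynomial.derivative_eq_zero.1 h4)
      have h5 := Polynomial.natDegree_derivative_lt h3
      rw [Polynomial.derivative_map] at h2 h4 h5
      exact ih _ (by omega) (Polynomial.derivative P) rfl h4 h2
    · exact ⟨P, h1, h2⟩
  obtain ⟨P, hP0, hP1⟩ := hy
  exact key _ P rfl hP0 (by rw [Polynomial.eval_map]; exact hP1)

end Vale.Agent.P097.H435.S10
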