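import Vale.Agent.P097.H435.OPGlue
import Vale.Agent.P097.H456.Fct.Defs

/-!
# The ring `PA`: germs, derivations, the subring of functions periodic analytic on a domain
-/

open Filter Topology PowerSeries

namespace Vale.Agent.P097.H435.S10

open Vale.Agent.P097.H82 Vale.Agent.P097.H320
open Vale.Agent.P097.H456.Fct (PerAn QuoOn AlgOn)

namespace PA

/-- membership from germs -/
theorem mk_mem {F : ℂ × ℂ → ℂ} (h1 : ∀ x : ℝ, AnalyticAt ℂ F ((x : ℂ), 0))
    (h2 : ∀ x : ℝ, ∀ᶠ u in 𝓝 ((x : ℂ), (0 : ℂ)), F (u.1 + 1, u.2) = F u) : F ∈ PA :=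
  fun x => ⟨h1 x, h2 x⟩

theorem per (F : PA) (x : ℝ) : ∀ᶠ u in 𝓝 ((x : ℂ), (0 : ℂ)), F.1 (u.1 + 1, u.2) = F.1 u := (F.2 x).2

/-- equality of Taylor series and of germs along the real line -/
theorem tau_eq_iff {F G : PA} : tau F = tau G ↔ ∀ x : ℝ, F.1 =ᶠ[𝓝 ((x : ℂ), (0 : ℂ))] G.1 := by
  constructor
  · intro h x
    have h1 : ∀ l, cf F.1 l =ᶠ[𝓝 (x : ℂ)] cf G.1 l := by
      intro l
      refine germ_eq (cf_analyticAt (an F x) l) (cf_analyticAt (an G x) l)
        (Filter.Eventually.of_forall fun y => ?_)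
      have h2 := congrArg (coeff l) h
      rw [coeff_tau, coeff_tau] at h2
      exact congrFun (congrArg Subtype.val h2) y
    have h2 : AnalyticAt ℂ (fun u => F.1 u + - G.1 u) ((x : ℂ), 0) := (an F x).add (an G x).neg
    have h3 := eq_zero_of_cf h2 fun l => by
      filter_upwards [h1 l, eventually_t (an F x).eventually_analyticAt,
        eventually_t (an G x).eventually_analyticAt] with t e1 e2 e3
      rw [cf_add e2 (G := fun u => - G.1 u) e3.neg, cf_neg, e1, add_neg_cancel]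
    filter_upwards [h3] with u hu
    linear_combination hu
  · intro h
    refine PowerSeries.ext fun l => ?_
    rw [coeff_tau, coeff_tau]
    refine OP.ext' fun x => ?_
    exact (cf_congr (h x) l).self_of_nhds

theorem tau_eq_zero {F : PA} : tau F = 0 ↔ ∀ x : ℝ, ∀ᶠ u in 𝓝 ((x : ℂ), (0 : ℂ)), F.1 u = 0 := by
  rw [← map_zero tau, tau_eq_iff]
  rfl

theorem shift_tendsto (x : ℂ) : Tendsto (fun u : ℂ × ℂ => (u.1 + 1, u.2)) (𝓝 (x, (0 : ℂ)))
    (𝓝 (x + 1, (0 : ℂ))) := by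
  have : Continuous (fun u : ℂ × ℂ => (u.1 + 1, u.2)) := by fun_prop
  exact this.tendsto (x, 0)

theorem fderiv_shift {F : ℂ × ℂ → ℂ} {u : ℂ × ℂ} (h : ∀ᶠ v in 𝓝 u, F (v.1 + 1, v.2) = F v)
    (hF : DifferentiableAt ℂ F (u.1 + 1, u.2)) : fderiv ℂ F (u.1 + 1, u.2) = fderiv ℂ F u := by
  have h1 : HasFDerivAt (fun v : ℂ × ℂ => (v.1 + 1, v.2)) (ContinuousLinearMap.id ℂ (ℂ × ℂ)) u := by
    have h2 : (fun v : ℂ × ℂ => (v.1 + 1, v.2)) = fun v => v + (1, 0) := by
      funext v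
      ext <;> simp
    rw [h2]
    exact (hasFDerivAt_id u).add_const _
  have h3 := HasFDerivAt.comp (g := F) (f := fun v : ℂ × ℂ => (v.1 + 1, v.2)) u hF.hasFDerivAt h1
  rw [ContinuousLinearMap.comp_id] at h3
  have h4 : (F ∘ fun v : ℂ × ℂ => (v.1 + 1, v.2)) =ᶠ[𝓝 u] F := h
  rw [← h3.fderiv]
  exact h4.fderiv_eq

/-- derivative in `t` -/
noncomputable def dt (F : PA) : PA := ⟨DT F.1, fun x => ⟨analyticAt_DT (an F x), by
  have h1 : ∀ᶠ u in 𝓝 ((x : ℂ), (0 : ℂ)), AnalyticAt ℂ F.1 (u.1 + 1, u.2) := by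
    have h2 : ∀ᶠ v in 𝓝 ((x : ℂ) + 1, (0 : ℂ)), AnalyticAt ℂ F.1 v := by
      have := (an F (x + 1)).eventually_analyticAt
      push_cast at this
      exact this
    exact (shift_tendsto x).eventually h2
  filter_upwards [(per F x).eventually_nhds, h1] with u hu hu1
  simp only [DT, fderiv_shift hu hu1.differentiableAt]⟩⟩

/-- derivative in `w` -/
noncomputable def dw (F : PA) : PA := ⟨DS F.1, fun x => ⟨analyticAt_DS (an F x), by
  have h1 : ∀ᶠ u in 𝓝 ((x : ℂ), (0 : ℂ)), AnalyticAt ℂ F.1 (u.1 + 1, u.2) := by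
    have h2 : ∀ᶠ v in 𝓝 ((x : ℂ) + 1, (0 : ℂ)), AnalyticAt ℂ F.1 v := by
      have := (an F (x + 1)).eventually_analyticAt
      push_cast at this
      exact this
    exact (shift_tendsto x).eventually h2
  filter_upwards [(per F x).eventually_nhds, h1] with u hu hu1
  simp only [DS, fderiv_shift hu hu1.differentiableAt]⟩⟩

theorem dt_apply (F : PA) (u : ℂ × ℂ) : (dt F).1 u = fderiv ℂ F.1 u (1, 0) := rfl

theorem dw_apply (F : PA) (u : ℂ × ℂ) : (dw F).1 u = fderiv ℂ F.1 u (0, 1) := rfl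

theorem co_dt (F : PA) (l : ℕ) : co (dt F) l = OP.D (co F l) := by
  refine OP.ext' fun x => ?_
  rw [co_apply, OP.D_apply]
  have h1 := (cf_DT (an F x) l).self_of_nhds
  have h2 : HasDerivAt (fun y : ℝ => cf F.1 l y) (deriv (cf F.1 l) x) x :=
    (cf_analyticAt (an F x) l).differentiableAt.hasDerivAt.comp_ofReal
  have h3 : (co F l).1 = fun y : ℝ => cf F.1 l y := rfl
  rw [h3, h2.deriv]
  exact h1

theorem co_dw (F : PA) (l : ℕ) : co (dw F) l = ((l : OP) + 1) * co F (l + 1) := by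
  refine OP.ext' fun x => ?_
  rw [co_apply]
  have h1 := cf_DS F.1 (an F x) l
  have h2 : (((l : OP) + 1) * co F (l + 1)).1 x = ((l : ℂ) + 1) * cf F.1 (l + 1) x := by
    have h3 : ((l : OP) : OP).1 x = (l : ℂ) := by
      have h4 : ∀ m : ℕ, ((m : OP) : OP).1 x = (m : ℂ) := by
        intro m
        induction m with
        | zero => simp
        | succ m ih =>
          rw [Nat.cast_succ, Nat.cast_succ, ← ih]
          rfl
      exact h4 l
    rw [← h3]
    rfl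
  rw [h2]
  exact h1

section kappa

variable {K κ : Type*} [Field K] [Algebra OP K] [Field κ] [Algebra K κ]

/-- the Taylor map to `κ⟦X⟧`, `w = s ^ N` -/
noncomputable def thN (K κ : Type*) [Field K] [Algebra OP K] [Field κ] [Algebra K κ] (N : ℕ)
    (hN : N ≠ 0) : PA →+* κ⟦X⟧ := (PowerSeries.map (io OP K κ)).comp (tauN N hN)

/-- the Taylor map to `κ⟦X⟧` -/
noncomputable def th (K κ : Type*) [Field K] [Algebra OP K] [Field κ] [Algebra K κ] : PA →+* κ⟦X⟧ :=
  (PowerSeries.map (io OP K κ)).comp tau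

theorem coeff_th (F : PA) (l : ℕ) : coeff l (th K κ F) = io OP K κ (co F l) := by
  simp [th, coeff_tau]

theorem thN_eq (N : ℕ) (hN : N ≠ 0) (F : PA) :
    thN K κ N hN F = PowerSeries.expand N hN (th K κ F) := by
  ext l
  rw [coeff_expand]
  have h1 : coeff l (thN K κ N hN F) = io OP K κ (coeff l (tauN N hN F)) := by simp [thN]
  rw [h1, coeff_tauN, coeff_th]
  split_ifs
  · rfl
  · rw [map_zero]

theorem th_one_eq (F : PA) : thN K κ 1 one_ne_zero F = th K κ F := by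
  rw [thN_eq]
  ext l
  rw [coeff_expand]
  simp

theorem th_dt {d : κ → κ} (hdO : ∀ f, d (io OP K κ f) = io OP K κ (OP.D f)) (F : PA) :
    th K κ (dt F) = ct d (th K κ F) := by
  ext l
  rw [coeff_ct, coeff_th, coeff_th, co_dt, hdO]

theorem th_dw (F : PA) : th K κ (dw F) = derivative κ (th K κ F) := by
  ext l
  rw [coeff_derivative, coeff_th, coeff_th, co_dw, map_mul, map_add, map_natCast, map_one]
  ring

theorem th_inj [IsFractionRing OP K] {F G : PA} : th K κ F = th K κ G ↔ tau F = tau G := by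
  constructor
  · intro h
    refine PowerSeries.ext fun l => ?_
    have h1 := congrArg (coeff l) h
    rw [coeff_th, coeff_th] at h1
    rw [coeff_tau, coeff_tau]
    exact IsFractionRing.injective OP K ((algebraMap K κ).injective h1)
  · intro h
    simp only [th, RingHom.comp_apply, h]

theorem th_eq_iff [IsFractionRing OP K] {F G : PA} :
    th K κ F = th K κ G ↔ ∀ x : ℝ, F.1 =ᶠ[𝓝 ((x : ℂ), (0 : ℂ))] G.1 := by
  rw [th_inj, tau_eq_iff]

theorem th_ne_zero [IsFractionRing OP K] {F : PA} {x : ℝ} (h : F.1 ((x : ℂ), 0) ≠ 0) :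
    constantCoeff (th K κ F) ≠ 0 := by
  rw [← coeff_zero_eq_constantCoeff_apply, coeff_th]
  intro h1
  have h2 : co F 0 = 0 := by
    refine IsFractionRing.injective OP K ((algebraMap K κ).injective ?_)
    rw [map_zero, map_zero]
    exact h1
  have h3 := congrFun (congrArg Subtype.val h2) x
  apply h
  rw [← cf_zero F.1]
  exact h3

end kappa

/-! ### functions periodic and analytic on a domain -/

/-- the subring of `PA` of the functions which are periodic and analytic on `Ω` -/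
def AP (Ω : Set (ℂ × ℂ)) : Subring PA where
  carrier := {F | PerAn Ω F.1}
  mul_mem' {F G} hF hG := ⟨fun u hu => (hF.1 u hu).mul (hG.1 u hu), fun u hu => by
    have h1 := hF.2 u hu
    have h2 := hG.2 u hu
    show F.1 _ * G.1 _ = F.1 _ * G.1 _
    rw [h1, h2]⟩
  one_mem' := ⟨fun u _ => analyticAt_const, fun u _ => rfl⟩
  add_mem' {F G} hF hG := ⟨fun u hu => (hF.1 u hu).add (hG.1 u hu), fun u hu => by
    have h1 := hF.2 u hu
    have h2 := hG.2 u hu
    show F.1 _ + G.1 _ = F.1 _ + G.1 _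
    rw [h1, h2]⟩
  zero_mem' := ⟨fun u _ => analyticAt_const, fun u _ => rfl⟩
  neg_mem' {F} hF := ⟨fun u hu => (hF.1 u hu).neg, fun u hu => by
    have h1 := hF.2 u hu
    show - F.1 _ = - F.1 _
    rw [h1]⟩

variable {Ω : Set (ℂ × ℂ)}

theorem mem_AP {F : PA} : F ∈ AP Ω ↔ PerAn Ω F.1 := Iff.rfl

theorem mem_of_perAn (hΩ : H456.Fct.Dom Ω) {F : ℂ × ℂ → ℂ} (hF : PerAn Ω F) : F ∈ PA := by
  intro x
  refine ⟨hF.1 _ (hΩ.re x), ?_⟩
  filter_upwards [hΩ.op.mem_nhds (hΩ.re x)] with u hu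
  exact hF.2 u hu

/-- a periodic analytic function on `Ω` as an element of `AP Ω` -/
def ofPer (hΩ : H456.Fct.Dom Ω) {F : ℂ × ℂ → ℂ} (hF : PerAn Ω F) : AP Ω :=
  ⟨⟨F, mem_of_perAn hΩ hF⟩, hF⟩

/-- identity theorem on `Ω` -/
theorem eqOn_of_germ (hΩ : H456.Fct.Dom Ω) {F : ℂ × ℂ → ℂ} (hF : AnalyticOnNhd ℂ F Ω) {x : ℝ}
    (h : ∀ᶠ u in 𝓝 ((x : ℂ), (0 : ℂ)), F u = 0) : ∀ u ∈ Ω, F u = 0 := fun u hu =>
  hF.eqOn_zero_of_preconnected_of_eventuallyEq_zero hΩ.pc (hΩ.re x) h hu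

theorem tau_ne_zero_iff (hΩ : H456.Fct.Dom Ω) (F : AP Ω) :
    tau F.1 ≠ 0 ↔ ∃ u ∈ Ω, F.1.1 u ≠ 0 := by
  constructor
  · intro h
    by_contra hne
    push Not at hne
    apply h
    rw [tau_eq_zero]
    intro x
    filter_upwards [hΩ.op.mem_nhds (hΩ.re x)] with u hu
    exact hne u hu
  · rintro ⟨u, hu, h⟩ h0
    rw [tau_eq_zero] at h0
    exact h (eqOn_of_germ hΩ F.2.1 (h0 0) u hu)

/-- `QuoOn` in terms of Taylor series -/
theorem quo_iff (hΩ : H456.Fct.Dom Ω) {f : PA} : QuoOn Ω f.1 ↔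
    ∃ F G : AP Ω, tau G.1 ≠ 0 ∧ tau G.1 * tau f = tau F.1 := by
  constructor
  · rintro ⟨F, G, hF, hG, h1, h2⟩
    refine ⟨ofPer hΩ hF, ofPer hΩ hG, (tau_ne_zero_iff hΩ _).2 h1, ?_⟩
    rw [← map_mul, tau_eq_iff]
    intro x
    exact h2 x
  · rintro ⟨F, G, h1, h2⟩
    refine ⟨F.1.1, G.1.1, F.2, G.2, (tau_ne_zero_iff hΩ _).1 h1, ?_⟩
    rw [← map_mul, tau_eq_iff] at h2
    intro x
    exact h2 x

/-- `AlgOn` in terms of Taylor series -/
theorem alg_tau (hΩ : H456.Fct.Dom Ω) {f : PA} (h : AlgOn Ω f.1) :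
    ∃ P : Polynomial (AP Ω), P.map (tau.comp (AP Ω).subtype) ≠ 0 ∧
      P.eval₂ (tau.comp (AP Ω).subtype) (tau f) = 0 := by
  obtain ⟨m, c, hc, ⟨i, hi, u, hu, hne⟩, h1⟩ := h
  let P : Polynomial (AP Ω) := ∑ i ∈ Finset.range (m + 1),
    Polynomial.C (ofPer hΩ (hc i)) * Polynomial.X ^ i
  refine ⟨P, ?_, ?_⟩
  · intro h0
    have h2 := congrArg (fun p => Polynomial.coeff p i) h0
    simp only [Polynomial.coeff_map, Polynomial.coeff_zero] at h2
    have h3 : P.coeff i = ofPer hΩ (hc i) := by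
      simp only [P, Polynomial.finsetSum_coeff, Polynomial.coeff_C_mul, Polynomial.coeff_X_pow]
      rw [Finset.sum_eq_single i]
      · rw [if_pos rfl, mul_one]
      · intro b _ hb
        rw [if_neg (Ne.symm hb), mul_zero]
      · intro h4
        exact absurd (Finset.mem_range.2 (by omega)) h4
    rw [h3] at h2
    exact (tau_ne_zero_iff hΩ (ofPer hΩ (hc i))).2 ⟨u, hu, hne⟩ h2
  · simp only [P, Polynomial.eval₂_finsetSum, Polynomial.eval₂_mul, Polynomial.eval₂_C,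
      Polynomial.eval₂_pow, Polynomial.eval₂_X]
    have h2 : ∑ i ∈ Finset.range (m + 1), (tau.comp (AP Ω).subtype) (ofPer hΩ (hc i)) * tau f ^ i =
        tau (∑ i ∈ Finset.range (m + 1), (ofPer hΩ (hc i)).1 * f ^ i) := by
      rw [map_sum]
      refine Finset.sum_congr rfl fun i _ => ?_
      rw [map_mul, map_pow]
      rfl
    rw [h2, tau_eq_zero]
    intro x
    filter_upwards [h1 x] with u hu
    rw [← hu]
    simp only [AddSubmonoidClass.coe_finsetSum, Finset.sum_apply]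
    rfl

end PA

end Vale.Agent.P097.H435.S10
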