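import Vale.Agent.P097.H435.Tay2
import Vale.Agent.P097.H128.NZ.TC
import Vale.Agent.P097.H650.Patch
import Vale.Agent.P097.H202.Prim

/-! # P097 / REG-C, part 1: gluing of germs along the axis, roots, primitives with a parameter -/

set_option linter.all false

open Complex Metric Filter Topology Set

namespace Vale.Agent.P097.H435.RC

open Vale.Agent.P097 Vale.Agent.P097.NZ

/-- gluing of germs along an open set of the axis -/
theorem glue {V : Set ℂ} (G : ℂ → ℂ × ℂ → ℂ) (hG : ∀ x ∈ V, AnalyticAt ℂ (G x) (x, 0))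
    (hc : ∀ x ∈ V, ∀ᶠ y in 𝓝 x, G y =ᶠ[𝓝 ((y, 0) : ℂ × ℂ)] G x) :
    ∃ g : ℂ × ℂ → ℂ, ∀ x ∈ V, g =ᶠ[𝓝 ((x, 0) : ℂ × ℂ)] G x := by
  refine ⟨Sm (fun k z => tc (G z) k z), fun x hx => ?_⟩
  have h1 : ∀ᶠ y in 𝓝 x, ∀ k, tc (G y) k y = tc (G x) k y := by
    filter_upwards [hc x hx] with y hy k
    exact (tc_congr hy).self_of_nhds k
  have h2 := Sm_tc (hG x hx)
  have h3 : ∀ᶠ p in 𝓝 ((x, 0) : ℂ × ℂ), ∀ k, tc (G p.1) k p.1 = tc (G x) k p.1 :=
    (continuous_fst.tendsto ((x, 0) : ℂ × ℂ)).eventually h1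
  filter_upwards [h2, h3] with p hp hp'
  rw [← hp]
  simp only [Sm]
  exact tsum_congr fun k => by rw [hp' k]

/-- a root depending analytically on the parameters, along an open set of the axis -/
theorem glue_root {V : Set ℂ} (hV : IsOpen V) (Ψ : (ℂ × ℂ) × ℂ → ℂ) (b : ℂ → ℂ)
    (hb : ∀ x ∈ V, ContinuousAt b x) (hΨ : ∀ x ∈ V, AnalyticAt ℂ Ψ ((x, 0), b x))
    (h0 : ∀ x ∈ V, Ψ ((x, 0), b x) = 0) (hd : ∀ x ∈ V, deriv (fun y => Ψ ((x, 0), y)) (b x) ≠ 0) :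
    ∃ g : ℂ × ℂ → ℂ, ∀ x ∈ V, AnalyticAt ℂ g (x, 0) ∧ g (x, 0) = b x ∧
      (∀ᶠ v in 𝓝 ((x, 0) : ℂ × ℂ), Ψ (v, g v) = 0) ∧
      ∀ᶠ v in 𝓝 (((x, 0), b x) : (ℂ × ℂ) × ℂ), Ψ v = 0 → g v.1 = v.2 := by
  have h1 : ∀ x ∈ V, ∃ φ : ℂ × ℂ → ℂ, AnalyticAt ℂ φ (x, 0) ∧ φ (x, 0) = b x ∧
      (∀ᶠ v in 𝓝 ((x, 0) : ℂ × ℂ), Ψ (v, φ v) = 0) ∧
      (∀ᶠ v in 𝓝 (((x, 0), b x) : (ℂ × ℂ) × ℂ), Ψ v = 0 → φ v.1 = v.2) := fun x hx =>
    H650.ift_scalar (hΨ x hx) (h0 x hx) (hd x hx)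
  choose! G hG using h1
  obtain ⟨g, hg⟩ := glue G (fun x hx => (hG x hx).1) (by
    intro x hx
    obtain ⟨e1, e2, e3, e4⟩ := hG x hx
    have c1 : ∀ᶠ y in 𝓝 x, G x (y, 0) = b y := by
      have hc : ContinuousAt (fun y : ℂ => (((y, 0), b y) : (ℂ × ℂ) × ℂ)) x := by
        have : ContinuousAt (fun y : ℂ => ((y, 0) : ℂ × ℂ)) x := by fun_prop
        exact this.prodMk (hb x hx)
      filter_upwards [hc.eventually e4, hV.mem_nhds hx] with y hy hyV
      exact hy (h0 y hyV)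
    have c2 : ∀ᶠ y in 𝓝 x, ∀ᶠ v in 𝓝 ((y, 0) : ℂ × ℂ), Ψ (v, G x v) = 0 := by
      have hc : ContinuousAt (fun y : ℂ => ((y, 0) : ℂ × ℂ)) x := by fun_prop
      exact hc.eventually e3.eventually_nhds
    have c3 : ∀ᶠ y in 𝓝 x, AnalyticAt ℂ (G x) (y, 0) := by
      have hc : ContinuousAt (fun y : ℂ => ((y, 0) : ℂ × ℂ)) x := by fun_prop
      exact hc.eventually e1.eventually_analyticAt
    filter_upwards [c1, c2, c3, hV.mem_nhds hx] with y d1 d2 d3 hy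
    obtain ⟨f1, f2, f3, f4⟩ := hG y hy
    have hc : Tendsto (fun v : ℂ × ℂ => ((v, G x v) : (ℂ × ℂ) × ℂ)) (𝓝 (y, 0))
        (𝓝 ((y, 0), b y)) := by
      have h2 : ContinuousAt (fun v : ℂ × ℂ => ((v, G x v) : (ℂ × ℂ) × ℂ)) (y, 0) :=
        continuousAt_id.prodMk d3.continuousAt
      have h3 := h2.tendsto
      simp only [d1] at h3
      exact h3
    filter_upwards [hc.eventually f4, d2] with v h4 h5
    exact h4 h5)
  refine ⟨g, fun x hx => ?_⟩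
  obtain ⟨e1, e2, e3, e4⟩ := hG x hx
  have hgx := hg x hx
  refine ⟨e1.congr hgx.symm, by rw [hgx.self_of_nhds, e2], ?_, ?_⟩
  · filter_upwards [hgx, e3] with v h2 h3
    rw [h2, h3]
  · have hc : Tendsto (fun v : (ℂ × ℂ) × ℂ => v.1) (𝓝 ((x, 0), b x)) (𝓝 (x, 0)) :=
      continuous_fst.tendsto _
    filter_upwards [e4, hc.eventually hgx] with v h2 h3 h4
    rw [h3, h2 h4]

theorem geoBd_open {u : ℕ → ℂ → ℂ} {z : ℂ} (h : GeoBd u z) : ∀ᶠ y in 𝓝 z, GeoBd u y := by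
  obtain ⟨C, B, r, hB, hr, hu⟩ := h
  filter_upwards [ball_mem_nhds z hr] with y hy
  refine ⟨C, B, r - dist y z, hB, sub_pos.2 hy, fun z' hz' k => hu z' ?_ k⟩
  rw [mem_ball] at hz' ⊢
  calc dist z' z ≤ dist z' y + dist y z := dist_triangle _ _ _
    _ < r := by linarith

/-- derivative of Taylor coefficients -/
theorem hasDerivAt_tc {F : ℂ × ℂ → ℂ} {z : ℂ} (hF : AnalyticAt ℂ F (z, 0)) {g : ℂ × ℂ → ℂ}
    (hg : ∀ᶠ v in 𝓝 ((z, 0) : ℂ × ℂ), deriv (fun θ => F (θ, v.2)) v.1 = g v) (k : ℕ) :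
    HasDerivAt (tc F k) (tc g k z) z := by
  have h1 : S10.DT F =ᶠ[𝓝 ((z, 0) : ℂ × ℂ)] g := by
    filter_upwards [hg, hF.eventually_analyticAt] with v hv hv'
    rw [← hv]
    exact (S10.hasDerivAt_t hv').deriv.symm
  have h2 := (S10.cf_DT hF k).self_of_nhds
  have h3 := (S10.cf_congr h1 k).self_of_nhds
  have h4 : HasDerivAt (S10.cf F k) (deriv (S10.cf F k) z) z :=
    (S10.cf_analyticAt hF k).differentiableAt.hasDerivAt
  rw [← h2, h3] at h4
  exact h4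

/-- primitive in the first variable along a convex set of the axis -/
theorem prim_param {V : Set ℂ} (hV : IsOpen V) (hc : Convex ℝ V) {g T : ℂ × ℂ → ℂ} {x₁ : ℂ}
    (hx₁ : x₁ ∈ V) (hg : ∀ x ∈ V, AnalyticAt ℂ g (x, 0)) (hT : AnalyticAt ℂ T (x₁, 0))
    (hdT : ∀ᶠ v in 𝓝 ((x₁, 0) : ℂ × ℂ), deriv (fun θ => T (θ, v.2)) v.1 = g v) :
    ∃ T' : ℂ × ℂ → ℂ, (∀ x ∈ V, AnalyticAt ℂ T' (x, 0) ∧
      ∀ᶠ v in 𝓝 ((x, 0) : ℂ × ℂ), deriv (fun θ => T' (θ, v.2)) v.1 = g v) ∧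
      T' =ᶠ[𝓝 ((x₁, 0) : ℂ × ℂ)] T := by
  have hgk : ∀ k, DifferentiableOn ℂ (tc g k) V := fun k x hx =>
    (analyticAt_tc (hg x hx) k).differentiableAt.differentiableWithinAt
  choose P hP using fun k => H202.prim_convex hV hc (hgk k)
  let t : ℕ → ℂ → ℂ := fun k z => P k z - P k x₁ + tc T k x₁
  have ht : ∀ k, ∀ z ∈ V, HasDerivAt (t k) (tc g k z) z := fun k z hz =>
    ((hP k z hz).sub_const _).add_const _
  have hta : ∀ k, ∀ z ∈ V, AnalyticAt ℂ (t k) z := fun k z hz =>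
    (DifferentiableOn.analyticAt (s := V)
      (fun y hy => (ht k y hy).differentiableAt.differentiableWithinAt) (hV.mem_nhds hz))
  -- near `x₁`
  have hbase : ∀ᶠ z in 𝓝 x₁, ∀ k, t k z = tc T k z := by
    have h1 : ∀ᶠ z in 𝓝 x₁, AnalyticAt ℂ T (z, 0) ∧
        (∀ᶠ v in 𝓝 ((z, 0) : ℂ × ℂ), deriv (fun θ => T (θ, v.2)) v.1 = g v) ∧ z ∈ V := by
      have hcc : ContinuousAt (fun y : ℂ => ((y, 0) : ℂ × ℂ)) x₁ := by fun_prop
      filter_upwards [hcc.eventually hT.eventually_analyticAt, hcc.eventually hdT.eventually_nhds,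
        hV.mem_nhds hx₁] with z a1 a2 a3
      exact ⟨a1, a2, a3⟩
    obtain ⟨r, hr, hb⟩ := Metric.eventually_nhds_iff_ball.1 h1
    filter_upwards [ball_mem_nhds x₁ hr] with z hz k
    have h2 : ∀ y ∈ ball x₁ r, HasDerivAt (fun y => t k y - tc T k y) 0 y := by
      intro y hy
      have h3 := (ht k y (hb y hy).2.2).sub (hasDerivAt_tc (hb y hy).1 (hb y hy).2.1 k)
      rwa [sub_self] at h3
    have h4 := (convex_ball x₁ r).norm_image_sub_le_of_norm_hasDerivWithin_le (C := 0)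
      (f := fun y => t k y - tc T k y) (f' := fun _ => 0)
      (fun y hy => (h2 y hy).hasDerivWithinAt) (fun y _ => by simp) (mem_ball_self hr) hz
    have h5 : t k x₁ - tc T k x₁ = 0 := by simp [t]
    rw [zero_mul, h5, sub_zero] at h4
    exact sub_eq_zero.1 (norm_le_zero_iff.1 h4)
  have hgeo₁ : GeoBd t x₁ := by
    obtain ⟨C, B, r, hB, hr, hu⟩ := geoBd_tc hT
    obtain ⟨s, hs, hb⟩ := Metric.eventually_nhds_iff_ball.1 hbase
    refine ⟨C, B, min r s, hB, lt_min hr hs, fun z hz k => ?_⟩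
    rw [hb z (ball_subset_ball (min_le_right _ _) hz) k]
    exact hu z (ball_subset_ball (min_le_left _ _) hz) k
  -- geometric bounds everywhere
  have hgeo : ∀ x ∈ V, GeoBd t x := by
    have hopen : IsOpen {x | x ∈ V ∧ GeoBd t x} := by
      rw [isOpen_iff_mem_nhds]
      rintro x ⟨hx, hx'⟩
      filter_upwards [hV.mem_nhds hx, geoBd_open hx'] with y h1 h2
      exact ⟨h1, h2⟩
    have hsub := (hc.isPreconnected).subset_of_closure_inter_subset (u := {x | x ∈ V ∧ GeoBd t x})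
      hopen ⟨x₁, hx₁, hx₁, hgeo₁⟩ (by
        rintro x ⟨hxc, hx⟩
        refine ⟨hx, ?_⟩
        obtain ⟨C, B, r, hB, hr, hu⟩ := geoBd_tc (hg x hx)
        obtain ⟨s, hs, hsV⟩ := Metric.isOpen_iff.1 hV x hx
        set ρ := min r s with hρ
        have hρ0 : 0 < ρ := lt_min hr hs
        obtain ⟨y, ⟨hyV, hyG⟩, hyx⟩ := Metric.mem_closure_iff.1 hxc ρ hρ0
        obtain ⟨C1, B1, r1, hB1, hr1, hu1⟩ := hyG
        have hy' : y ∈ ball x ρ := by rwa [mem_ball, dist_comm]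
        have hC : 0 ≤ C := by
          have := (norm_nonneg _).trans (hu x (mem_ball_self hr) 0)
          simpa using this
        have hC1 : 0 ≤ C1 := by
          have := (norm_nonneg _).trans (hu1 y (mem_ball_self hr1) 0)
          simpa using this
        refine ⟨C1 + C * (2 * ρ), max B B1, ρ, lt_max_of_lt_left hB, hρ0, fun z hz k => ?_⟩
        have h4 := (convex_ball x ρ).norm_image_sub_le_of_norm_hasDerivWithin_le (C := C * B ^ k)
          (f := t k) (f' := tc g k)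
          (fun y hy => (ht k y (hsV (ball_subset_ball (min_le_right _ _) hy))).hasDerivWithinAt)
          (fun y hy => hu y (ball_subset_ball (min_le_left _ _) hy) k) hy' hz
        have h5 : ‖z - y‖ ≤ 2 * ρ := by
          rw [← dist_eq_norm]
          have a1 : dist z x < ρ := hz
          have a2 : dist x y < ρ := hyx
          linarith [dist_triangle z x y]
        have h6 : ‖t k z‖ ≤ ‖t k y‖ + ‖t k z - t k y‖ := by
          have := norm_add_le (t k y) (t k z - t k y)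
          rwa [add_sub_cancel] at this
        have hM : 0 < max B B1 := lt_max_of_lt_left hB
        have b1 : B ^ k ≤ (max B B1) ^ k := pow_le_pow_left₀ hB.le (le_max_left _ _) k
        have b2 : B1 ^ k ≤ (max B B1) ^ k := pow_le_pow_left₀ hB1.le (le_max_right _ _) k
        calc ‖t k z‖ ≤ ‖t k y‖ + ‖t k z - t k y‖ := h6
          _ ≤ C1 * B1 ^ k + C * B ^ k * ‖z - y‖ := add_le_add (hu1 y (mem_ball_self hr1) k) h4
          _ ≤ C1 * (max B B1) ^ k + C * (max B B1) ^ k * (2 * ρ) := by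
              gcongr
          _ = (C1 + C * (2 * ρ)) * max B B1 ^ k := by ring)
    exact fun x hx => (hsub hx).2
  have hhol : ∀ x ∈ V, ∀ᶠ z in 𝓝 x, ∀ k, AnalyticAt ℂ (t k) z := fun x hx => by
    filter_upwards [hV.mem_nhds hx] with z hz k
    exact hta k z hz
  have hSa : ∀ x ∈ V, AnalyticAt ℂ (Sm t) (x, 0) := fun x hx => analyticAt_Sm (hhol x hx) (hgeo x hx)
  refine ⟨Sm t, fun x hx => ⟨hSa x hx, ?_⟩, ?_⟩
  · have hD : AnalyticAt ℂ (S10.DT (Sm t)) (x, 0) := S10.analyticAt_DT (hSa x hx)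
    have h1 := Sm_tc hD
    have h2 := Sm_tc (hg x hx)
    have h3 : ∀ᶠ z in 𝓝 x, ∀ k, tc (S10.DT (Sm t)) k z = tc g k z := by
      have h4 : ∀ᶠ z in 𝓝 x, ∀ k, tc (Sm t) k z = t k z := tc_Sm_of_geoBd (hgeo x hx)
      filter_upwards [h4.eventually_nhds, hV.mem_nhds hx] with z hz hzV k
      have h5 : deriv (S10.cf (Sm t) k) z = tc g k z := by
        have h6 : S10.cf (Sm t) k =ᶠ[𝓝 z] t k := by
          filter_upwards [hz] with y hy
          exact hy k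
        rw [h6.deriv_eq]
        exact (ht k z hzV).deriv
      rw [← h5]
      exact (S10.cf_DT (hSa z hzV) k).self_of_nhds
    have h7 : ∀ᶠ p in 𝓝 ((x, 0) : ℂ × ℂ), ∀ k, tc (S10.DT (Sm t)) k p.1 = tc g k p.1 :=
      (continuous_fst.tendsto ((x, 0) : ℂ × ℂ)).eventually h3
    filter_upwards [h1, h2, h7, (hSa x hx).eventually_analyticAt] with p a1 a2 a3 a4
    rw [(S10.hasDerivAt_t a4).deriv, ← a1, ← a2]
    simp only [Sm]
    exact tsum_congr fun k => by rw [a3 k]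
  · have h1 := Sm_tc hT
    have h7 : ∀ᶠ p in 𝓝 ((x₁, 0) : ℂ × ℂ), ∀ k, t k p.1 = tc T k p.1 :=
      (continuous_fst.tendsto ((x₁, 0) : ℂ × ℂ)).eventually hbase
    filter_upwards [h1, h7] with p a1 a2
    rw [← a1]
    simp only [Sm]
    exact tsum_congr fun k => by rw [a2 k]

end Vale.Agent.P097.H435.RC
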