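import Vale.Agent.P097.H435.Lam
import Vale.Agent.P097.H650.NewtonCore

/-!
# Power series realised by analytic functions: the calculus

`Re j Λ t0 x F`: `F` is analytic at `(t0, 0)` and its Taylor series in the second variable is the
image of `x ∈ κ⟦X⟧` under `Λ`.
-/

open Filter Topology PowerSeries

namespace Vale.Agent.P097.H435.S10

open Vale.Agent.P097.H82

variable {κ : Type*} [Field κ] {d : κ → κ} {E : Type} [Field E] {j : ℂ⟦X⟧ →+* E} {D : E → E}
  {Λ : κ →+* E} {t0 : ℂ} {F G : ℂ × ℂ → ℂ} {x y : κ⟦X⟧}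

structure Emb (d : κ → κ) (j : ℂ⟦X⟧ →+* E) (D : E → E) (Λ : κ →+* E) : Prop where
  inj : Function.Injective j
  der : IsDer (RingHom.id E) D
  dj : ∀ x, D (j x) = j (PowerSeries.derivative ℂ x)
  dL : ∀ x, Λ (d x) = D (Λ x)

/-- Taylor series in the second variable, with coefficients in `E` -/
noncomputable def TT (j : ℂ⟦X⟧ →+* E) (t0 : ℂ) (F : ℂ × ℂ → ℂ) : E⟦X⟧ :=
  PowerSeries.mk fun l => j (T1 (cf F l) t0)

theorem coeff_TT (l : ℕ) : coeff l (TT j t0 F) = j (T1 (cf F l) t0) := by simp [TT]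

theorem T1_sum_mul {ι : Type*} (s : Finset ι) {f g : ι → ℂ → ℂ} {t : ℂ}
    (hf : ∀ i, AnalyticAt ℂ (f i) t) (hg : ∀ i, AnalyticAt ℂ (g i) t) :
    T1 (fun x => ∑ i ∈ s, f i x * g i x) t = ∑ i ∈ s, T1 (f i) t * T1 (g i) t := by
  let a : ι → AnR t := fun i => ⟨f i, hf i⟩
  let b : ι → AnR t := fun i => ⟨g i, hg i⟩
  have h1 : T1h t (∑ i ∈ s, a i * b i) = ∑ i ∈ s, T1 (f i) t * T1 (g i) t := by
    rw [map_sum]
    refine Finset.sum_congr rfl fun i _ => ?_
    rw [map_mul]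
    rfl
  rw [← h1]
  show T1 _ t = T1 _ t
  refine T1_congr (Filter.Eventually.of_forall fun x => ?_)
  simp only [AddSubmonoidClass.coe_finsetSum, Finset.sum_apply]
  rfl

theorem TT_congr (h : F =ᶠ[𝓝 (t0, (0 : ℂ))] G) : TT j t0 F = TT j t0 G := by
  ext l
  rw [coeff_TT, coeff_TT, T1_congr (cf_congr h l)]

theorem TT_mul (hF : AnalyticAt ℂ F (t0, 0)) (hG : AnalyticAt ℂ G (t0, 0)) :
    TT j t0 (fun u => F u * G u) = TT j t0 F * TT j t0 G := by
  ext l
  rw [coeff_mul, coeff_TT]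
  have h1 : cf (fun u => F u * G u) l =ᶠ[𝓝 t0]
      fun x => ∑ p ∈ Finset.HasAntidiagonal.antidiagonal l, cf F p.1 x * cf G p.2 x := by
    filter_upwards [eventually_t hF.eventually_analyticAt,
      eventually_t hG.eventually_analyticAt] with x h2 h3
    exact cf_mul h2 h3 l
  rw [T1_congr h1, T1_sum_mul (f := fun p : ℕ × ℕ => cf F p.1) (g := fun p : ℕ × ℕ => cf G p.2) _
    (fun p => cf_analyticAt hF p.1) (fun p => cf_analyticAt hG p.2), map_sum]
  refine Finset.sum_congr rfl fun p _ => ?_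
  rw [map_mul, coeff_TT, coeff_TT]

theorem TT_add (hF : AnalyticAt ℂ F (t0, 0)) (hG : AnalyticAt ℂ G (t0, 0)) :
    TT j t0 (fun u => F u + G u) = TT j t0 F + TT j t0 G := by
  ext l
  rw [map_add, coeff_TT, coeff_TT, coeff_TT]
  have h1 : cf (fun u => F u + G u) l =ᶠ[𝓝 t0] fun x => cf F l x + cf G l x := by
    filter_upwards [eventually_t hF.eventually_analyticAt,
      eventually_t hG.eventually_analyticAt] with x h2 h3
    exact cf_add h2 h3 l
  rw [T1_congr h1, T1_add (cf_analyticAt hF l) (cf_analyticAt hG l), map_add]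

theorem TT_neg : TT j t0 (fun u => - F u) = - TT j t0 F := by
  ext l
  rw [map_neg, coeff_TT, coeff_TT]
  have h1 : cf (fun u => - F u) l =ᶠ[𝓝 t0] fun x => - cf F l x :=
    Filter.Eventually.of_forall fun x => cf_neg F x l
  rw [T1_congr h1, T1_neg, map_neg]

theorem T1_zero {t : ℂ} : T1 (fun _ => 0) t = 0 := by
  have := T1_const (t := t) 0
  rwa [map_zero] at this

/-- functions of `t` -/
theorem TT_fst (g : ℂ → ℂ) : TT j t0 (fun u => g u.1) = C (j (T1 g t0)) := by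
  ext l
  rw [coeff_TT, coeff_C]
  have h1 : cf (fun u : ℂ × ℂ => g u.1) l = fun x => if l = 0 then g x else 0 := by
    funext x
    exact cf_fst g l x
  rw [h1]
  split_ifs with h0
  · rfl
  · rw [T1_zero, map_zero]

theorem TT_one : TT j t0 (fun _ => 1) = 1 := by
  have := TT_fst (j := j) (t0 := t0) (fun _ => 1)
  rw [this, T1_const, map_one, map_one, map_one]

theorem cf_snd (l : ℕ) (x : ℂ) : cf (fun u : ℂ × ℂ => u.2) l x = if l = 1 then 1 else 0 := by
  simp only [cf]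
  rcases l with _ | _ | l
  · simp
  · simp [iteratedDeriv_succ]
  · rw [iteratedDeriv_succ', iteratedDeriv_succ']
    simp

theorem TT_snd : TT j t0 (fun u => u.2) = X := by
  ext l
  rw [coeff_TT, coeff_X]
  have h1 : cf (fun u : ℂ × ℂ => u.2) l = fun _ => if l = 1 then 1 else 0 := by
    funext x
    exact cf_snd l x
  rw [h1]
  split_ifs with h0
  · rw [T1_const, map_one, map_one]
  · rw [T1_zero, map_zero]

theorem TT_DS (hF : AnalyticAt ℂ F (t0, 0)) : TT j t0 (DS F) = derivative E (TT j t0 F) := by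
  ext l
  rw [coeff_derivative, coeff_TT, coeff_TT]
  have h1 : cf (DS F) l =ᶠ[𝓝 t0] fun x => ((l : ℂ) + 1) * cf F (l + 1) x := by
    filter_upwards [eventually_t hF.eventually_analyticAt] with x h2
    exact cf_DS F h2 l
  rw [T1_congr h1, T1_mul analyticAt_const (cf_analyticAt hF _), T1_const, map_mul, mul_comm]
  congr 1
  have h2 : (PowerSeries.C ((l : ℂ) + 1)) = ((l + 1 : ℕ) : ℂ⟦X⟧) := by
    rw [← map_natCast (PowerSeries.C (R := ℂ)) (l + 1)]
    push_cast
    rfl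
  rw [h2, map_natCast]
  push_cast
  rfl

theorem TT_DT (M : Emb d j D Λ) (hF : AnalyticAt ℂ F (t0, 0)) :
    TT j t0 (DT F) = ct D (TT j t0 F) := by
  ext l
  rw [coeff_ct, coeff_TT, coeff_TT, T1_congr (cf_DT hF l), T1_deriv, M.dj]

theorem TT_inj (hj : Function.Injective j) (hF : AnalyticAt ℂ F (t0, 0)) (h : TT j t0 F = 0) :
    ∀ᶠ u in 𝓝 (t0, (0 : ℂ)), F u = 0 := by
  refine eq_zero_of_cf hF fun l => ?_
  have h1 := congrArg (coeff l) h
  rw [coeff_TT, map_zero] at h1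
  have h2 : T1 (cf F l) t0 = 0 := hj (by rw [h1, map_zero])
  exact T1_inj (cf_analyticAt hF l) h2

theorem TT_zero : TT j t0 (fun _ => 0) = 0 := by
  have := TT_fst (j := j) (t0 := t0) (fun _ => 0)
  rw [this, T1_zero, map_zero, map_zero]

/-! ### realised series -/

/-- `x` is realised by the analytic function `F` -/
def Re (j : ℂ⟦X⟧ →+* E) (Λ : κ →+* E) (t0 : ℂ) (x : κ⟦X⟧) (F : ℂ × ℂ → ℂ) : Prop :=
  AnalyticAt ℂ F (t0, 0) ∧ PowerSeries.map Λ x = TT j t0 F

namespace Re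

theorem congr (h : Re j Λ t0 x F) (he : F =ᶠ[𝓝 (t0, (0 : ℂ))] G) : Re j Λ t0 x G :=
  ⟨h.1.congr he, by rw [h.2, TT_congr he]⟩

theorem add (h : Re j Λ t0 x F) (h' : Re j Λ t0 y G) : Re j Λ t0 (x + y) (fun u => F u + G u) :=
  ⟨h.1.add h'.1, by rw [map_add, h.2, h'.2, TT_add h.1 h'.1]⟩

theorem mul (h : Re j Λ t0 x F) (h' : Re j Λ t0 y G) : Re j Λ t0 (x * y) (fun u => F u * G u) :=
  ⟨h.1.mul h'.1, by rw [map_mul, h.2, h'.2, TT_mul h.1 h'.1]⟩

theorem neg (h : Re j Λ t0 x F) : Re j Λ t0 (-x) (fun u => - F u) :=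
  ⟨h.1.neg, by rw [map_neg, h.2, TT_neg]⟩

theorem sub (h : Re j Λ t0 x F) (h' : Re j Λ t0 y G) : Re j Λ t0 (x - y) (fun u => F u - G u) := by
  simp only [sub_eq_add_neg]
  exact h.add h'.neg

theorem zero : Re j Λ t0 (0 : κ⟦X⟧) (fun _ => 0) :=
  ⟨analyticAt_const, by rw [map_zero, TT_zero]⟩

theorem one : Re j Λ t0 (1 : κ⟦X⟧) (fun _ => 1) :=
  ⟨analyticAt_const, by rw [map_one, TT_one]⟩

theorem pow (h : Re j Λ t0 x F) (n : ℕ) : Re j Λ t0 (x ^ n) (fun u => F u ^ n) := by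
  induction n with
  | zero => simpa using one
  | succ n ih =>
    simp only [pow_succ]
    exact ih.mul h

theorem natCast (n : ℕ) : Re j Λ t0 (n : κ⟦X⟧) (fun _ => n) := by
  induction n with
  | zero => simpa using zero
  | succ n ih =>
    push_cast
    exact ih.add one

theorem sum {ι : Type*} (s : Finset ι) {x : ι → κ⟦X⟧} {F : ι → ℂ × ℂ → ℂ}
    (h : ∀ i ∈ s, Re j Λ t0 (x i) (F i)) : Re j Λ t0 (∑ i ∈ s, x i) (fun u => ∑ i ∈ s, F i u) := by
  classical
  induction s using Finset.induction_on with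
  | empty => simpa using zero
  | insert a s ha ih =>
    simp only [Finset.sum_insert ha]
    exact (h a (Finset.mem_insert_self _ _)).add
      (ih fun i hi => h i (Finset.mem_insert_of_mem hi))

theorem X : Re j Λ t0 (PowerSeries.X : κ⟦X⟧) (fun u => u.2) :=
  ⟨analyticAt_snd, by rw [map_X, TT_snd]⟩

theorem const {g : ℂ → ℂ} {c : κ} (hg : AnalyticAt ℂ g t0) (h : j (T1 g t0) = Λ c) :
    Re j Λ t0 (PowerSeries.C c) (fun u => g u.1) :=
  ⟨AnalyticAt.comp (g := g) (f := fun v : ℂ × ℂ => v.1) hg analyticAt_fst,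
    by rw [map_C, TT_fst, h]⟩

theorem ds (h : Re j Λ t0 x F) : Re j Λ t0 (derivative κ x) (DS F) := by
  refine ⟨analyticAt_DS h.1, ?_⟩
  rw [TT_DS h.1, ← h.2]
  ext l
  simp only [coeff_map, coeff_derivative, map_mul, map_add, map_natCast, map_one]

theorem dt (M : Emb d j D Λ) (h : Re j Λ t0 x F) : Re j Λ t0 (ct d x) (DT F) := by
  refine ⟨analyticAt_DT h.1, ?_⟩
  rw [TT_DT M h.1, ← h.2]
  ext l
  rw [coeff_map, coeff_ct, coeff_ct, coeff_map, M.dL]

theorem map_inj {a b : κ⟦X⟧} (h : PowerSeries.map Λ a = PowerSeries.map Λ b) : a = b := by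
  ext l
  have h1 := congrArg (coeff l) h
  rw [coeff_map, coeff_map] at h1
  exact Λ.injective h1

theorem eq_iff (hj : Function.Injective j) (h : Re j Λ t0 x F) (h' : Re j Λ t0 y G) :
    x = y ↔ F =ᶠ[𝓝 (t0, (0 : ℂ))] G := by
  constructor
  · intro he
    have h1 := h.sub h'
    rw [he, sub_self] at h1
    have h2 := TT_inj hj h1.1 (by rw [← h1.2, map_zero])
    filter_upwards [h2] with u hu
    exact sub_eq_zero.1 hu
  · intro he
    refine map_inj (Λ := Λ) ?_
    rw [h.2, h'.2, TT_congr he]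

theorem coeff_eq (h : Re j Λ t0 x F) (l : ℕ) : Λ (coeff l x) = j (T1 (cf F l) t0) := by
  have h1 := congrArg (coeff l) h.2
  rwa [coeff_map, coeff_TT] at h1

theorem cc_eq (h : Re j Λ t0 x F) : Λ (constantCoeff x) = j (T1 (fun t => F (t, 0)) t0) := by
  have h1 := h.coeff_eq 0
  have h2 : cf F 0 = fun t => F (t, 0) := by
    funext t
    exact cf_zero F t
  rwa [h2, coeff_zero_eq_constantCoeff_apply] at h1

theorem cc_iff (hj : Function.Injective j) (h : Re j Λ t0 x F) :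
    constantCoeff x = 0 ↔ ∀ᶠ t in 𝓝 t0, F (t, 0) = 0 := by
  have h1 := h.cc_eq
  constructor
  · intro h0
    rw [h0, map_zero] at h1
    exact T1_inj (analyticAt_t h.1) (hj (by rw [← h1, map_zero]))
  · intro h0
    have h2 : T1 (fun t => F (t, 0)) t0 = 0 := by
      rw [T1_congr (g := fun _ => 0) h0, T1_zero]
    rw [h2, map_zero] at h1
    exact Λ.injective (by rw [h1, map_zero])

theorem val_eq (hj : Function.Injective j) {g : ℂ → ℂ} (hg : j (T1 g t0) = Λ (constantCoeff x))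
    (h : Re j Λ t0 x F) : F (t0, 0) = g t0 := by
  have h1 := h.cc_eq
  rw [← hg] at h1
  have h2 := congrArg constantCoeff (hj h1)
  rw [constantCoeff_T1, constantCoeff_T1] at h2
  exact h2.symm

theorem inv (hj : Function.Injective j) (h : Re j Λ t0 x F) (h0 : F (t0, 0) ≠ 0) :
    Re j Λ t0 x⁻¹ (fun u => (F u)⁻¹) := by
  have ha : AnalyticAt ℂ (fun u => (F u)⁻¹) (t0, 0) := h.1.inv h0
  refine ⟨ha, ?_⟩
  have hc : constantCoeff x ≠ 0 := by
    intro hc
    exact h0 ((h.cc_iff hj).1 hc).self_of_nhds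
  have h1 : PowerSeries.map Λ x * PowerSeries.map Λ x⁻¹ = 1 := by
    rw [← map_mul, PowerSeries.mul_inv_cancel x hc, map_one]
  have h2 : TT j t0 F * TT j t0 (fun u => (F u)⁻¹) = 1 := by
    rw [← TT_mul h.1 ha, ← TT_one (j := j) (t0 := t0)]
    refine TT_congr ?_
    filter_upwards [h.1.continuousAt.eventually_ne h0] with u hu
    exact mul_inv_cancel₀ hu
  rw [h.2] at h1
  have h3 : TT j t0 F ≠ 0 := left_ne_zero_of_mul (by rw [h2]; exact one_ne_zero)
  exact mul_left_cancel₀ h3 (h1.trans h2.symm)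

theorem cf_zero_of_dvd (hj : Function.Injective j) {m : ℕ}
    (h : Re j Λ t0 (PowerSeries.X ^ m * x) F) : ∀ l < m, ∀ᶠ t in 𝓝 t0, cf F l t = 0 := by
  intro l hl
  have h1 := h.coeff_eq l
  rw [coeff_X_pow_mul', if_neg (by omega), map_zero] at h1
  exact T1_inj (cf_analyticAt h.1 l) (hj (by rw [← h1, map_zero]))

/-- division by a power of `s` -/
theorem divX (hj : Function.Injective j) {m : ℕ} (h : Re j Λ t0 (PowerSeries.X ^ m * x) F) :
    ∃ G, Re j Λ t0 x G ∧ ∀ᶠ u in 𝓝 (t0, (0 : ℂ)), F u = u.2 ^ m * G u := by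
  obtain ⟨G, hG, hG1⟩ := exists_div_pow m h.1 (h.cf_zero_of_dvd hj)
  refine ⟨G, ⟨hG, ?_⟩, hG1⟩
  have hX : TT j t0 (fun u => u.2 ^ m) = PowerSeries.X ^ m := by
    have := (X (κ := κ) (j := j) (Λ := Λ) (t0 := t0)).pow m
    rw [← this.2, map_pow, map_X]
  have h2 : TT j t0 F = PowerSeries.X ^ m * TT j t0 G := by
    rw [← hX, ← TT_mul (F := fun u => u.2 ^ m) (analyticAt_snd.pow m) hG]
    exact TT_congr hG1
  have h3 := h.2
  rw [map_mul, map_pow, map_X, h2] at h3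
  exact mul_left_cancel₀ (pow_ne_zero m X_ne_zero) h3

end Re

end Vale.Agent.P097.H435.S10
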