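import Vale.Agent.P097.H435.Newton

/-!
# From formal to analytic at a generic point

`O` : a domain of functions of one variable with a derivation `dO`, `K` its field of fractions, `κ`
an algebraic extension of `K` with the derivation `d`.  `A` : a ring of functions of two variables,
`τ : A → O⟦X⟧` the Taylor series in the second variable.  Finitely many power series `x i ∈ κ⟦X⟧`,
algebraic over `A`, are the Taylor series in the second variable of functions analytic at `(t0, 0)`,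
for every `t0` outside the zeros of one element `bad ≠ 0` of `O`.  The relation `R x F` (`F` is
analytic at `(t0, 0)` with Taylor series `x`) is compatible with all operations.
-/

open Filter Topology PowerSeries

namespace Vale.Agent.P097.H435.S10

open Vale.Agent.P097.H82

/-- the calculus of realised power series -/
structure Calc {κ : Type*} [Field κ] (d : κ → κ) (t0 : ℂ) {A : Type*} [CommRing A]
    (θ : A →+* κ⟦X⟧) (ev : A → ℂ × ℂ → ℂ) (R : κ⟦X⟧ → (ℂ × ℂ → ℂ) → Prop) : Prop where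
  an : ∀ {x F}, R x F → AnalyticAt ℂ F (t0, 0)
  congr : ∀ {x F G}, R x F → F =ᶠ[𝓝 (t0, (0 : ℂ))] G → R x G
  zero : R 0 (fun _ => 0)
  one : R 1 (fun _ => 1)
  natCast : ∀ n : ℕ, R (n : κ⟦X⟧) (fun _ => n)
  add : ∀ {x y F G}, R x F → R y G → R (x + y) (fun u => F u + G u)
  sub : ∀ {x y F G}, R x F → R y G → R (x - y) (fun u => F u - G u)
  mul : ∀ {x y F G}, R x F → R y G → R (x * y) (fun u => F u * G u)
  neg : ∀ {x F}, R x F → R (-x) (fun u => - F u)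
  pow : ∀ {x F}, R x F → ∀ n : ℕ, R (x ^ n) (fun u => F u ^ n)
  sum : ∀ {ι : Type} (s : Finset ι) {x : ι → κ⟦X⟧} {F : ι → ℂ × ℂ → ℂ},
    (∀ i ∈ s, R (x i) (F i)) → R (∑ i ∈ s, x i) (fun u => ∑ i ∈ s, F i u)
  inv : ∀ {x F}, R x F → F (t0, 0) ≠ 0 → R x⁻¹ (fun u => (F u)⁻¹)
  dt : ∀ {x F}, R x F → R (ct d x) (fun u => fderiv ℂ F u (1, 0))
  ds : ∀ {x F}, R x F → R (derivative κ x) (fun u => fderiv ℂ F u (0, 1))
  X : R PowerSeries.X (fun u => u.2)
  coe : ∀ a, R (θ a) (ev a)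
  eq_iff : ∀ {x y F G}, R x F → R y G → (x = y ↔ F =ᶠ[𝓝 (t0, (0 : ℂ))] G)
  cc_iff : ∀ {x F}, R x F → (constantCoeff x = 0 ↔ ∀ᶠ t in 𝓝 t0, F (t, 0) = 0)
  divX : ∀ {x F} {m : ℕ}, R (PowerSeries.X ^ m * x) F →
    ∃ G, R x G ∧ ∀ᶠ u in 𝓝 (t0, (0 : ℂ)), F u = u.2 ^ m * G u

section

variable {O K κ : Type*} [CommRing O] [IsDomain O] [Field K] [Algebra O K] [IsFractionRing O K]
  [Field κ] [Algebra K κ] [CharZero K] [Algebra.IsAlgebraic K κ]

omit [IsDomain O] [IsFractionRing O K] [CharZero K] [Algebra.IsAlgebraic K κ] in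
theorem calc_of {d : κ → κ} {t0 : ℂ} {evO : O → ℂ → ℂ} {A : Type*} [CommRing A]
    {τ : A →+* O⟦X⟧} {ev : A → ℂ × ℂ → ℂ} {E : Type} [Field E] {j : ℂ⟦X⟧ →+* E} {D : E → E}
    {Λ : κ →+* E} (M : Emb d j D Λ) (hΛ : ∀ f : O, Λ (io O K κ f) = j (T1 (evO f) t0))
    (ha : ∀ a, AnalyticAt ℂ (ev a) (t0, 0))
    (hc : ∀ a l, cf (ev a) l =ᶠ[𝓝 t0] evO (coeff l (τ a))) :
    Calc d t0 ((PowerSeries.map (io O K κ)).comp τ) ev (Re j Λ t0) where
  an h := h.1
  congr h h' := h.congr h'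
  zero := Re.zero
  one := Re.one
  natCast := Re.natCast
  add h h' := h.add h'
  sub h h' := h.sub h'
  mul h h' := h.mul h'
  neg h := h.neg
  pow h n := h.pow n
  sum s _ _ h := Re.sum s h
  inv h h0 := h.inv M.inj h0
  dt h := h.dt M
  ds h := h.ds
  X := Re.X
  coe a := by
    refine ⟨ha a, ?_⟩
    ext l
    rw [coeff_TT, T1_congr (hc a l), ← hΛ]
    simp
  eq_iff h h' := h.eq_iff M.inj h'
  cc_iff h := h.cc_iff M.inj
  divX h := h.divX M.inj

/-- finitely many elements of `κ` -/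
theorem exists_bad_finset (S : Finset κ) : ∃ bad : O, bad ≠ 0 ∧
    ∀ (t0 : ℂ) (evO : O → ℂ → ℂ) (_ : Pt O t0 evO)
      {E : Type} [Field E] {j : PowerSeries ℂ →+* E} (_ : Function.Injective j) {Λ : κ →+* E}
      (_ : ∀ f : O, Λ (io O K κ f) = j (T1 (evO f) t0)), evO bad t0 ≠ 0 →
      ∀ x ∈ S, Cn j Λ t0 x := by
  classical
  induction S using Finset.induction_on with
  | empty => exact ⟨1, one_ne_zero, fun _ _ _ _ _ _ _ _ _ _ x hx => absurd hx (Finset.notMem_empty x)⟩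
  | insert a s _ ih =>
    obtain ⟨b, hb, hb'⟩ := ih
    obtain ⟨c, hc, hc'⟩ := exists_bad (O := O) (K := K) a
    refine ⟨b * c, mul_ne_zero hb hc, ?_⟩
    intro t0 evO h E _ j hj Λ hΛ h0 x hx
    rw [← h.val_apply, map_mul, h.val_apply, h.val_apply] at h0
    rcases Finset.mem_insert.1 hx with h1 | h1
    · rw [h1]
      exact hc' t0 evO h hj hΛ (right_ne_zero_of_mul h0)
    · exact hb' t0 evO h hj hΛ (left_ne_zero_of_mul h0) x h1

/-- the target field -/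
abbrev EE : Type := AlgebraicClosure (FractionRing ℂ⟦X⟧)

/-- Taylor series in the target field -/
noncomputable def jE : ℂ⟦X⟧ →+* EE :=
  (algebraMap (FractionRing ℂ⟦X⟧) EE).comp (algebraMap ℂ⟦X⟧ (FractionRing ℂ⟦X⟧))

theorem jE_inj : Function.Injective jE :=
  (algebraMap (FractionRing ℂ⟦X⟧) EE).injective.comp (IsFractionRing.injective _ _)

theorem exists_DE : ∃ D : EE → EE, IsDer (RingHom.id EE) D ∧
    ∀ x, D (jE x) = jE (derivative ℂ x) := by
  have h1 : IsDer ((RingHom.id ℂ⟦X⟧)) (fun f : ℂ⟦X⟧ => derivative ℂ f) := ds_isDer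
  have h2 := h1.comp_left jE
  rw [RingHom.comp_id] at h2
  have hz : CharZero (FractionRing ℂ⟦X⟧) := by
    have h3 := torsionFree (κ := ℂ)
    refine ⟨fun a b h => ?_⟩
    have h4 : algebraMap ℂ⟦X⟧ (FractionRing ℂ⟦X⟧) (a : ℂ⟦X⟧) =
        algebraMap ℂ⟦X⟧ (FractionRing ℂ⟦X⟧) (b : ℂ⟦X⟧) := by
      rw [map_natCast, map_natCast]; exact h
    have h5 := IsFractionRing.injective ℂ⟦X⟧ (FractionRing ℂ⟦X⟧) h4
    have h6 := congrArg (constantCoeff (R := ℂ)) h5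
    rw [map_natCast, map_natCast] at h6
    exact_mod_cast h6
  obtain ⟨D1, hD1, hD1'⟩ := IsDer.exists_frac (A := ℂ⟦X⟧) (K := FractionRing ℂ⟦X⟧)
    (algebraMap (FractionRing ℂ⟦X⟧) EE) (D := fun f => jE (derivative ℂ f)) h2
  have h3 : IsDer ((RingHom.id EE).comp (algebraMap (FractionRing ℂ⟦X⟧) EE)) D1 := by
    rw [RingHom.id_comp]; exact hD1
  obtain ⟨D2, hD2, hD2'⟩ := IsDer.exists_algebraic (RingHom.id EE) h3
  exact ⟨D2, hD2, fun x => (hD2' _).trans (hD1' x)⟩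

/-- **S10.** -/
theorem s10 {dO : O → O} {d : κ → κ} (hd : IsDer (RingHom.id κ) d)
    (hdO : ∀ f, d (io O K κ f) = io O K κ (dO f)) {A : Type*} [CommRing A] (τ : A →+* O⟦X⟧)
    {ι ι' : Type*} [Finite ι] [Finite ι'] (x : ι → κ⟦X⟧) (c : ι' → κ)
    (hx : ∀ i, ∃ P : Polynomial A, P.map ((PowerSeries.map (io O K κ)).comp τ) ≠ 0 ∧
      P.eval₂ ((PowerSeries.map (io O K κ)).comp τ) (x i) = 0) :
    ∃ bad : O, bad ≠ 0 ∧ ∀ (t0 : ℂ) (evO : O → ℂ → ℂ) (ev : A → ℂ × ℂ → ℂ), Pt O t0 evO →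
      (∀ f, evO (dO f) =ᶠ[𝓝 t0] deriv (evO f)) → (∀ a, AnalyticAt ℂ (ev a) (t0, 0)) →
      (∀ a l, cf (ev a) l =ᶠ[𝓝 t0] evO (coeff l (τ a))) → evO bad t0 ≠ 0 →
      ∃ R : κ⟦X⟧ → (ℂ × ℂ → ℂ) → Prop, Calc d t0 ((PowerSeries.map (io O K κ)).comp τ) ev R ∧
        (∀ f : O, R (C (io O K κ f)) (fun u => evO f u.1)) ∧
        (∀ i, ∃ F, R (x i) F ∧ (constantCoeff (x i) ≠ 0 → F (t0, 0) ≠ 0)) ∧
        (∀ i, ∃ g : ℂ → ℂ, AnalyticAt ℂ g t0 ∧ R (C (c i)) (fun u => g u.1) ∧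
          (c i ≠ 0 → g t0 ≠ 0)) := by
  classical
  have hz : CharZero κ := charZero_of_injective_algebraMap (algebraMap K κ).injective
  cases nonempty_fintype ι
  cases nonempty_fintype ι'
  set θ := (PowerSeries.map (io O K κ)).comp τ with hθ
  choose P hP0 hP1 using fun i => exists_sep (hx i)
  set L : ι → ℕ := fun i => ((Polynomial.derivative ((P i).map θ)).eval (x i)).order.toNat with hL
  set u : ι → κ⟦X⟧ := fun i => ((Polynomial.derivative ((P i).map θ)).eval (x i)).divXPowOrder with hu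
  have hLu : ∀ i, (Polynomial.derivative ((P i).map θ)).eval (x i) =
      PowerSeries.X ^ (L i) * u i := fun i => X_pow_order_mul_divXPowOrder.symm
  have hu0 : ∀ i, constantCoeff (u i) ≠ 0 := fun i h =>
    hP1 i (constantCoeff_divXPowOrder_eq_zero_iff.1 h)
  set S : Finset κ := (Finset.univ.biUnion fun i => insert (constantCoeff (u i))
    ((Finset.range (L i + 1)).image fun l => coeff l (x i))) ∪ Finset.univ.image c with hS
  obtain ⟨bad, hbad, hb⟩ := exists_bad_finset (O := O) (K := K) S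
  refine ⟨bad, hbad, ?_⟩
  intro t0 evO ev hpt hder ha hc h0
  obtain ⟨D, hD, hDj⟩ := exists_DE
  obtain ⟨Λ, hΛ⟩ := exists_Lam (K := K) (κ := κ) hpt jE jE_inj
  have M : Emb d jE D Λ := ⟨jE_inj, hD, hDj, Lam_D (K := K) hd hdO hder hD hDj hΛ⟩
  have hcn := hb t0 evO hpt jE_inj hΛ h0
  have C1 := calc_of (O := O) (K := K) M hΛ ha hc
  refine ⟨Re jE Λ t0, C1, ?_, ?_, ?_⟩
  · intro f
    exact Re.const (hpt.an f) (hΛ f).symm
  · intro i
    have hSi : ∀ y ∈ insert (constantCoeff (u i))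
        ((Finset.range (L i + 1)).image fun l => coeff l (x i)), Cn jE Λ t0 y := by
      intro y hy
      refine hcn y ?_
      rw [hS]
      exact Finset.mem_union_left _ (Finset.mem_biUnion.2 ⟨i, Finset.mem_univ _, hy⟩)
    have hco : ∀ l ≤ L i, Cn jE Λ t0 (coeff l (x i)) := by
      intro l hl
      exact hSi _ (Finset.mem_insert_of_mem (Finset.mem_image.2
        ⟨l, Finset.mem_range.2 (Nat.lt_succ_of_le hl), rfl⟩))
    obtain ⟨F, hF⟩ := newton jE_inj C1.coe (hP0 i) (hLu i) (hu0 i)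
      (hSi _ (Finset.mem_insert_self _ _)) hco
    refine ⟨F, hF, fun h1 => ?_⟩
    obtain ⟨g, hg1, hg2, hg3⟩ := hco 0 (Nat.zero_le _)
    rw [coeff_zero_eq_constantCoeff_apply] at hg2 hg3
    rw [hF.val_eq jE_inj hg2]
    exact hg3 h1
  · intro i
    obtain ⟨g, hg1, hg2, hg3⟩ := hcn (c i) (by
      rw [hS]
      exact Finset.mem_union_right _ (Finset.mem_image.2 ⟨i, Finset.mem_univ _, rfl⟩))
    exact ⟨g, hg1, Re.const hg1 hg2, hg3⟩

end

end Vale.Agent.P097.H435.S10
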