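import Vale.Agent.P097.H288.Div

/-!
# Taylor series in one and in two variables

`T1 f t` is the Taylor series of `f` at `t`; `T2 F t` is the Taylor series of `F` in the second
variable, at the point `(t, 0)`.
-/

open Filter Topology

namespace Vale.Agent.P097.H435.S10

/-- Taylor coefficient -/
noncomputable def tc (f : ℂ → ℂ) (l : ℕ) (t : ℂ) : ℂ := iteratedDeriv l f t / (l.factorial : ℂ)

/-- Taylor series -/
noncomputable def T1 (f : ℂ → ℂ) (t : ℂ) : PowerSeries ℂ := PowerSeries.mk fun l => tc f l t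

/-- Taylor coefficient in the second variable -/
noncomputable def cf (F : ℂ × ℂ → ℂ) (l : ℕ) (t : ℂ) : ℂ :=
  iteratedDeriv l (fun s => F (t, s)) 0 / (l.factorial : ℂ)

/-- derivative in the first variable -/
noncomputable def DT (F : ℂ × ℂ → ℂ) (u : ℂ × ℂ) : ℂ := fderiv ℂ F u (1, 0)

/-- derivative in the second variable -/
noncomputable def DS (F : ℂ × ℂ → ℂ) (u : ℂ × ℂ) : ℂ := fderiv ℂ F u (0, 1)

/-! ### one variable -/

section one

variable {f g : ℂ → ℂ} {t : ℂ}

theorem T1_congr (h : f =ᶠ[𝓝 t] g) : T1 f t = T1 g t := by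
  ext l
  simp only [T1, PowerSeries.coeff_mk, tc]
  rw [h.iteratedDeriv_eq l]

theorem cd (hf : AnalyticAt ℂ f t) (l : ℕ) : ContDiffAt ℂ l f t := hf.contDiffAt

theorem T1_add (hf : AnalyticAt ℂ f t) (hg : AnalyticAt ℂ g t) :
    T1 (fun x => f x + g x) t = T1 f t + T1 g t := by
  ext l
  have h := iteratedDeriv_add (n := l) (cd hf l) (cd hg l)
  simp only [T1, PowerSeries.coeff_mk, tc, map_add]
  rw [← add_div]
  exact congrArg (fun z => z / (l.factorial : ℂ)) h

theorem T1_mul (hf : AnalyticAt ℂ f t) (hg : AnalyticAt ℂ g t) :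
    T1 (fun x => f x * g x) t = T1 f t * T1 g t := by
  ext l
  rw [PowerSeries.coeff_mul, Finset.Nat.sum_antidiagonal_eq_sum_range_succ_mk]
  simp only [T1, PowerSeries.coeff_mk, tc]
  rw [iteratedDeriv_fun_mul (cd hf l) (cd hg l), Finset.sum_div]
  refine Finset.sum_congr rfl fun i hi => ?_
  have hi' : i ≤ l := Nat.lt_succ_iff.1 (Finset.mem_range.1 hi)
  have h1 : (l.factorial : ℂ) = (l.choose i : ℂ) * (i.factorial : ℂ) * ((l - i).factorial : ℂ) := by
    have := Nat.choose_mul_factorial_mul_factorial hi'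
    exact_mod_cast this.symm
  have h2 : (i.factorial : ℂ) ≠ 0 := by exact_mod_cast i.factorial_ne_zero
  have h3 : ((l - i).factorial : ℂ) ≠ 0 := by exact_mod_cast (l - i).factorial_ne_zero
  have h4 : (l.choose i : ℂ) ≠ 0 := by exact_mod_cast (Nat.choose_pos hi').ne'
  rw [h1]
  field_simp

theorem T1_const (c : ℂ) : T1 (fun _ => c) t = PowerSeries.C c := by
  ext l
  simp only [T1, PowerSeries.coeff_mk, tc, PowerSeries.coeff_C]
  rw [iteratedDeriv_const]
  rcases l with _ | l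
  · simp
  · simp

theorem constantCoeff_T1 : PowerSeries.constantCoeff (T1 f t) = f t := by
  rw [← PowerSeries.coeff_zero_eq_constantCoeff_apply]
  simp [T1, tc]

theorem T1_neg : T1 (fun x => - f x) t = - T1 f t := by
  ext l
  have h := iteratedDeriv_fun_neg (𝕜 := ℂ) l f t
  simp only [T1, PowerSeries.coeff_mk, tc, map_neg]
  rw [h, neg_div]

theorem T1_deriv : T1 (deriv f) t = PowerSeries.derivative ℂ (T1 f t) := by
  ext l
  simp only [T1, PowerSeries.coeff_mk, tc, PowerSeries.coeff_derivative]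
  rw [← iteratedDeriv_succ', Nat.factorial_succ]
  have h2 : (l.factorial : ℂ) ≠ 0 := by exact_mod_cast l.factorial_ne_zero
  have h3 : ((l : ℂ) + 1) ≠ 0 := by exact_mod_cast l.succ_ne_zero
  push_cast
  field_simp

theorem T1_inj (hf : AnalyticAt ℂ f t) (h : T1 f t = 0) : ∀ᶠ x in 𝓝 t, f x = 0 := by
  obtain ⟨r, hr, hb⟩ := hf.exists_ball_analyticOnNhd
  filter_upwards [Metric.ball_mem_nhds t hr] with x hx
  have h1 := Complex.hasSum_taylorSeries_on_ball (f := f) (c := t) (r := r)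
    hb.differentiableOn hx
  have h2 : ∀ n, iteratedDeriv n f t = 0 := by
    intro n
    have h3 : PowerSeries.coeff n (T1 f t) = 0 := by rw [h]; simp
    simp only [T1, PowerSeries.coeff_mk, tc] at h3
    have h4 : (n.factorial : ℂ) ≠ 0 := by exact_mod_cast n.factorial_ne_zero
    exact (div_eq_zero_iff.1 h3).resolve_right h4
  simp only [h2, smul_zero] at h1
  exact h1.unique hasSum_zero

end one

/-! ### two variables -/

section two

variable {F G : ℂ × ℂ → ℂ} {t s : ℂ}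

theorem analyticAt_DS {u : ℂ × ℂ} (hF : AnalyticAt ℂ F u) : AnalyticAt ℂ (DS F) u :=
  ((ContinuousLinearMap.apply ℂ ℂ ((0 : ℂ), (1 : ℂ))).analyticAt _).comp hF.fderiv

theorem analyticAt_DT {u : ℂ × ℂ} (hF : AnalyticAt ℂ F u) : AnalyticAt ℂ (DT F) u :=
  ((ContinuousLinearMap.apply ℂ ℂ ((1 : ℂ), (0 : ℂ))).analyticAt _).comp hF.fderiv

theorem analyticAt_iter {u : ℂ × ℂ} (hF : AnalyticAt ℂ F u) (l : ℕ) :
    AnalyticAt ℂ (DS^[l] F) u := by
  induction l with
  | zero => exact hF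
  | succ l ih => rw [Function.iterate_succ_apply']; exact analyticAt_DS ih

theorem hasDerivAt_s {u : ℂ × ℂ} (hF : AnalyticAt ℂ F u) :
    HasDerivAt (fun s => F (u.1, s)) (DS F u) u.2 := by
  have h1 : HasDerivAt (fun s : ℂ => (u.1, s)) ((0 : ℂ), (1 : ℂ)) u.2 :=
    (hasDerivAt_const _ _).prodMk (hasDerivAt_id _)
  exact hF.differentiableAt.hasFDerivAt.comp_hasDerivAt u.2 h1

theorem hasDerivAt_t {u : ℂ × ℂ} (hF : AnalyticAt ℂ F u) :
    HasDerivAt (fun t => F (t, u.2)) (DT F u) u.1 := by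
  have h1 : HasDerivAt (fun t : ℂ => (t, u.2)) ((1 : ℂ), (0 : ℂ)) u.1 :=
    (hasDerivAt_id _).prodMk (hasDerivAt_const _ _)
  exact hF.differentiableAt.hasFDerivAt.comp_hasDerivAt u.1 h1

theorem DS_congr {u : ℂ × ℂ} (h : F =ᶠ[𝓝 u] G) : DS F =ᶠ[𝓝 u] DS G := by
  filter_upwards [h.fderiv (𝕜 := ℂ)] with v hv
  simp only [DS, hv]

theorem DT_congr {u : ℂ × ℂ} (h : F =ᶠ[𝓝 u] G) : DT F =ᶠ[𝓝 u] DT G := by
  filter_upwards [h.fderiv (𝕜 := ℂ)] with v hv
  simp only [DT, hv]

theorem iter_eq {u : ℂ × ℂ} (hF : AnalyticAt ℂ F u) (l : ℕ) :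
    iteratedDeriv l (fun s => F (u.1, s)) u.2 = DS^[l] F u := by
  induction l generalizing u with
  | zero => simp
  | succ l ih =>
    rw [iteratedDeriv_succ, Function.iterate_succ_apply']
    have h1 : ∀ᶠ s in 𝓝 u.2, AnalyticAt ℂ F (u.1, s) := by
      have hc : ContinuousAt (fun s : ℂ => (u.1, s)) u.2 := by fun_prop
      exact hc.eventually hF.eventually_analyticAt
    have h2 : iteratedDeriv l (fun s => F (u.1, s)) =ᶠ[𝓝 u.2] fun s => DS^[l] F (u.1, s) := by
      filter_upwards [h1] with s hs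
      exact ih hs
    rw [h2.deriv_eq]
    exact (hasDerivAt_s (analyticAt_iter hF l)).deriv

theorem cf_eq (hF : AnalyticAt ℂ F (t, 0)) (l : ℕ) :
    cf F l t = DS^[l] F (t, 0) / (l.factorial : ℂ) := by
  have h := iter_eq hF l
  simp only at h
  rw [cf, h]

theorem eventually_t {p : ℂ × ℂ → Prop} (h : ∀ᶠ u in 𝓝 (t, (0 : ℂ)), p u) :
    ∀ᶠ x in 𝓝 t, p (x, 0) := by
  have hc : ContinuousAt (fun x : ℂ => (x, (0 : ℂ))) t := by fun_prop
  exact hc.eventually h

theorem eventually_s {p : ℂ × ℂ → Prop} (h : ∀ᶠ u in 𝓝 (t, (0 : ℂ)), p u) :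
    ∀ᶠ x in 𝓝 (0 : ℂ), p (t, x) := by
  have hc : ContinuousAt (fun x : ℂ => (t, x)) 0 := by fun_prop
  exact hc.eventually h

theorem analyticAt_s (hF : AnalyticAt ℂ F (t, s)) : AnalyticAt ℂ (fun x => F (t, x)) s :=
  AnalyticAt.comp (g := F) (f := fun x : ℂ => (t, x)) hF (by fun_prop)

theorem analyticAt_t (hF : AnalyticAt ℂ F (t, s)) : AnalyticAt ℂ (fun x => F (x, s)) t :=
  AnalyticAt.comp (g := F) (f := fun x : ℂ => (x, s)) hF (by fun_prop)

theorem cf_eq_eventually (hF : AnalyticAt ℂ F (t, 0)) (l : ℕ) :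
    cf F l =ᶠ[𝓝 t] fun x => DS^[l] F (x, 0) / (l.factorial : ℂ) := by
  filter_upwards [eventually_t hF.eventually_analyticAt] with x hx
  exact cf_eq hx l

theorem cf_analyticAt (hF : AnalyticAt ℂ F (t, 0)) (l : ℕ) : AnalyticAt ℂ (cf F l) t := by
  refine AnalyticAt.congr ?_ (cf_eq_eventually hF l).symm
  exact (analyticAt_t (analyticAt_iter hF l)).div_const

theorem cf_congr (h : F =ᶠ[𝓝 (t, (0 : ℂ))] G) (l : ℕ) : cf F l =ᶠ[𝓝 t] cf G l := by
  have h1 := eventually_t h.eventuallyEq_nhds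
  filter_upwards [h1] with x hx
  have h2 : (fun s => F (x, s)) =ᶠ[𝓝 0] fun s => G (x, s) := eventually_s hx
  simp only [cf, h2.iteratedDeriv_eq l]

theorem cf_zero (F : ℂ × ℂ → ℂ) (t : ℂ) : cf F 0 t = F (t, 0) := by simp [cf]

theorem cf_DS (F : ℂ × ℂ → ℂ) (hF : AnalyticAt ℂ F (t, 0)) (l : ℕ) :
    cf (DS F) l t = ((l : ℂ) + 1) * cf F (l + 1) t := by
  have h1 : (fun s => DS F (t, s)) =ᶠ[𝓝 0] deriv (fun s => F (t, s)) := by
    filter_upwards [eventually_s hF.eventually_analyticAt] with s hs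
    exact (hasDerivAt_s hs).deriv.symm
  simp only [cf]
  rw [h1.iteratedDeriv_eq l, ← iteratedDeriv_succ', Nat.factorial_succ]
  have h2 : (l.factorial : ℂ) ≠ 0 := by exact_mod_cast l.factorial_ne_zero
  have h3 : ((l : ℂ) + 1) ≠ 0 := by exact_mod_cast l.succ_ne_zero
  push_cast
  field_simp

theorem DT_DS_comm {u : ℂ × ℂ} (hF : AnalyticAt ℂ F u) : DS (DT F) u = DT (DS F) u := by
  have h1 : DifferentiableAt ℂ (fderiv ℂ F) u := hF.fderiv.differentiableAt
  have h2 : ∀ v w : ℂ × ℂ, fderiv ℂ (fun x => fderiv ℂ F x v) u w = fderiv ℂ (fderiv ℂ F) u w v := by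
    intro v w
    have h3 : HasFDerivAt (fun x => fderiv ℂ F x v)
        ((ContinuousLinearMap.apply ℂ ℂ v).comp (fderiv ℂ (fderiv ℂ F) u)) u :=
      (ContinuousLinearMap.apply ℂ ℂ v).hasFDerivAt.comp u h1.hasFDerivAt
    rw [h3.fderiv]
    rfl
  have h4 : IsSymmSndFDerivAt ℂ F u := by
    refine ContDiffAt.isSymmSndFDerivAt (n := 2) hF.contDiffAt ?_
    simp
  show fderiv ℂ (fun x => fderiv ℂ F x (1, 0)) u (0, 1) =
    fderiv ℂ (fun x => fderiv ℂ F x (0, 1)) u (1, 0)
  rw [h2, h2]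
  exact h4.eq _ _

theorem DT_iter_comm {u : ℂ × ℂ} (hF : AnalyticAt ℂ F u) (l : ℕ) :
    DS^[l] (DT F) u = DT (DS^[l] F) u := by
  induction l generalizing u with
  | zero => rfl
  | succ l ih =>
    rw [Function.iterate_succ_apply', Function.iterate_succ_apply']
    have h1 : DS^[l] (DT F) =ᶠ[𝓝 u] DT (DS^[l] F) := by
      filter_upwards [hF.eventually_analyticAt] with v hv
      exact ih hv
    rw [(DS_congr h1).eq_of_nhds]
    exact DT_DS_comm (analyticAt_iter hF l)

theorem cf_DT (hF : AnalyticAt ℂ F (t, 0)) (l : ℕ) : cf (DT F) l =ᶠ[𝓝 t] deriv (cf F l) := by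
  have h1 := (cf_eq_eventually hF l).eventuallyEq_nhds
  filter_upwards [h1, eventually_t hF.eventually_analyticAt] with x hx hFx
  rw [hx.deriv_eq, cf_eq (analyticAt_DT hFx), DT_iter_comm hFx]
  have h2 := hasDerivAt_t (analyticAt_iter hFx l)
  simp only at h2
  exact (h2.div_const _).deriv.symm

theorem cf_add (hF : AnalyticAt ℂ F (t, 0)) (hG : AnalyticAt ℂ G (t, 0)) (l : ℕ) :
    cf (fun u => F u + G u) l t = cf F l t + cf G l t := by
  have h := congrArg (PowerSeries.coeff l) (T1_add (analyticAt_s hF) (analyticAt_s hG))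
  simpa [T1, tc, cf] using h

theorem cf_mul (hF : AnalyticAt ℂ F (t, 0)) (hG : AnalyticAt ℂ G (t, 0)) (l : ℕ) :
    cf (fun u => F u * G u) l t = ∑ p ∈ Finset.HasAntidiagonal.antidiagonal l, cf F p.1 t * cf G p.2 t := by
  have h := congrArg (PowerSeries.coeff l) (T1_mul (analyticAt_s hF) (analyticAt_s hG))
  rw [PowerSeries.coeff_mul] at h
  simpa [T1, tc, cf] using h

theorem cf_neg (F : ℂ × ℂ → ℂ) (t : ℂ) (l : ℕ) :
    cf (fun u => - F u) l t = - cf F l t := by
  have h := congrArg (PowerSeries.coeff l) (T1_neg (f := fun s => F (t, s)) (t := 0))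
  simpa [T1, tc, cf] using h

theorem cf_const (c : ℂ) (l : ℕ) : cf (fun _ => c) l t = if l = 0 then c else 0 := by
  have h := congrArg (PowerSeries.coeff l) (T1_const (t := 0) c)
  rw [PowerSeries.coeff_C] at h
  simpa [T1, tc, cf] using h

/-- functions of `t` only -/
theorem cf_fst (f : ℂ → ℂ) (l : ℕ) (t : ℂ) : cf (fun u => f u.1) l t = if l = 0 then f t else 0 :=
  cf_const (t := t) (f t) l

theorem hasSum_cf {r : ℝ} (hb : AnalyticOnNhd ℂ F (Metric.ball (t, 0) r)) {x s : ℂ}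
    (hx : x ∈ Metric.ball t r) (hs : s ∈ Metric.ball (0 : ℂ) r) :
    HasSum (fun l => s ^ l * cf F l x) (F (x, s)) := by
  have h0 : ∀ s ∈ Metric.ball (0 : ℂ) r, (x, s) ∈ Metric.ball (t, (0 : ℂ)) r := by
    intro s hs
    rw [← ball_prod_same]
    exact ⟨hx, hs⟩
  have h1 : DifferentiableOn ℂ (fun s => F (x, s)) (Metric.ball 0 r) := fun s hs =>
    (analyticAt_s (hb _ (h0 s hs))).differentiableAt.differentiableWithinAt
  have h2 := Complex.hasSum_taylorSeries_on_ball h1 hs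
  have h3 : (fun l => s ^ l * cf F l x) = fun n : ℕ =>
      ((n.factorial : ℂ))⁻¹ • (s - 0) ^ n • iteratedDeriv n (fun s => F (x, s)) 0 := by
    funext l
    rw [cf, sub_zero, smul_eq_mul, smul_eq_mul]
    ring
  rw [h3]
  exact h2

/-- identity theorem for the coefficients: each coefficient vanishes near `t` -/
theorem eq_zero_of_cf (hF : AnalyticAt ℂ F (t, 0)) (h : ∀ l, ∀ᶠ x in 𝓝 t, cf F l x = 0) :
    ∀ᶠ u in 𝓝 (t, (0 : ℂ)), F u = 0 := by
  obtain ⟨r, hr, hb⟩ := hF.exists_ball_analyticOnNhd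
  have h1 : ∀ l, Set.EqOn (cf F l) 0 (Metric.ball t r) := by
    intro l
    have ha : AnalyticOnNhd ℂ (cf F l) (Metric.ball t r) := by
      intro x hx
      refine cf_analyticAt (hb _ ?_) l
      rw [← ball_prod_same]
      exact ⟨hx, Metric.mem_ball_self hr⟩
    exact ha.eqOn_zero_of_preconnected_of_eventuallyEq_zero
      (convex_ball _ _).isPreconnected (Metric.mem_ball_self hr) (h l)
  filter_upwards [Metric.ball_mem_nhds _ hr] with u hu
  rw [← ball_prod_same] at hu
  have h2 := hasSum_cf hb hu.1 hu.2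
  have h3 : (fun l => u.2 ^ l * cf F l u.1) = fun _ => 0 := by
    funext l
    rw [h1 l hu.1, Pi.zero_apply, mul_zero]
  rw [h3] at h2
  exact (h2.unique hasSum_zero)

/-- division by a power of the second variable -/
theorem exists_div_pow (m : ℕ) (hF : AnalyticAt ℂ F (t, 0))
    (h : ∀ l < m, ∀ᶠ x in 𝓝 t, cf F l x = 0) :
    ∃ G : ℂ × ℂ → ℂ, AnalyticAt ℂ G (t, 0) ∧ ∀ᶠ u in 𝓝 (t, (0 : ℂ)), F u = u.2 ^ m * G u := by
  induction m generalizing F with
  | zero => exact ⟨F, hF, Filter.Eventually.of_forall fun u => by simp⟩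
  | succ m ih =>
    have h0 : ∀ᶠ x in 𝓝 t, F (x, 0) = 0 := by
      filter_upwards [h 0 (Nat.succ_pos m)] with x hx
      rwa [cf_zero] at hx
    obtain ⟨Q, hQ, hQ1, -⟩ := H288.exists_div hF h0
    have h1 : ∀ l, ∀ᶠ x in 𝓝 t, cf F (l + 1) x = cf Q l x := by
      intro l
      have h2 : F =ᶠ[𝓝 (t, (0 : ℂ))] fun u => u.2 * Q u := hQ1
      filter_upwards [cf_congr h2 (l + 1), eventually_t hQ.eventually_analyticAt] with x hx hQx
      rw [hx, cf_mul (F := fun u => u.2) analyticAt_snd hQx]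
      have h3 : ∀ n, cf (fun u : ℂ × ℂ => u.2) n x = if n = 1 then 1 else 0 := by
        intro n
        simp only [cf]
        rcases n with _ | _ | n
        · simp
        · simp [iteratedDeriv_succ]
        · rw [iteratedDeriv_succ', iteratedDeriv_succ']
          simp
      rw [Finset.sum_eq_single (1, l)]
      · simp [h3]
      · intro b hb hne
        rw [h3]
        split_ifs with h4
        · exfalso
          apply hne
          have h5 := Finset.HasAntidiagonal.mem_antidiagonal.1 hb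
          ext
          · exact h4
          · simp only
            omega
        · rw [zero_mul]
      · intro h4
        exact absurd (Finset.HasAntidiagonal.mem_antidiagonal.2 (by simp only; omega)) h4
    obtain ⟨G, hG, hG1⟩ := ih hQ fun l hl => by
      filter_upwards [h1 l, h (l + 1) (by omega)] with x hx hx'
      rw [← hx, hx']
    refine ⟨G, hG, ?_⟩
    filter_upwards [hQ1, hG1] with u hu hu'
    rw [hu, hu', smul_eq_mul]
    ring

end two

end Vale.Agent.P097.H435.S10
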